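import Mathlib
import Vale.Agent.P347.Defs
import Vale.Agent.P347.Inv

/-!
# P347: `γ_* ≤ 1/5` (helper16). Statements of the modules.

Compared with `Defs.lean` (exponent `1/4`): the errors of the steps are added in relative entropy,
the exactly invariant comparison step is (half turn with `J → ∞` kicks) followed by a Gibbs refresh,
and the step has one extra node `c = -β` with weight `(1-β)/β`. See `BLUEPRINT5.md`.
-/

namespace LCS.Fifth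

open MeasureTheory ProbabilityTheory Set Filter InformationTheory
open scoped ENNReal NNReal Topology RealInnerProductSpace BigOperators ContDiff

/-! ### General relative entropy modules -/

/-- iterates of a Markov kernel -/
noncomputable def itm {X : Type} [MeasurableSpace X] (κ : Kernel X X) (μ : Measure X) :
    ℕ → Measure X
  | 0 => μ
  | n + 1 => (itm κ μ n).bind κ

/-- the kernel `x ↦ law of F (x, y)`, `y ~ Γ` -/
noncomputable def mk {X Y Z : Type} [MeasurableSpace X] [MeasurableSpace Y] [MeasurableSpace Z]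
    (F : X × Y → Z) (Γ : Measure Y) : Kernel X Z :=
  (Kernel.id ×ₖ Kernel.const X Γ).map F

/-- PIN: Pinsker (with a worse constant). -/
def S_PIN : Prop := ∀ (X : Type) [MeasurableSpace X] (μ ν : Measure X) [IsProbabilityMeasure μ]
  [IsProbabilityMeasure ν] (ε : ℝ), 0 ≤ ε → klDiv μ ν ≤ ENNReal.ofReal ε → TV μ ν (2 * √ε)

/-- KLI: relative entropy of two mixtures over the same parameter, and of composition products. -/
def S_KLI : Prop := ∀ (X Y : Type) [MeasurableSpace X] [MeasurableSpace Y] [StandardBorelSpace X]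
  [StandardBorelSpace Y] (μ : Measure X) [IsProbabilityMeasure μ] (κ η : Kernel X Y)
  [IsMarkovKernel κ] [IsMarkovKernel η] (g : X → ℝ≥0∞), Measurable g →
  (∀ x, klDiv (κ x) (η x) ≤ g x) →
  klDiv (μ.compProd κ) (μ.compProd η) ≤ ∫⁻ x, g x ∂μ ∧
    klDiv (μ.bind κ) (μ.bind η) ≤ ∫⁻ x, g x ∂μ

/-- CHN: chain rule bound for the iterates (from KLI). -/
def S_CHN : Prop := ∀ (X : Type) [MeasurableSpace X] [StandardBorelSpace X] (μ : Measure X)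
  [IsProbabilityMeasure μ] (κ η : Kernel X X) [IsMarkovKernel κ] [IsMarkovKernel η]
  (g : X → ℝ≥0∞), Measurable g → (∀ x, klDiv (κ x) (η x) ≤ g x) → ∀ N : ℕ,
  klDiv (itm κ μ N) (itm η μ N) ≤ ∑ i ∈ Finset.range N, ∫⁻ x, g x ∂(itm κ μ i)

/-- HYB: an almost invariant kernel against a comparison kernel (from CHN, PIN, KLI). -/
def S_HYB : Prop := ∀ (X : Type) [MeasurableSpace X] [StandardBorelSpace X] (μ : Measure X)
  [IsProbabilityMeasure μ] (N : ℕ) (ε : ℝ) (κ η : ℕ → Kernel X X) [∀ j, IsMarkovKernel (κ j)]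
  [∀ j, IsMarkovKernel (η j)] (g : ℕ → X → ℝ≥0∞) (M : ℝ≥0∞), 0 ≤ ε → M ≠ ⊤ →
  (∀ j, Measurable (g j)) → (∀ j x, klDiv (κ j x) (η j x) ≤ g j x) →
  (∀ j, ∫⁻ x, g j x ^ 2 ∂μ ≤ M) → (∀ᶠ j in atTop, ∫⁻ x, g j x ∂μ ≤ ENNReal.ofReal ε) →
  (∀ δ : ℝ, 0 < δ → ∀ᶠ j in atTop, TV (μ.bind (κ j)) μ δ) →
  ∀ δ : ℝ, 0 < δ → ∀ᶠ j in atTop, TV (itm (η j) μ N) μ (2 * √(N * ε) + δ)

/-- NKL: Lipschitz noise absorbed by Gaussian noise, in relative entropy (the chi-square bound of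
NOISE). -/
def S_NKL : Prop := ∀ (G : Type) [NormedAddCommGroup G] [InnerProductSpace ℝ G]
  [FiniteDimensional ℝ G] [MeasurableSpace G] [BorelSpace G] (d : ℕ) (F : G → E d) (L σ : ℝ),
  1 ≤ d → ContDiff ℝ 1 F → 0 ≤ L → (∀ x, ‖fderiv ℝ F x‖ ≤ L) → 0 < σ → L ≤ σ / 2 →
  klDiv (((stdGaussian G).prod (gam d)).map fun q => F q.1 + σ • q.2)
    ((gam d).map fun z => (∫ x, F x ∂(stdGaussian G)) + σ • z) ≤
      ENNReal.ofReal (7 * d * L ^ 4 / σ ^ 4)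

/-- GKL: entropy of `exp(-g) γ / Z` with respect to `γ`. -/
def S_GKL : Prop := ∀ (d : ℕ) (g : E d → ℝ) (a₀ a₁ : ℝ), ContDiff ℝ 1 g → 0 ≤ a₀ → 0 ≤ a₁ →
  a₁ ≤ 1 / 20 → (∀ x, ‖gradient g x‖ ≤ a₀ + a₁ * ‖x‖) →
  Integrable (fun y => Real.exp (-g y)) (gam d) ∧ IsProbabilityMeasure (loc g) ∧
    klDiv (loc g) (gam d) ≤ ENNReal.ofReal (10 * a₀ ^ 2 + 20 * a₁ ^ 2 * d)

/-- REN: the local density in `L²(γ)`, without restriction on `s A`. -/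
def S_REN : Prop := ∃ C : ℝ, 0 < C ∧ ∀ (d : ℕ) (s A : ℝ) (f : E d → ℝ), 0 < s → s ≤ 1 / 20 →
  √d ≤ A → Loc d s A f → Integrable (fun y => Real.exp (-f y)) (gam d) ∧
    Integrable (fun y => Real.exp (-2 * f y)) (gam d) ∧
    ∫ y, Real.exp (-2 * f y) ∂(gam d) ≤
      Real.exp (C * (s * A) ^ 2) * (∫ y, Real.exp (-f y) ∂(gam d)) ^ 2

/-- TRA: transfer of a second moment from `γ` to the local measure (from REN, MP). -/
def S_TRA : Prop := ∃ C : ℝ, 0 < C ∧ ∀ (d : ℕ) (s A ℓ e : ℝ) (f : E d → ℝ) (X : E d → E d),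
  0 < s → s ≤ 1 / 20 → √d ≤ A → Loc d s A f → 0 < ℓ → 0 ≤ e → Continuous X →
  (∀ x y, ‖X x - X y‖ ≤ ℓ * ‖x - y‖) → ∫⁻ y, ENNReal.ofReal (‖X y‖ ^ 2) ∂(gam d) ≤
    ENNReal.ofReal (e ^ 2) →
  ∫⁻ y, ENNReal.ofReal (‖X y‖ ^ 2) ∂(loc f) ≤
    ENNReal.ofReal (C * (e ^ 2 + ℓ ^ 2 * (1 + (s * A) ^ 2)))

/-- error of the quadrature of the Mehler averages -/
noncomputable def Tq {d J : ℕ} (c w : Fin J → ℝ) (f : E d → ℝ) (y : E d) : E d :=
  (∫ x in (-1 : ℝ)..1, Mh x (gradient f) y) - ∑ j, w j • Mh (c j) (gradient f) y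

/-- QL: quadrature error under the local measure (from MQ, TOW, MOLL, TRA). -/
def S_QL : Prop := ∃ C : ℝ, 0 < C ∧ ∀ (d J : ℕ) (s A η : ℝ) (c w : Fin J → ℝ) (f : E d → ℝ),
  1 ≤ d → 0 < s → s ≤ 1 / 20 → √d ≤ A → Loc d s A f → 0 ≤ η → Rule J η c w →
  ∫⁻ y, ENNReal.ofReal (‖Tq c w f y‖ ^ 2) ∂(loc f) ≤
    ENNReal.ofReal (C * ((η * (s * A)) ^ 2 + s ^ 2 + (s ^ 2 * A) ^ 2))

/-! ### The Gibbs refresh -/

/-- the conditional law `exp(-f) N(√β w, (1-β) I) / Z` -/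
noncomputable def gb {d : ℕ} (f : E d → ℝ) (β : ℝ) (w : E d) : Measure (E d) :=
  (loc fun ζ => f (√β • w + √(1 - β) • ζ)).map fun ζ => √β • w + √(1 - β) • ζ

/-- GIB: the Gibbs refresh preserves the local measure; change of centre. -/
def S_GIB : Prop := ∀ (d : ℕ) (f : E d → ℝ) (β : ℝ), Continuous f → 0 < β → β < 1 →
  Integrable (fun y => Real.exp (-f y)) (gam d) →
  (∀ w, Integrable (fun ζ => Real.exp (-f (√β • w + √(1 - β) • ζ))) (gam d)) →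
  (∀ B, MeasurableSet B → ∫⁻ q, gb f β (√β • q.1 + √(1 - β) • q.2) B ∂((loc f).prod (gam d)) =
    loc f B) ∧
  ∀ b w : E d, gb f β w =
    (loc fun ζ => f (b + √(1 - β) • ζ) + ⟪(1 / √(1 - β)) • (b - √β • w), ζ⟫).map
      fun ζ => b + √(1 - β) • ζ

/-- first component of the half turn with `J` kicks -/
noncomputable def turn {d : ℕ} (f : E d → ℝ) (J : ℕ) (y z : E d) : E d :=
  (((kick f (Real.pi / J))^[J]) (y, z)).1

/-- mean of the free displacement -/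
noncomputable def fbar {d : ℕ} (f : E d → ℝ) (J : ℕ) (y : E d) : E d :=
  ∫ z, freeD f J y z ∂(gam d)

/-- mean of the comparison half turn -/
noncomputable def mY {d J : ℕ} (c w : Fin J → ℝ) (f : E d → ℝ) (y : E d) : E d :=
  -(y + ∑ j, w j • Mh (c j) (gradient f) y)

/-- centre of the Gaussian comparison step, given `y`, `z`, `z₁`; `n` = number of kicks -/
noncomputable def cen {d J : ℕ} (β : ℝ) (c w : Fin J → ℝ) (f : E d → ℝ) (n : ℕ)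
    (y z z₁ : E d) : E d :=
  √β • (√β • (mY c w f y - (freeD f n y z - fbar f n y)) + √(1 - β) • z₁)
    - (1 - β) • Mh (-β) (gradient f) y

/-- bound for the relative entropy of one step given the noises -/
noncomputable def bd {d J : ℕ} (s A β : ℝ) (c w : Fin J → ℝ) (f : E d → ℝ) (n : ℕ)
    (y z z₁ : E d) : ℝ :=
  (1 - β) ^ 2 * s ^ 2 * (d + ‖z₁‖ ^ 2) + (s ^ 2 * (A + ‖y‖ + ‖z‖)) ^ 2 / (1 - β)
    + (‖fbar f n y - ∫ x in (-1 : ℝ)..1, Mh x (gradient f) y‖ ^ 2 + ‖Tq c w f y‖ ^ 2) / (1 - β)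

/-- LKL: relative entropy of the exact step against the Gaussian step, given the noises
(from GKL, GIB, PATH). -/
def S_LKL : Prop := ∃ C : ℝ, 0 < C ∧ ∀ (d J n : ℕ) (s A β : ℝ) (c w : Fin J → ℝ) (f : E d → ℝ),
  1 ≤ d → 0 < s → s ≤ 1 / 1000 → √d ≤ A → Loc d s A f → 1 / 2 ≤ β → β < 1 → 1 ≤ n →
  (∀ j, c j ∈ Ioo (-1 : ℝ) 1) → (∀ j, 0 < w j) → ∑ j, w j = 2 → ∀ y z z₁ : E d,
  klDiv (gb f β (√β • turn f n y z + √(1 - β) • z₁))
    ((gam d).map fun ζ => cen β c w f n y z z₁ + √(1 - β) • ζ) ≤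
    ENNReal.ofReal (C * bd s A β c w f n y z z₁)

/-- PATH without restriction on `s A`, and Lipschitz bound of the free displacement. -/
def S_PATH5 : Prop := ∃ C : ℝ, 0 < C ∧ ∀ (d : ℕ) (s A : ℝ) (f : E d → ℝ), 0 < s → s ≤ 1 / 20 →
  √d ≤ A → Loc d s A f → ∀ (n : ℕ), 1 ≤ n →
    (∀ y z : E d, ‖turn f n y z - (-y - freeD f n y z)‖ ≤ C * s ^ 2 * (A + ‖y‖ + ‖z‖)) ∧
    ContDiff ℝ 1 (fun q : E d × E d => freeD f n q.1 q.2) ∧
    (∀ y z : E d, ‖fderiv ℝ (fun z => freeD f n y z) z‖ ≤ 8 * s) ∧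
    (∀ y z : E d, ‖freeD f n y z‖ ≤ 8 * s * (A + ‖y‖ + ‖z‖))

/-! ### The global step -/

/-- mean of the new velocity -/
noncomputable def mean5 {d J : ℕ} (V : E d → ℝ) (s β : ℝ) (c w : Fin J → ℝ) (q : E d × E d) :
    E d :=
  β • (q.2 - √s • ∑ j, w j • ∫ z, gradient V (node V s (c j) q.1 q.2 z) ∂(gam d))

/-- the ideal step -/
noncomputable def nstep5 {d J : ℕ} (V : E d → ℝ) (s β : ℝ) (c w : Fin J → ℝ)
    (q : (E d × E d) × E d) : E d × E d :=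
  (q.1.1 + (2 * √s) • (mean5 V s β c w q.1 + √(1 - β ^ 2) • q.2),
    mean5 V s β c w q.1 + √(1 - β ^ 2) • q.2)

/-- the random mean -/
noncomputable def rmean5 {d J : ℕ} (V : E d → ℝ) (s β : ℝ) (c w : Fin J → ℝ) (q : E d × E d)
    (ξ : Fin J → E d) : E d :=
  β • (q.2 - √s • ∑ j, w j • gradient V (node V s (c j) q.1 q.2 (ξ j)))

/-- the step of the algorithm -/
noncomputable def pstep5 {d J : ℕ} (V : E d → ℝ) (s β : ℝ) (c w : Fin J → ℝ)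
    (q : (E d × E d) × ((Fin J → E d) × E d)) : E d × E d :=
  (q.1.1 + (2 * √s) • (rmean5 V s β c w q.1 q.2.1 + √(1 - β ^ 2) • q.2.2),
    rmean5 V s β c w q.1 q.2.1 + √(1 - β ^ 2) • q.2.2)

/-- the law of the algorithm's chain, started at `(0,0)` -/
noncomputable def chain5 {d J : ℕ} (V : E d → ℝ) (s β : ℝ) (c w : Fin J → ℝ) :
    ℕ → Measure (E d × E d)
  | 0 => Measure.dirac (0, 0)
  | n + 1 => ((chain5 V s β c w n).prod (aux d J)).map (pstep5 V s β c w)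

/-- the nodes with the extra node `-β` -/
noncomputable def cx {J : ℕ} (β : ℝ) (c : Fin J → ℝ) : Fin (J + 1) → ℝ := Fin.snoc c (-β)

/-- the weights with the extra weight `(1-β)/β` -/
noncomputable def wx {J : ℕ} (β : ℝ) (w : Fin J → ℝ) : Fin (J + 1) → ℝ :=
  Fin.snoc w ((1 - β) / β)

/-- from the local variable `y''` (refreshed) to the new state -/
noncomputable def outp {d : ℕ} (V : E d → ℝ) (s : ℝ) (p y : E d) : E d × E d :=
  (p + (2 * √s) • (-(INV.c0 V s p + y)), -(INV.c0 V s p + y))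

/-- EXK: the exact kernel (half turn with `n` kicks, Gibbs refresh) as a Markov kernel
(from GIB, REN). -/
def S_EXK : Prop := ∀ (d n : ℕ) (V : E d → ℝ) (s β : ℝ), 1 ≤ d → Pot d V → 0 < s → s ≤ 1 / 1000 →
  0 < β → β < 1 → ∃ K : Kernel ((E d × E d) × (E d × E d)) (E d × E d), IsMarkovKernel K ∧
  ∀ q : (E d × E d) × (E d × E d), K q =
    (gb (INV.fp V s q.1.1) β (√β • turn (INV.fp V s q.1.1) n (q.1.2 - INV.c0 V s q.1.1) q.2.1
      + √(1 - β) • q.2.2)).map (outp V s q.1.1)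

/-- the comparison kernel, with noise `((z, z₁), ζ)` -/
noncomputable def cmpF {d J : ℕ} (V : E d → ℝ) (s β : ℝ) (c w : Fin J → ℝ) (n : ℕ)
    (q : (E d × E d) × ((E d × E d) × E d)) : E d × E d :=
  outp V s q.1.1 (cen β c w (INV.fp V s q.1.1) n (q.1.2 - INV.c0 V s q.1.1) q.2.1.1 q.2.1.2
    + √(1 - β) • q.2.2)

/-- the fibre constant `A_p` -/
noncomputable def Ap {d : ℕ} (V : E d → ℝ) (s : ℝ) (p : E d) : ℝ := √d + 2 * ‖INV.c0 V s p‖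

/-- FIB: the local potential at an arbitrary `p`; disintegration of `Pt`. -/
def S_FIB : Prop := ∀ (d : ℕ) (V : E d → ℝ) (s : ℝ), 1 ≤ d → Pot d V → 0 < s → s ≤ 1 / 1000 →
  (∀ p, Loc d s (Ap V s p) (INV.fp V s p)) ∧
  (∀ p, IsProbabilityMeasure (loc (INV.fp V s p))) ∧
  (∀ G : E d × E d → ℝ≥0∞, Measurable G → ∫⁻ q, G q ∂(Pt V s) =
    ∫⁻ q, ∫⁻ y, G (q.1, INV.c0 V s q.1 + y) ∂(loc (INV.fp V s q.1)) ∂(Pt V s)) ∧
  (Pt V s).map (fun q => (q.1 - (2 * √s) • q.2, -q.2)) = Pt V s ∧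
  (Pt V s).map (fun q => q.1 - √s • q.2) = gibbs V

/-- MEA: measurability of the comparison map; its law is the ideal step up to Lipschitz noise:
relative entropy bound (from NKL, PATH5, FIB). -/
def S_MEA : Prop := ∃ C : ℝ, 0 < C ∧ ∀ (d J n : ℕ) (V : E d → ℝ) (s β : ℝ) (c w : Fin J → ℝ),
  1 ≤ d → 1 ≤ n → Pot d V → 0 < s → s ≤ 1 / 1000 → 1 / 2 ≤ β → β < 1 → 16 * s ≤ √(1 - β ^ 2) →
  (∀ j, c j ∈ Ioo (-1 : ℝ) 1) → (∀ j, 0 < w j) → ∑ j, w j = 2 →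
  Measurable (cmpF V s β c w n) ∧ Measurable (nstep5 V s β (cx β c) (wx β w)) ∧
  ∀ q, klDiv ((((gam d).prod (gam d)).prod (gam d)).map fun r => cmpF V s β c w n (q, r))
    ((gam d).map fun z => nstep5 V s β (cx β c) (wx β w) (q, z)) ≤
      ENNReal.ofReal (C * d * s ^ 4 / (1 - β ^ 2) ^ 2)

/-- the state-dependent entropy bound of the exact step -/
noncomputable def gst {d J : ℕ} (V : E d → ℝ) (s β : ℝ) (c w : Fin J → ℝ) (n : ℕ)
    (q : E d × E d) : ℝ≥0∞ :=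
  ∫⁻ r, ENNReal.ofReal (bd s (Ap V s q.1) β c w (INV.fp V s q.1) n (q.2 - INV.c0 V s q.1) r.1 r.2)
    ∂((gam d).prod (gam d))

/-- GST: integrals of `gst` (from QL, FIB, MOM, RIEM, PATH5). -/
def S_GST : Prop := ∃ C : ℝ, 0 < C ∧ ∀ (d J : ℕ) (V : E d → ℝ) (s β η : ℝ) (c w : Fin J → ℝ),
  1 ≤ d → Pot d V → 0 < s → s ≤ 1 / 1000 → 1 / 2 ≤ β → β < 1 → 0 ≤ η → Rule J η c w →
  (∀ n, Measurable (gst V s β c w n)) ∧
  (∃ M : ℝ≥0∞, M ≠ ⊤ ∧ ∀ n, 1 ≤ n → ∫⁻ q, gst V s β c w n q ^ 2 ∂(Pt V s) ≤ M) ∧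
  ∀ᶠ n in atTop, ∫⁻ q, gst V s β c w n q ∂(Pt V s) ≤ ENNReal.ofReal
    (C * ((1 - β) ^ 2 * s ^ 2 * d + (s ^ 4 * d + η ^ 2 * s ^ 2 * d + s ^ 2) / (1 - β)))

/-- GIN: asymptotic invariance of `Pt` under the exact kernel (from ROT, GIB, FIB, TVP). -/
def S_GIN : Prop := ∀ (d : ℕ) (V : E d → ℝ) (s β : ℝ), 1 ≤ d → Pot d V → 0 < s → s ≤ 1 / 1000 →
  0 < β → β < 1 → ∀ K : ℕ → Kernel ((E d × E d) × (E d × E d)) (E d × E d),
  (∀ n, IsMarkovKernel (K n)) → (∀ n, ∀ q : (E d × E d) × (E d × E d), K n q =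
    (gb (INV.fp V s q.1.1) β (√β • turn (INV.fp V s q.1.1) n (q.1.2 - INV.c0 V s q.1.1) q.2.1
      + √(1 - β) • q.2.2)).map (outp V s q.1.1)) →
  ∀ δ : ℝ, 0 < δ → ∀ᶠ n in atTop,
    TV (((Pt V s).prod ((gam d).prod (gam d))).bind (K n)) (Pt V s) δ

/-- ROT5: asymptotic invariance of the half turn, uniformly in `f`, without restriction on
`s A`. -/
def S_ROT5 : Prop := ∀ (d : ℕ) (s A : ℝ), 1 ≤ d → 0 < s → s ≤ 1 / 20 → √d ≤ A →
  ∀ δ : ℝ, 0 < δ → ∀ᶠ n : ℕ in atTop, ∀ f : E d → ℝ, Loc d s A f →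
    TV (((loc f).prod (gam d)).map fun q => turn f n q.1 q.2) (loc f) δ

/-- INV5: the ideal chain started from `Pt` stays close to `Pt`
(from HYB, LKL, EXK, GIN, GST, MEA, CHN, PIN, KLI, FIB). -/
def S_INV5 : Prop := ∃ C : ℝ, 0 < C ∧ ∀ (d J N : ℕ) (V : E d → ℝ) (s β η : ℝ)
  (c w : Fin J → ℝ), 1 ≤ d → Pot d V → 0 < s → s ≤ 1 / 1000 → 1 / 2 ≤ β → β < 1 →
  16 * s ≤ √(1 - β ^ 2) → 0 ≤ η → Rule J η c w →
  TV (itm (mk (nstep5 V s β (cx β c) (wx β w)) (gam d)) (Pt V s) N) (Pt V s)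
    (C * √(N * ((1 - β) ^ 2 * s ^ 2 * d + (s ^ 4 * d + η ^ 2 * s ^ 2 * d + s ^ 2) / (1 - β)
      + d * s ^ 4 / (1 - β ^ 2) ^ 2)))

/-- PHAT5: one step of the algorithm against the ideal step, in relative entropy, uniformly in the
state (from NKL, LIP). -/
def S_PHAT5 : Prop := ∃ C : ℝ, 0 < C ∧ ∀ (d J : ℕ) (V : E d → ℝ) (s β : ℝ) (c w : Fin J → ℝ)
  (q : E d × E d), 1 ≤ d → Pot d V → 0 < s → s ≤ 1 / 1000 → 1 / 2 ≤ β → β < 1 →
  16 * s ≤ √(1 - β ^ 2) → (∀ j, c j ∈ Ioo (-1 : ℝ) 1) → (∀ j, 0 < w j) → β * ∑ j, w j = 1 + β →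
  Measurable (pstep5 V s β c w) ∧
  klDiv ((aux d J).map fun r => pstep5 V s β c w (q, r))
    ((gam d).map fun z => nstep5 V s β c w (q, z)) ≤ ENNReal.ofReal (C * d * s ^ 4 / (1 - β ^ 2) ^ 2)

/-- CONTR5: contraction of the ideal step, `h = 2√s`, `β = 1 - 2h`. -/
def S_CONTR5 : Prop := ∀ (d J : ℕ) (V : E d → ℝ) (h : ℝ) (c w : Fin J → ℝ), Pot d V → 0 < h →
  h ≤ 1 / 1000 → (∀ j, c j ∈ Ioo (-1 : ℝ) 1) → (∀ j, 0 < w j) →
  (1 - 2 * h) * ∑ j, w j = 2 - 2 * h →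
  ∀ (q q' : E d × E d) (z : E d),
    let a := nstep5 V (h ^ 2 / 4) (1 - 2 * h) c w (q, z)
    let b := nstep5 V (h ^ 2 / 4) (1 - 2 * h) c w (q', z)
    Phi (a.1 - b.1) (a.2 - b.2) ≤ (1 - h / 2) * Phi (q.1 - q'.1) (q.2 - q'.2)

/-- REG5: two ideal steps regularise. -/
def S_REG5 : Prop := ∃ C : ℝ, 0 < C ∧ ∀ (d J : ℕ) (V : E d → ℝ) (h : ℝ) (c w : Fin J → ℝ),
  Pot d V → 0 < h → h ≤ 1 / 1000 → (∀ j, c j ∈ Ioo (-1 : ℝ) 1) → (∀ j, 0 < w j) →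
  (1 - 2 * h) * ∑ j, w j = 2 - 2 * h → ∀ (q q' : E d × E d),
  TV (((gam d).prod (gam d)).map fun z => nstep5 V (h ^ 2 / 4) (1 - 2 * h) c w
      (nstep5 V (h ^ 2 / 4) (1 - 2 * h) c w (q, z.1), z.2))
    (((gam d).prod (gam d)).map fun z => nstep5 V (h ^ 2 / 4) (1 - 2 * h) c w
      (nstep5 V (h ^ 2 / 4) (1 - 2 * h) c w (q', z.1), z.2))
    (C * (‖q.1 - q'.1‖ + ‖q.2 - q'.2‖) / h ^ 2)

/-- SUM5: the law of the output of the chain
(from INV5, PHAT5, CONTR5, REG5, CHN, PIN, MOM, FIB, TVP, TVL). -/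
def S_SUM5 : Prop := ∃ C : ℝ, 0 < C ∧ ∀ (d J N : ℕ) (V : E d → ℝ) (h η : ℝ) (c w : Fin J → ℝ),
  1 ≤ d → Pot d V → 0 < h → h ≤ 1 / 1000 → 0 ≤ η → Rule J η c w →
  TV ((chain5 V (h ^ 2 / 4) (1 - 2 * h) (cx (1 - 2 * h) c) (wx (1 - 2 * h) w) (N + 2)).map
      fun q => q.1 - (h / 2) • q.2) (gibbs V)
    (C * (√((N + 2) * (h ^ 6 * d + η ^ 2 * h ^ 3 * d + h ^ 3)) + √d * (1 - h / 4) ^ N / h ^ 2))

/-- ALG5: the chain is an algorithm with `N (J + 1)` queries. -/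
def S_ALG5 : Prop := ∀ (d J N : ℕ) (s β : ℝ) (c w : Fin J → ℝ), ∃ A : Alg d (N * (J + 1)),
  ∀ V, Pot d V → A.law V = (chain5 V s β c w N).map fun q => q.1 - √s • q.2

/-- the final theorem: `Q(d) ≤ d^{1/5+ε}` for large `d`, and `limsup log Q(d) / log d ≤ 1/5` -/
def S_FINAL5 : Prop := (∀ ε : ℝ, 0 < ε → ∀ᶠ d : ℕ in atTop,
    Suffices d (Q d) ∧ (Q d : ℝ) ≤ (d : ℝ) ^ (1 / 5 + ε)) ∧
  Filter.limsup (fun d : ℕ => Real.log (Q d) / Real.log d) atTop ≤ 1 / 5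

end LCS.Fifth
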