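import Mathlib
import Vale.Agent.P347.Fifth.Defs5
import Vale.Agent.P347.Lip
import Vale.Agent.P347.Contr

/-!
# P347, module CONTR5 (helper15): contraction of the ideal step with the extra node
-/

namespace LCS.Fifth

open MeasureTheory ProbabilityTheory Set Filter LCS.CONTR
open scoped ENNReal NNReal Topology RealInnerProductSpace ContDiff

namespace CONTR5

theorem real6 (h R p u e1 T : ℝ) (hh : 0 < h) (hh1 : h ≤ 1 / 1000) (hR : 0 ≤ R) (hp0 : 0 ≤ p)
    (hp : p ≤ R) (hu : u ≤ 2 * R) (he : e1 ≤ 2 * h ^ 2 * (2 * p) / 2 + h * u)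
    (hT : T ≤ 2 * h * p + e1) : T ≤ 12 * h * R := by
  have g2 : h * p ≤ h * R := mul_le_mul_of_nonneg_left hp hh.le
  have g3 : h * u ≤ h * (2 * R) := mul_le_mul_of_nonneg_left hu hh.le
  have g4 : h * (h * p) ≤ 1 / 1000 * (h * p) := mul_le_mul_of_nonneg_right hh1 (by positivity)
  have g5 : 2 * h ^ 2 * (2 * p) / 2 = 2 * (h * (h * p)) := by ring
  have g6 : 0 ≤ h * R := by positivity
  rw [g5] at he
  linarith

theorem real7 (h S B : ℝ) (hh : 0 < h) (hB : 0 ≤ B) (hS : S ≤ (2 - 2 * h) * B) :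
    1 / 2 * S ≤ B := by
  have : 0 ≤ h * B := by positivity
  linarith

/-- algebra of the sum of the node differences -/
theorem sumT {d J : ℕ} (w c : Fin J → ℝ) (D N : Fin J → E d) (P U G0 : E d) (h : ℝ)
    (hsum : ∑ j, w j = 2 - 2 * h)
    (hD : ∀ j, D j = P - (h / 2) • ((1 - c j) • ((h / 2) • G0) + c j • U)) :
    ∑ j, w j • ((2 : ℝ) • D j - N j) = (4 - 4 * h) • P
      - (2 : ℝ) • ((h / 2) • ((h / 2 * ∑ j, w j * (1 - c j)) • G0 + (∑ j, w j * c j) • U))
      - (2 : ℝ) • ((1 / 2 : ℝ) • ∑ j, w j • N j) := by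
  have s1 : ∀ j, w j • ((2 : ℝ) • D j - N j) = w j • ((2 : ℝ) • P)
      - (w j * (1 - c j)) • ((h * (h / 2)) • G0) - (w j * c j) • (h • U) - w j • N j := by
    intro j
    rw [hD]
    module
  rw [Finset.sum_congr rfl (fun j _ => s1 j), Finset.sum_sub_distrib, Finset.sum_sub_distrib,
    Finset.sum_sub_distrib, ← Finset.sum_smul, ← Finset.sum_smul, ← Finset.sum_smul, hsum]
  module

end CONTR5

open CONTR5

theorem contr5 : S_CONTR5 := by
  intro d J V h c w0 hV hh hh1 hc hw0 hsum0 q q' z a b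
  obtain ⟨hl1, hl2, -, hgc, -⟩ := LCS.lip d V hV
  have hb0 : 0 < 1 - 2 * h := by linarith
  set w : Fin J → ℝ := fun j => (1 - 2 * h) * w0 j with hwdef
  have hw : ∀ j, 0 < w j := fun j => mul_pos hb0 (hw0 j)
  have hsum : ∑ j, w j = 2 - 2 * h := by rw [← hsum0, Finset.mul_sum]
  have hsq : √(h ^ 2 / 4) = h / 2 := by
    rw [show h ^ 2 / 4 = (h / 2) ^ 2 by ring, Real.sqrt_sq (by positivity)]
  set P : E d := q.1 - q'.1 with hP
  set U : E d := q.2 - q'.2 with hU
  set G0 : E d := gradient V q.1 - gradient V q'.1 with hG0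
  set I : Fin J → E d := fun j => ∫ z, gradient V (node V (h ^ 2 / 4) (c j) q.1 q.2 z) ∂(gam d)
    with hI
  set I' : Fin J → E d := fun j => ∫ z, gradient V (node V (h ^ 2 / 4) (c j) q'.1 q'.2 z) ∂(gam d)
    with hI'
  set Dl : Fin J → E d := fun j => P - (h / 2) • ((1 - c j) • ((h / 2) • G0) + c j • U) with hDl
  have hG0n : ‖G0‖ ≤ 2 * ‖P‖ := hl1 _ _
  -- node differences
  have hnode : ∀ j z, node V (h ^ 2 / 4) (c j) q.1 q.2 z - node V (h ^ 2 / 4) (c j) q'.1 q'.2 z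
      = Dl j := by
    intro j z
    simp only [node, hDl, hsq, hP, hU, hG0]
    module
  have hnodelip : ∀ j (p v : E d) (x y : E d),
      ‖gradient V (node V (h ^ 2 / 4) (c j) p v x) - gradient V (node V (h ^ 2 / 4) (c j) p v y)‖
      ≤ (2 * (h / 2 * |√(1 - c j ^ 2)|)) * ‖x - y‖ := by
    intro j p v x y
    refine (hl1 _ _).trans ?_
    have : node V (h ^ 2 / 4) (c j) p v x - node V (h ^ 2 / 4) (c j) p v y
        = -((h / 2 * √(1 - c j ^ 2)) • (x - y)) := by
      simp only [node, hsq]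
      module
    rw [this, norm_neg, norm_smul, Real.norm_eq_abs, abs_mul, abs_of_pos (by positivity : 0 < h / 2)]
    exact le_of_eq (by ring)
  have hint : ∀ j (p v : E d), Integrable (fun z => gradient V (node V (h ^ 2 / 4) (c j) p v z))
      (gam d) := fun j p v => integrable_lip _ _ (hnodelip j p v)
  set N : Fin J → E d := fun j => (2 : ℝ) • Dl j - (I j - I' j) with hN
  have hNn : ∀ j, ‖N j‖ ≤ ‖Dl j‖ := by
    intro j
    have e1 : N j = ∫ z, ((2 : ℝ) • Dl j - (gradient V (node V (h ^ 2 / 4) (c j) q.1 q.2 z)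
        - gradient V (node V (h ^ 2 / 4) (c j) q'.1 q'.2 z))) ∂(gam d) := by
      have t1 : Integrable (fun z => gradient V (node V (h ^ 2 / 4) (c j) q.1 q.2 z)
        - gradient V (node V (h ^ 2 / 4) (c j) q'.1 q'.2 z)) (gam d) :=
        (hint j q.1 q.2).sub (hint j q'.1 q'.2)
      rw [integral_sub (integrable_const _) t1, integral_sub (hint _ _ _) (hint _ _ _)]
      simp [hN, hI, hI']
    rw [e1]
    refine (norm_integral_le_of_norm_le_const (C := ‖Dl j‖) (ae_of_all _ fun z => ?_)).trans ?_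
    · have := hl2 (node V (h ^ 2 / 4) (c j) q.1 q.2 z) (node V (h ^ 2 / 4) (c j) q'.1 q'.2 z)
      rw [hnode] at this
      refine le_trans (le_of_eq ?_) this
      congr 1
      rw [← hnode j z]
      module
    · simp
  have hDln : ∀ j, ‖Dl j‖ ≤ ‖P‖ + (h ^ 2 * ‖P‖ + h / 2 * ‖U‖) := by
    intro j
    have hcj := hc j
    rw [mem_Ioo] at hcj
    have a1 : |1 - c j| ≤ 2 := by rw [abs_le]; constructor <;> linarith
    have a2 : |c j| ≤ 1 := by rw [abs_le]; constructor <;> linarith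
    refine (norm_sub_le _ _).trans (add_le_add le_rfl ?_)
    rw [norm_smul, Real.norm_eq_abs, abs_of_pos (by positivity : 0 < h / 2)]
    have a3 : ‖(1 - c j) • ((h / 2) • G0) + c j • U‖ ≤ 2 * (h / 2 * (2 * ‖P‖)) + 1 * ‖U‖ := by
      refine (norm_add_le _ _).trans ?_
      rw [norm_smul, norm_smul, norm_smul, Real.norm_eq_abs, Real.norm_eq_abs, Real.norm_eq_abs,
        abs_of_pos (by positivity : 0 < h / 2)]
      gcongr
    calc h / 2 * ‖(1 - c j) • ((h / 2) • G0) + c j • U‖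
        ≤ h / 2 * (2 * (h / 2 * (2 * ‖P‖)) + 1 * ‖U‖) := mul_le_mul_of_nonneg_left a3 (by positivity)
      _ = _ := by ring
  set n : E d := (1 / 2 : ℝ) • ∑ j, w j • N j with hn
  have hnn : ‖n‖ ≤ ‖P‖ + (h ^ 2 * ‖P‖ + h / 2 * ‖U‖) := by
    rw [hn, norm_smul, Real.norm_eq_abs, abs_of_pos (by norm_num : (0 : ℝ) < 1 / 2)]
    have : ‖∑ j, w j • N j‖ ≤ ∑ j, w j * (‖P‖ + (h ^ 2 * ‖P‖ + h / 2 * ‖U‖)) := by
      refine (norm_sum_le _ _).trans (Finset.sum_le_sum fun j _ => ?_)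
      rw [norm_smul, Real.norm_eq_abs, abs_of_pos (hw j)]
      exact mul_le_mul_of_nonneg_left ((hNn j).trans (hDln j)) (hw j).le
    rw [← Finset.sum_mul, hsum] at this
    exact real7 h _ _ hh (by positivity) this
  set κ1 : ℝ := ∑ j, w j * (1 - c j) with hκ1
  set κ2 : ℝ := ∑ j, w j * c j with hκ2
  have hκ1n : |κ1| ≤ 4 := by
    refine (Finset.abs_sum_le_sum_abs _ _).trans ?_
    have : ∑ j, |w j * (1 - c j)| ≤ ∑ j, w j * 2 := by
      refine Finset.sum_le_sum fun j _ => ?_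
      have hcj := hc j
      rw [mem_Ioo] at hcj
      rw [abs_mul, abs_of_pos (hw j)]
      exact mul_le_mul_of_nonneg_left (by rw [abs_le]; constructor <;> linarith) (hw j).le
    rw [← Finset.sum_mul, hsum] at this
    linarith
  have hκ2n : |κ2| ≤ 2 := by
    refine (Finset.abs_sum_le_sum_abs _ _).trans ?_
    have : ∑ j, |w j * c j| ≤ ∑ j, w j * 1 := by
      refine Finset.sum_le_sum fun j _ => ?_
      have hcj := hc j
      rw [mem_Ioo] at hcj
      rw [abs_mul, abs_of_pos (hw j)]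
      exact mul_le_mul_of_nonneg_left (by rw [abs_le]; constructor <;> linarith) (hw j).le
    rw [← Finset.sum_mul, hsum] at this
    linarith
  set e1 : E d := (h / 2) • ((h / 2 * κ1) • G0 + κ2 • U) with he1
  have he1n : ‖e1‖ ≤ 2 * h ^ 2 * (2 * ‖P‖) / 2 + h * ‖U‖ := by
    rw [he1, norm_smul, Real.norm_eq_abs, abs_of_pos (by positivity : 0 < h / 2)]
    have a3 : ‖(h / 2 * κ1) • G0 + κ2 • U‖ ≤ (h / 2 * 4) * (2 * ‖P‖) + 2 * ‖U‖ := by
      refine (norm_add_le _ _).trans ?_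
      rw [norm_smul, norm_smul, Real.norm_eq_abs, Real.norm_eq_abs, abs_mul,
        abs_of_pos (by positivity : 0 < h / 2)]
      gcongr
    calc h / 2 * ‖(h / 2 * κ1) • G0 + κ2 • U‖
        ≤ h / 2 * ((h / 2 * 4) * (2 * ‖P‖) + 2 * ‖U‖) := mul_le_mul_of_nonneg_left a3 (by positivity)
      _ = _ := by ring
  -- the sum
  have hT : ∑ j, w j • (I j - I' j) = (4 - 4 * h) • P - (2 : ℝ) • e1 - (2 : ℝ) • n := by
    have s0 : ∀ j, w j • (I j - I' j) = w j • ((2 : ℝ) • Dl j - N j) := by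
      intro j
      simp only [hN]
      congr 1
      abel
    rw [Finset.sum_congr rfl (fun j _ => s0 j),
      sumT w c Dl N P U G0 h hsum (fun j => rfl)]
  -- mean difference
  set X : E d := (2 : ℝ) • (P + U) - n + (-((2 * h) • P) - e1)
    with hX
  have hmean : mean5 V (h ^ 2 / 4) (1 - 2 * h) c w0 q - mean5 V (h ^ 2 / 4) (1 - 2 * h) c w0 q'
      = U - h • X := by
    have s1 : mean5 V (h ^ 2 / 4) (1 - 2 * h) c w0 q - mean5 V (h ^ 2 / 4) (1 - 2 * h) c w0 q'
        = (1 - 2 * h) • U - (h / 2) • (∑ j, w j • (I j - I' j)) := by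
      have s2 : ∑ j, w j • (I j - I' j) = (1 - 2 * h) • (∑ j, w0 j • I j)
          - (1 - 2 * h) • ∑ j, w0 j • I' j := by
        rw [Finset.smul_sum, Finset.smul_sum, ← Finset.sum_sub_distrib]
        refine Finset.sum_congr rfl fun j _ => ?_
        simp only [hwdef]
        module
      rw [s2]
      simp only [mean5, hsq, hI, hI', hU]
      module
    rw [s1, hT, hX]
    module
  have hab1 : a.1 - b.1 = P + h • (U - h • X) := by
    have : a.1 - b.1 = (q.1 - q'.1) + (2 * √(h ^ 2 / 4)) •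
        (mean5 V (h ^ 2 / 4) (1 - 2 * h) c w0 q - mean5 V (h ^ 2 / 4) (1 - 2 * h) c w0 q') := by
      simp only [a, b, nstep5]
      module
    rw [this, hmean, hsq, ← hP]
    congr 2
    ring
  have hab2 : a.2 - b.2 = U - h • X := by
    rw [← hmean]
    simp only [a, b, nstep5]
    abel
  rw [hab1, hab2]
  set R : ℝ := √(Phi P U) with hR
  have hPhi0 : 0 ≤ Phi P U := by unfold Phi; positivity
  have hR2 : R ^ 2 = Phi P U := Real.sq_sqrt hPhi0
  have hR0 : 0 ≤ R := Real.sqrt_nonneg _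
  have hPR : ‖P‖ ≤ R := by
    apply le_of_sq_le_sq _ hR0
    rw [hR2, Phi]
    nlinarith [sq_nonneg ‖P + U‖]
  have hWR : ‖P + U‖ ≤ R := by
    apply le_of_sq_le_sq _ hR0
    rw [hR2, Phi]
    nlinarith [sq_nonneg ‖P‖]
  have hUR : ‖U‖ ≤ 2 * R := by
    have : U = (P + U) - P := by abel
    rw [this]
    refine (norm_sub_le _ _).trans ?_
    linarith
  have hnfin : ‖n‖ ≤ ‖P‖ + 2 * h * R := real4 h R _ _ _ hh hh1 hR0 hPR hUR hnn
  have hefin : ‖-((2 * h) • P) - e1‖ ≤ 12 * h * R := by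
    have g1 : ‖-((2 * h) • P) - e1‖ ≤ 2 * h * ‖P‖ + ‖e1‖ := by
      refine (norm_sub_le _ _).trans ?_
      rw [norm_neg, norm_smul, Real.norm_eq_abs, abs_of_pos (by positivity : 0 < 2 * h)]
    exact real6 h R _ _ _ _ hh hh1 hR0 (norm_nonneg _) hPR hUR he1n g1
  exact key P U n _ h R hh hh1 hR0 hR2 hnfin hefin

end LCS.Fifth
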