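import Vale.Agent.P347.Fifth.Gin

/-!
# P347, module EXK: the exact kernel (helper21)
-/

namespace LCS.Fifth

open MeasureTheory ProbabilityTheory Set Filter InformationTheory
open scoped ENNReal NNReal Topology RealInnerProductSpace BigOperators ContDiff

namespace EXK

variable {d : ℕ} {V : E d → ℝ}

lemma meas_c0 (hV : Pot d V) (s : ℝ) : Measurable fun p : E d => INV.c0 V s p := by
  have := (INV.cont_grad LCS.lip hV).measurable
  unfold INV.c0
  fun_prop

lemma meas_grad (hV : Pot d V) (s : ℝ) :
    Measurable fun q : E d × E d => gradient (INV.fp V s q.1) q.2 := by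
  have h1 := (INV.cont_grad LCS.lip hV).measurable
  have h2 := meas_c0 hV s
  have e : (fun q : E d × E d => gradient (INV.fp V s q.1) q.2) = fun q =>
      √s • (gradient V q.1 - gradient V (q.1 - √s • (INV.c0 V s q.1 + q.2))) := by
    funext q
    exact INV.grad_fp hV s q.1 q.2
  rw [e]
  fun_prop

lemma meas_fp (hV : Pot d V) (s : ℝ) :
    Measurable fun q : E d × E d => INV.fp V s q.1 q.2 := by
  have h1 := (INV.cont_grad LCS.lip hV).measurable
  have h2 := meas_c0 hV s
  have h3 : Measurable V := hV.smooth.continuous.measurable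
  unfold INV.fp
  fun_prop

lemma meas_kick (hV : Pot d V) (s τ : ℝ) (n : ℕ) :
    Measurable fun q : E d × (E d × E d) => (kick (INV.fp V s q.1) τ)^[n] q.2 := by
  induction n with
  | zero => exact measurable_snd
  | succ n ih =>
    have e : (fun q : E d × (E d × E d) => (kick (INV.fp V s q.1) τ)^[n + 1] q.2) =
        fun q => kick (INV.fp V s q.1) τ ((kick (INV.fp V s q.1) τ)^[n] q.2) := by
      funext q
      exact Function.iterate_succ_apply' _ _ _
    rw [e]
    have hg := meas_grad hV s
    have hk : Measurable fun q : E d × (E d × E d) => kick (INV.fp V s q.1) τ q.2 := by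
      unfold kick
      have hg' : Measurable fun q : E d × (E d × E d) => gradient (INV.fp V s q.1) q.2.1 :=
        hg.comp (f := fun q : E d × (E d × E d) => (q.1, q.2.1)) (by fun_prop)
      fun_prop
    exact hk.comp (measurable_fst.prodMk ih)

lemma meas_turn (hV : Pot d V) (s : ℝ) (n : ℕ) :
    Measurable fun q : (E d × E d) × E d => turn (INV.fp V s q.1.1) n q.1.2 q.2 := by
  unfold turn
  exact measurable_fst.comp ((meas_kick hV s (Real.pi / n) n).comp
    (f := fun q : (E d × E d) × E d => (q.1.1, (q.1.2, q.2))) (by fun_prop))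

/-- the centre of the refresh -/
noncomputable def cw (V : E d → ℝ) (s β : ℝ) (n : ℕ) (q : (E d × E d) × (E d × E d)) : E d :=
  √β • turn (INV.fp V s q.1.1) n (q.1.2 - INV.c0 V s q.1.1) q.2.1 + √(1 - β) • q.2.2

lemma meas_cw (hV : Pot d V) (s β : ℝ) (n : ℕ) : Measurable (cw V s β n) := by
  unfold cw
  have hc := meas_c0 hV s
  have h1 : Measurable fun q : (E d × E d) × (E d × E d) =>
      turn (INV.fp V s q.1.1) n (q.1.2 - INV.c0 V s q.1.1) q.2.1 :=
    (meas_turn hV s n).comp (f := fun q : (E d × E d) × (E d × E d) =>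
      ((q.1.1, q.1.2 - INV.c0 V s q.1.1), q.2.1)) (by fun_prop)
  fun_prop

lemma meas_outp (hV : Pot d V) (s : ℝ) :
    Measurable fun q : E d × E d => outp V s q.1 q.2 := by
  have hc := meas_c0 hV s
  unfold outp
  fun_prop

/-- the value of the exact kernel -/
noncomputable def val (V : E d → ℝ) (s β : ℝ) (n : ℕ) (q : (E d × E d) × (E d × E d)) :
    Measure (E d × E d) :=
  (gb (INV.fp V s q.1.1) β (cw V s β n q)).map (outp V s q.1.1)

lemma meas_val (hV : Pot d V) (s β : ℝ) (n : ℕ) : Measurable (val V s β n) := by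
  refine Measure.measurable_of_measurable_coe _ fun B hB => ?_
  have hcw := meas_cw hV s β n
  have ho := meas_outp hV s
  have hop : ∀ p : E d, Measurable (outp V s p) := fun p => ho.comp measurable_prodMk_left
  have hf := meas_fp hV s
  -- the joint maps
  have hpt : Measurable fun r : ((E d × E d) × (E d × E d)) × E d =>
      √β • cw V s β n r.1 + √(1 - β) • r.2 := by fun_prop
  have hD : Measurable fun r : ((E d × E d) × (E d × E d)) × E d =>
      ENNReal.ofReal (Real.exp (-INV.fp V s r.1.1.1 (√β • cw V s β n r.1 + √(1 - β) • r.2))) := by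
    have : Measurable fun r : ((E d × E d) × (E d × E d)) × E d =>
        INV.fp V s r.1.1.1 (√β • cw V s β n r.1 + √(1 - β) • r.2) :=
      hf.comp (f := fun r : ((E d × E d) × (E d × E d)) × E d =>
        (r.1.1.1, √β • cw V s β n r.1 + √(1 - β) • r.2)) (by fun_prop)
    fun_prop
  have hI : Measurable fun r : ((E d × E d) × (E d × E d)) × E d =>
      ((outp V s r.1.1.1 ⁻¹' B).indicator 1 (√β • cw V s β n r.1 + √(1 - β) • r.2) : ℝ≥0∞) := by
    have h1 : Measurable fun r : ((E d × E d) × (E d × E d)) × E d =>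
        outp V s r.1.1.1 (√β • cw V s β n r.1 + √(1 - β) • r.2) :=
      ho.comp (f := fun r : ((E d × E d) × (E d × E d)) × E d =>
        (r.1.1.1, √β • cw V s β n r.1 + √(1 - β) • r.2)) (by fun_prop)
    have h2 : Measurable fun x : E d × E d => (B.indicator 1 x : ℝ≥0∞) :=
      measurable_one.indicator hB
    exact h2.comp h1
  have e : ∀ q, val V s β n q B =
      (∫⁻ ζ, ENNReal.ofReal (Real.exp (-INV.fp V s q.1.1 (√β • cw V s β n q + √(1 - β) • ζ)))
        ∂(gam d))⁻¹ *
      ∫⁻ ζ, (outp V s q.1.1 ⁻¹' B).indicator 1 (√β • cw V s β n q + √(1 - β) • ζ) *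
        ENNReal.ofReal (Real.exp (-INV.fp V s q.1.1 (√β • cw V s β n q + √(1 - β) • ζ)))
          ∂(gam d) := by
    intro q
    unfold val
    rw [Measure.map_apply (hop _) hB,
      GIN.gb_apply (INV.fp_smooth hV s q.1.1).continuous β _ (hop q.1.1 hB)]
  simp_rw [e]
  exact (Measurable.lintegral_prod_right' hD).inv.mul
    (Measurable.lintegral_prod_right' (hI.mul hD))

/-- the local measure of a continuous potential with integrable weight is a probability measure -/
lemma loc_prob {g : E d → ℝ} (hg : Measurable g)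
    (hi : Integrable (fun y => Real.exp (-g y)) (gam d)) : IsProbabilityMeasure (loc g) := by
  constructor
  have h := INV.lintegral_loc hg (fun _ => 1) measurable_const
  simp only [lintegral_const, one_mul] at h
  rw [h]
  refine ENNReal.inv_mul_cancel ?_ ?_
  · intro h0
    rw [lintegral_eq_zero_iff (by fun_prop)] at h0
    have h2 : ∀ᵐ y ∂(gam d), False := by
      filter_upwards [h0] with y hy
      simp only [Pi.zero_apply, ENNReal.ofReal_eq_zero] at hy
      exact absurd hy (not_le.mpr (Real.exp_pos _))
    rw [ae_iff] at h2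
    simp at h2
  · have h1 := hi.2
    rw [hasFiniteIntegral_iff_ofReal (ae_of_all _ fun x => Real.exp_nonneg _)] at h1
    exact h1.ne

lemma gb_prob (hV : Pot d V) (s β : ℝ) (p w : E d) : IsProbabilityMeasure (gb (INV.fp V s p) β w) := by
  have hc : Continuous (INV.fp V s p) := (INV.fp_smooth hV s p).continuous
  have hh : Measurable fun ζ : E d => √β • w + √(1 - β) • ζ := by fun_prop
  have h1 : IsProbabilityMeasure (loc fun ζ => INV.fp V s p (√β • w + √(1 - β) • ζ)) :=
    loc_prob (hc.measurable.comp hh) (GIN.integrable_fp hV s p (√β • w) (√(1 - β)))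
  unfold gb
  exact Measure.isProbabilityMeasure_map hh.aemeasurable

end EXK

/-- EXK -/
theorem exk : S_EXK := by
  intro d n V s β hd hV hs hs1 hβ hβ1
  refine ⟨⟨EXK.val V s β n, EXK.meas_val hV s β n⟩, ⟨fun q => ?_⟩, fun q => rfl⟩
  have h1 := EXK.gb_prob hV s β q.1.1 (EXK.cw V s β n q)
  have ho : Measurable (outp V s q.1.1) := (EXK.meas_outp hV s).comp measurable_prodMk_left
  exact Measure.isProbabilityMeasure_map ho.aemeasurable

end LCS.Fifth

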