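import Vale.Agent.P347.Fifth.Defs5
import Vale.Agent.P347.CM
import Vale.Agent.P347.Lip

/-!
# P347, module FIB: local potential at an arbitrary `p`, disintegration of `Pt` (helper21)
-/

namespace LCS.Fifth

open MeasureTheory ProbabilityTheory Set Filter InformationTheory
open scoped ENNReal NNReal Topology RealInnerProductSpace BigOperators ContDiff

namespace FIB

variable {d : ℕ} {V : E d → ℝ}

lemma loc_fp (hV : Pot d V) {s : ℝ} (hs : 0 < s) (p : E d) :
    Loc d s (Ap V s p) (INV.fp V s p) := by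
  obtain ⟨l1, -, -, -, -⟩ := LCS.lip d V hV
  refine ⟨INV.fp_smooth hV s p, fun x v => ?_, fun x v => ?_, ?_⟩
  · rw [INV.hess_fp hV hs.le]
    have := hV.lower (p - √s • (INV.c0 V s p + x)) v
    have h2 := sq_nonneg ‖v‖
    exact mul_nonneg hs.le (h2.trans this)
  · rw [INV.hess_fp hV hs.le]
    have := hV.upper (p - √s • (INV.c0 V s p + x)) v
    nlinarith
  · rw [INV.grad_fp hV, norm_smul, Real.norm_of_nonneg (Real.sqrt_nonneg s), add_zero]
    have h1 := l1 p (p - √s • INV.c0 V s p)
    rw [sub_sub_cancel, norm_smul, Real.norm_of_nonneg (Real.sqrt_nonneg s)] at h1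
    have hss : √s * √s = s := Real.mul_self_sqrt hs.le
    have hs0 : 0 ≤ √s := Real.sqrt_nonneg s
    have hd0 : 0 ≤ √(d : ℝ) := Real.sqrt_nonneg _
    calc √s * ‖gradient V p - gradient V (p - √s • INV.c0 V s p)‖
        ≤ √s * (2 * (√s * ‖INV.c0 V s p‖)) := by gcongr
      _ = s * (2 * ‖INV.c0 V s p‖) := by
          linear_combination (2 * ‖INV.c0 V s p‖) * hss
      _ ≤ s * (Ap V s p) := by
          unfold Ap
          gcongr
          linarith

/-- joint measurability of the local density -/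
lemma measurable_dens (hV : Pot d V) (s : ℝ) :
    Measurable fun q : E d × E d => ENNReal.ofReal (Real.exp (-INV.fp V s q.1 q.2)) := by
  have hg : Continuous (gradient V) := (LCS.lip d V hV).2.2.2.1.continuous
  have hVc : Continuous V := hV.smooth.continuous
  have h : Continuous fun q : E d × E d => INV.fp V s q.1 q.2 := by
    unfold INV.fp INV.c0
    fun_prop
  have := h.measurable
  fun_prop

lemma measurable_fib (hV : Pot d V) (s : ℝ) (G : E d × E d → ℝ≥0∞) (hG : Measurable G) :
    Measurable fun p : E d => ∫⁻ y, G (p, INV.c0 V s p + y) ∂(loc (INV.fp V s p)) := by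
  have hg : Measurable (gradient V) := (LCS.lip d V hV).2.2.2.1.continuous.measurable
  have hc : Measurable (INV.c0 V s) := by unfold INV.c0; fun_prop
  have hD := measurable_dens hV s
  have hGm : Measurable fun q : E d × E d => G (q.1, INV.c0 V s q.1 + q.2) :=
    hG.comp (by fun_prop)
  have e : ∀ p : E d, ∫⁻ y, G (p, INV.c0 V s p + y) ∂(loc (INV.fp V s p)) =
      (∫⁻ y, ENNReal.ofReal (Real.exp (-INV.fp V s p y)) ∂(gam d))⁻¹ *
        ∫⁻ y, G (p, INV.c0 V s p + y) * ENNReal.ofReal (Real.exp (-INV.fp V s p y)) ∂(gam d) :=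
    fun p => INV.lintegral_loc (INV.fp_smooth hV s p).continuous.measurable _
      (hGm.comp measurable_prodMk_left)
  simp_rw [e]
  exact (Measurable.lintegral_prod_right' hD).inv.mul
    (Measurable.lintegral_prod_right' (hGm.mul hD))

lemma disint (hV : Pot d V) (s : ℝ) (G : E d × E d → ℝ≥0∞) (hG : Measurable G) :
    ∫⁻ q, G q ∂(Pt V s) =
      ∫⁻ q, ∫⁻ y, G (q.1, INV.c0 V s q.1 + y) ∂(loc (INV.fp V s q.1)) ∂(Pt V s) := by
  have hP : IsProbabilityMeasure (gibbs V) := (LCS.lip d V hV).2.2.2.2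
  have hm := measurable_fib hV s G hG
  rw [INV.lintegral_Pt hV s G hG, INV.lintegral_Pt hV s
    (fun q => ∫⁻ y, G (q.1, INV.c0 V s q.1 + y) ∂(loc (INV.fp V s q.1)))
    (hm.comp measurable_fst)]
  congr 1
  refine lintegral_congr fun p => ?_
  rw [INV.lintegral_fibre LCS.lip LCS.cm hV p (fun a => G (p, a))
    (hG.comp measurable_prodMk_left), mul_comm]
  unfold INV.M
  exact (lintegral_const_mul _ ((INV.measurable_w hV s).comp measurable_prodMk_left)).symm

lemma map_gibbs (hV : Pot d V) (s : ℝ) :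
    (Pt V s).map (fun q => q.1 - √s • q.2) = gibbs V := by
  have hP : IsProbabilityMeasure (gibbs V) := (LCS.lip d V hV).2.2.2.2
  unfold Pt
  rw [Measure.map_map (by fun_prop) (by fun_prop)]
  have e : ((fun q : E d × E d => q.1 - √s • q.2) ∘ fun q : E d × E d => (q.1 + √s • q.2, q.2)) =
      Prod.fst := by
    funext q
    simp
  rw [e]
  exact Measure.fst_prod

end FIB

/-- FIB -/
theorem fib : S_FIB := by
  intro d V s hd hV hs hs1
  have hP : IsProbabilityMeasure (gibbs V) := (LCS.lip d V hV).2.2.2.2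
  exact ⟨fun p => FIB.loc_fp hV hs p, fun p => INV.isProb_loc LCS.lip LCS.cm hV s p,
    fun G hG => FIB.disint hV s G hG, INV.Pt_inv s, FIB.map_gibbs hV s⟩

end LCS.Fifth

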