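import Mathlib
import Vale.Agent.P347.Fifth.Defs5
import Vale.Agent.P347.CM
import Vale.Agent.P347.LocBasic

/-! # P347, GIB: the Gibbs refresh preserves the local measure; change of centre -/

namespace LCS.Fifth

open MeasureTheory ProbabilityTheory Set Filter
open scoped ENNReal NNReal Topology RealInnerProductSpace BigOperators ContDiff

namespace GIB

variable {d : ℕ}

lemma rot (β : ℝ) (hβ : 0 < β) (hβ1 : β < 1) (F : E d × E d → ℝ≥0∞) (hF : Measurable F) :
    ∫⁻ q, F (√β • q.1 + √(1 - β) • q.2, q.1) ∂((gam d).prod (gam d)) =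
      ∫⁻ q, F (q.1, √β • q.1 + √(1 - β) • q.2) ∂((gam d).prod (gam d)) := by
  set θ : ℝ := Real.arccos (√β) with hθ
  have hs1 : √β ≤ 1 := Real.sqrt_le_one.mpr hβ1.le
  have hc : Real.cos θ = √β := Real.cos_arccos (by linarith [Real.sqrt_nonneg β]) hs1
  have hs : Real.sin θ = √(1 - β) := by rw [hθ, Real.sin_arccos, Real.sq_sqrt hβ.le]
  have hrot := IsGaussian.map_rotation_eq_self (μ := gam d)
      (show ∫ x, id x ∂(stdGaussian (E d)) = 0 from integral_id_stdGaussian) θ
  have hG : Measurable fun q : E d × E d => F (q.1, √β • q.1 - √(1 - β) • q.2) := by fun_prop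
  have e1 : ∫⁻ q, F (√β • q.1 + √(1 - β) • q.2, q.1) ∂((gam d).prod (gam d)) =
      ∫⁻ q, F (q.1, √β • q.1 - √(1 - β) • q.2)
        ∂(((gam d).prod (gam d)).map (ContinuousLinearMap.rotation θ)) := by
    rw [lintegral_map hG (ContinuousLinearMap.rotation (E := E d) θ).continuous.measurable]
    refine lintegral_congr fun q => ?_
    rw [ContinuousLinearMap.rotation_apply, hc, hs]
    congr 1
    refine Prod.ext rfl ?_
    simp only
    have h1 : √β * √β = β := Real.mul_self_sqrt hβ.le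
    have h2 : √(1 - β) * √(1 - β) = 1 - β := Real.mul_self_sqrt (by linarith)
    have h3 : √β • (√β • q.1 + √(1 - β) • q.2) - √(1 - β) • (-√(1 - β) • q.1 + √β • q.2)
        = (√β * √β + √(1 - β) * √(1 - β)) • q.1 := by module
    rw [h3, h1, h2]
    simp
  rw [e1, hrot, lintegral_prod _ hG.aemeasurable, lintegral_prod _ (by fun_prop)]
  refine lintegral_congr fun w => ?_
  have hneg : (gam d).map (fun y => -y) = gam d := stdGaussian_map (LinearIsometryEquiv.neg ℝ)
  conv_rhs => rw [← hneg]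
  rw [lintegral_map (by fun_prop) (by fun_prop)]
  refine lintegral_congr fun y => ?_
  simp only [smul_neg, sub_eq_add_neg]

lemma exp_ne (x : ℝ) : ENNReal.ofReal (Real.exp x) ≠ 0 := by
  simp [Real.exp_pos]

/-- integrals against `gb` -/
lemma lint (f : E d → ℝ) (hf : Continuous f) (β : ℝ) (w : E d) (G : E d → ℝ≥0∞)
    (hG : Measurable G) :
    ∫⁻ x, G x ∂(gb f β w) =
      (∫⁻ ζ, ENNReal.ofReal (Real.exp (-f (√β • w + √(1 - β) • ζ))) ∂(gam d))⁻¹ *
        ∫⁻ ζ, G (√β • w + √(1 - β) • ζ) *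
          ENNReal.ofReal (Real.exp (-f (√β • w + √(1 - β) • ζ))) ∂(gam d) := by
  have hm : Measurable fun ζ : E d => f (√β • w + √(1 - β) • ζ) :=
    (hf.comp (by fun_prop)).measurable
  unfold gb
  rw [lintegral_map hG (by fun_prop), INV.lintegral_loc hm _ (by fun_prop)]

end GIB

theorem gib : S_GIB := by
  intro d f β hf hβ hβ1 hi hiw
  have hfm : Measurable f := hf.measurable
  refine ⟨fun B hB => ?_, fun b w => ?_⟩
  · set e : E d → ℝ≥0∞ := fun y => ENNReal.ofReal (Real.exp (-f y)) with he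
    have hem : Measurable e := by fun_prop
    set ind : E d → ℝ≥0∞ := B.indicator 1 with hind
    have hindm : Measurable ind := measurable_one.indicator hB
    set N : E d → ℝ≥0∞ := fun w => ∫⁻ ζ, e (√β • w + √(1 - β) • ζ) ∂(gam d) with hN
    set M : E d → ℝ≥0∞ := fun w => ∫⁻ ζ, ind (√β • w + √(1 - β) • ζ) *
      e (√β • w + √(1 - β) • ζ) ∂(gam d) with hM
    have hNm : Measurable N := by
      apply Measurable.lintegral_prod_right' (f := fun q : E d × E d =>
        e (√β • q.1 + √(1 - β) • q.2))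
      fun_prop
    have hMm : Measurable M := by
      apply Measurable.lintegral_prod_right' (f := fun q : E d × E d =>
        ind (√β • q.1 + √(1 - β) • q.2) * e (√β • q.1 + √(1 - β) • q.2))
      fun_prop
    have hval : ∀ w, gb f β w B = (N w)⁻¹ * M w := by
      intro w
      have := GIB.lint f hf β w ind hindm
      rw [hind, lintegral_indicator_one hB] at this
      exact this
    have hN0 : ∀ w, N w ≠ 0 := by
      intro w h0
      have hmm : Measurable fun ζ : E d => e (√β • w + √(1 - β) • ζ) := by fun_prop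
      rw [hN] at h0
      simp only at h0
      rw [lintegral_eq_zero_iff hmm] at h0
      have : ∀ᵐ ζ ∂(gam d), False := by
        filter_upwards [h0] with ζ hζ
        exact GIB.exp_ne _ hζ
      simp at this
      exact (IsProbabilityMeasure.ne_zero (gam d)) this
    have hNt : ∀ w, N w ≠ ⊤ := fun w => (hiw w).lintegral_lt_top.ne
    have hGm : Measurable fun w => (N w)⁻¹ * M w := by fun_prop
    calc ∫⁻ q, gb f β (√β • q.1 + √(1 - β) • q.2) B ∂((loc f).prod (gam d))
        = ∫⁻ q, (N (√β • q.1 + √(1 - β) • q.2))⁻¹ * M (√β • q.1 + √(1 - β) • q.2)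
            ∂((loc f).prod (gam d)) := lintegral_congr fun q => hval _
      _ = ∫⁻ y, ∫⁻ z, (N (√β • y + √(1 - β) • z))⁻¹ * M (√β • y + √(1 - β) • z)
            ∂(gam d) ∂(loc f) := lintegral_prod _ (by fun_prop)
      _ = (∫⁻ y, e y ∂(gam d))⁻¹ * ∫⁻ y, (∫⁻ z, (N (√β • y + √(1 - β) • z))⁻¹ *
            M (√β • y + √(1 - β) • z) ∂(gam d)) * e y ∂(gam d) := by
          refine INV.lintegral_loc hfm _ ?_
          apply Measurable.lintegral_prod_right' (f := fun q : E d × E d =>
            (N (√β • q.1 + √(1 - β) • q.2))⁻¹ * M (√β • q.1 + √(1 - β) • q.2))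
          fun_prop
      _ = (∫⁻ y, e y ∂(gam d))⁻¹ * ∫⁻ q, ((N (√β • q.1 + √(1 - β) • q.2))⁻¹ *
            M (√β • q.1 + √(1 - β) • q.2)) * e q.1 ∂((gam d).prod (gam d)) := by
          congr 1
          rw [lintegral_prod _ (by fun_prop)]
          refine lintegral_congr fun y => ?_
          dsimp only
          rw [lintegral_mul_const _ (by fun_prop)]
      _ = (∫⁻ y, e y ∂(gam d))⁻¹ * ∫⁻ q, ((N q.1)⁻¹ * M q.1) *
            e (√β • q.1 + √(1 - β) • q.2) ∂((gam d).prod (gam d)) := by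
          congr 1
          exact GIB.rot β hβ hβ1 (fun q => ((N q.1)⁻¹ * M q.1) * e q.2) (by fun_prop)
      _ = (∫⁻ y, e y ∂(gam d))⁻¹ * ∫⁻ w, M w ∂(gam d) := by
          congr 1
          rw [lintegral_prod _ (by fun_prop)]
          refine lintegral_congr fun w => ?_
          dsimp only
          rw [lintegral_const_mul _ (by fun_prop)]
          change (N w)⁻¹ * M w * N w = M w
          rw [mul_comm (N w)⁻¹, mul_assoc, ENNReal.inv_mul_cancel (hN0 w) (hNt w), mul_one]
      _ = (∫⁻ y, e y ∂(gam d))⁻¹ * ∫⁻ q, ind (√β • q.1 + √(1 - β) • q.2) *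
            e (√β • q.1 + √(1 - β) • q.2) ∂((gam d).prod (gam d)) := by
          congr 1
          rw [lintegral_prod _ (by fun_prop)]
      _ = (∫⁻ y, e y ∂(gam d))⁻¹ * ∫⁻ q, ind q.1 * e q.1 ∂((gam d).prod (gam d)) := by
          congr 1
          exact (GIB.rot β hβ hβ1 (fun q => ind q.2 * e q.2) (by fun_prop)).symm
      _ = (∫⁻ y, e y ∂(gam d))⁻¹ * ∫⁻ y, ind y * e y ∂(gam d) := by
          congr 1
          rw [lintegral_prod _ (by fun_prop)]
          simp
      _ = loc f B := by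
          rw [← INV.lintegral_loc hfm ind hindm, hind, lintegral_indicator_one hB]
  · set u : E d := (1 / √(1 - β)) • (b - √β • w) with hu
    have hr : √(1 - β) ≠ 0 := (Real.sqrt_pos.mpr (by linarith)).ne'
    have hT : ∀ ζ : E d, √β • w + √(1 - β) • (u + ζ) = b + √(1 - β) • ζ := by
      intro ζ
      have h1 : √(1 - β) • u = b - √β • w := by
        rw [hu, smul_smul, mul_one_div, div_self hr, one_smul]
      rw [smul_add, h1]
      module
    have key : ∀ G : E d → ℝ≥0∞, Measurable G →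
        ∫⁻ ζ, G (√β • w + √(1 - β) • ζ) *
          ENNReal.ofReal (Real.exp (-f (√β • w + √(1 - β) • ζ))) ∂(gam d) =
        ENNReal.ofReal (Real.exp (-‖u‖ ^ 2 / 2)) * ∫⁻ ζ, G (b + √(1 - β) • ζ) *
          ENNReal.ofReal (Real.exp (-(f (b + √(1 - β) • ζ) + ⟪u, ζ⟫))) ∂(gam d) := by
      intro G hG
      have hin : Measurable fun x : E d => innerSL ℝ u x := by fun_prop
      have hin' : Measurable fun x : E d => ⟪u, x⟫ := hin
      rw [INV.lintegral_shift LCS.cm u _ (by fun_prop), ← lintegral_const_mul _ (by fun_prop)]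
      refine lintegral_congr fun ζ => ?_
      rw [hT]
      rw [mul_assoc, mul_left_comm (ENNReal.ofReal (Real.exp (-‖u‖ ^ 2 / 2))),
        ← ENNReal.ofReal_mul (Real.exp_nonneg _), ← ENNReal.ofReal_mul (Real.exp_nonneg _),
        ← Real.exp_add, ← Real.exp_add]
      congr 3
      ring
    have hin : Measurable fun x : E d => innerSL ℝ u x := by fun_prop
    have hin' : Measurable fun x : E d => ⟪u, x⟫ := hin
    have hm1 : Measurable fun ζ : E d => f (b + √(1 - β) • ζ) + ⟪u, ζ⟫ :=
      (hfm.comp (by fun_prop)).add hin'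
    refine Measure.ext_of_lintegral _ fun G hG => ?_
    rw [GIB.lint f hf β w G hG, lintegral_map hG (by fun_prop),
      INV.lintegral_loc hm1 _ (by fun_prop), key G hG]
    have k1 := key (fun _ => 1) measurable_const
    simp only [one_mul] at k1
    rw [k1, ENNReal.mul_inv (Or.inl (GIB.exp_ne _)) (Or.inl ENNReal.ofReal_ne_top)]
    have h2 := ENNReal.inv_mul_cancel (GIB.exp_ne (-‖u‖ ^ 2 / 2)) ENNReal.ofReal_ne_top
    calc _ = ((ENNReal.ofReal (Real.exp (-‖u‖ ^ 2 / 2)))⁻¹ *
          ENNReal.ofReal (Real.exp (-‖u‖ ^ 2 / 2))) * ((∫⁻ ζ, ENNReal.ofReal (Real.exp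
          (-(f (b + √(1 - β) • ζ) + ⟪u, ζ⟫))) ∂(gam d))⁻¹ * ∫⁻ ζ, G (b + √(1 - β) • ζ) *
          ENNReal.ofReal (Real.exp (-(f (b + √(1 - β) • ζ) + ⟪u, ζ⟫))) ∂(gam d)) := by ring
      _ = _ := by rw [h2, one_mul]

end LCS.Fifth
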