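import Vale.Agent.P347.Fifth.Fib
import Vale.Agent.P347.TV3
import Vale.Agent.P347.Rot

/-!
# P347, module GIN: asymptotic invariance of `Pt` under the exact kernel (helper21)
-/

namespace LCS.Fifth

open MeasureTheory ProbabilityTheory Set Filter InformationTheory
open scoped ENNReal NNReal Topology RealInnerProductSpace BigOperators ContDiff

namespace GIN

variable {d : ℕ} {V : E d → ℝ}

/-- total variation and `[0,1]`-valued functions, lower integral version -/
lemma tv_lint {X : Type} [MeasurableSpace X] {μ ν : Measure X} [IsProbabilityMeasure μ]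
    [IsProbabilityMeasure ν] {ε : ℝ} (h : TV μ ν ε) {Ψ : X → ℝ≥0∞} (hΨ : Measurable Ψ)
    (h1 : ∀ x, Ψ x ≤ 1) : ∫⁻ x, Ψ x ∂μ ≤ (∫⁻ x, Ψ x ∂ν) + ENNReal.ofReal ε := by
  have hlt : ∀ x, Ψ x < ⊤ := fun x => (h1 x).trans_lt ENNReal.one_lt_top
  have h2 := LCS.tvb X μ ν ε h (fun x => (Ψ x).toReal) hΨ.ennreal_toReal
    (fun x => ENNReal.toReal_nonneg) (fun x => by
      have := ENNReal.toReal_mono ENNReal.one_ne_top (h1 x)
      simpa using this)
  rw [integral_toReal hΨ.aemeasurable (ae_of_all _ hlt),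
    integral_toReal hΨ.aemeasurable (ae_of_all _ hlt)] at h2
  have hb : ∀ (ρ : Measure X) [IsProbabilityMeasure ρ], ∫⁻ x, Ψ x ∂ρ ≠ ⊤ := by
    intro ρ _
    have : ∫⁻ x, Ψ x ∂ρ ≤ 1 := by
      calc ∫⁻ x, Ψ x ∂ρ ≤ ∫⁻ _, 1 ∂ρ := lintegral_mono h1
        _ = 1 := by simp
    exact (this.trans_lt ENNReal.one_lt_top).ne
  have h3 : (∫⁻ x, Ψ x ∂μ).toReal ≤ (∫⁻ x, Ψ x ∂ν).toReal + ε := by
    have := (abs_le.mp h2).2
    linarith
  calc ∫⁻ x, Ψ x ∂μ = ENNReal.ofReal (∫⁻ x, Ψ x ∂μ).toReal := (ENNReal.ofReal_toReal (hb μ)).symm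
    _ ≤ ENNReal.ofReal ((∫⁻ x, Ψ x ∂ν).toReal + ε) := ENNReal.ofReal_le_ofReal h3
    _ ≤ ENNReal.ofReal (∫⁻ x, Ψ x ∂ν).toReal + ENNReal.ofReal ε := ENNReal.ofReal_add_le
    _ = _ := by rw [ENNReal.ofReal_toReal (hb ν)]

lemma integrable_exp_inner (m : E d) (c : ℝ) :
    Integrable (fun x : E d => Real.exp (c + ⟪m, x⟫)) (gam d) := by
  have h := (LCS.cm d).1 m (fun _ => 1) measurable_const
  have hin : Measurable fun x : E d => ⟪m, x⟫ := by
    have : Continuous fun x : E d => ⟪m, x⟫ := by fun_prop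
    exact this.measurable
  have h2 : Integrable (fun x : E d => Real.exp (⟪m, x⟫ - ‖m‖ ^ 2 / 2)) (gam d) := by
    refine ⟨by fun_prop, ?_⟩
    rw [hasFiniteIntegral_iff_ofReal (ae_of_all _ fun x => Real.exp_nonneg _)]
    have e : ∫⁻ x, ENNReal.ofReal (Real.exp (⟪m, x⟫ - ‖m‖ ^ 2 / 2)) ∂(gam d) = 1 := by
      simpa using h.symm
    rw [e]
    exact ENNReal.one_lt_top
  have h3 := h2.const_mul (Real.exp (c + ‖m‖ ^ 2 / 2))
  refine h3.congr (ae_of_all _ fun x => ?_)
  simp only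
  rw [← Real.exp_add]
  congr 1
  ring

/-- integrability of the local weights, at every centre and scale -/
lemma integrable_fp (hV : Pot d V) (s : ℝ) (p b : E d) (t : ℝ) :
    Integrable (fun ζ : E d => Real.exp (-INV.fp V s p (b + t • ζ))) (gam d) := by
  have hc : Continuous (INV.fp V s p) := (INV.fp_smooth hV s p).continuous
  have h := integrable_exp_inner (d := d) (-(√s * t) • gradient V p)
    (-(√s * ⟪gradient V p, INV.c0 V s p + b⟫))
  refine h.mono' (by fun_prop) (ae_of_all _ fun ζ => ?_)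
  rw [Real.norm_of_nonneg (Real.exp_nonneg _)]
  refine Real.exp_le_exp.mpr ?_
  unfold INV.fp
  have h1 := (LCS.lip d V hV).2.2.1 (p - √s • (INV.c0 V s p + (b + t • ζ)))
  have h2 : 0 ≤ ‖p - √s • (INV.c0 V s p + (b + t • ζ))‖ ^ 2 / 2 := by positivity
  have e1 : ⟪gradient V p, INV.c0 V s p + (b + t • ζ)⟫ =
      ⟪gradient V p, INV.c0 V s p + b⟫ + t * ⟪gradient V p, ζ⟫ := by
    rw [← add_assoc, inner_add_right, real_inner_smul_right]
  have e2 : ⟪-(√s * t) • gradient V p, ζ⟫ = -(√s * t) * ⟪gradient V p, ζ⟫ :=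
    real_inner_smul_left _ _ _
  rw [e1, e2]
  nlinarith [h1.1]

lemma gb_apply {f : E d → ℝ} (hf : Continuous f) (β : ℝ) (w : E d) {B : Set (E d)}
    (hB : MeasurableSet B) : gb f β w B =
      (∫⁻ ζ, ENNReal.ofReal (Real.exp (-f (√β • w + √(1 - β) • ζ))) ∂(gam d))⁻¹ *
        ∫⁻ ζ, B.indicator 1 (√β • w + √(1 - β) • ζ) *
          ENNReal.ofReal (Real.exp (-f (√β • w + √(1 - β) • ζ))) ∂(gam d) := by
  have hh : Measurable fun ζ : E d => √β • w + √(1 - β) • ζ := by fun_prop
  have hfm : Measurable fun ζ : E d => f (√β • w + √(1 - β) • ζ) := hf.measurable.comp hh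
  unfold gb
  rw [Measure.map_apply hh hB, ← lintegral_indicator_one (hh hB)]
  rw [INV.lintegral_loc hfm (((fun ζ : E d => √β • w + √(1 - β) • ζ) ⁻¹' B).indicator 1)
    (measurable_one.indicator (hh hB))]
  rfl

lemma measurable_gb {f : E d → ℝ} (hf : Continuous f) (β : ℝ) {B : Set (E d)}
    (hB : MeasurableSet B) : Measurable fun w => gb f β w B := by
  simp_rw [gb_apply hf β _ hB]
  have hh : Measurable fun q : E d × E d => √β • q.1 + √(1 - β) • q.2 := by fun_prop
  have h1 : Measurable fun q : E d × E d =>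
      ENNReal.ofReal (Real.exp (-f (√β • q.1 + √(1 - β) • q.2))) := by
    have := hf.measurable.comp hh
    fun_prop
  have h2 : Measurable fun q : E d × E d =>
      (B.indicator 1 (√β • q.1 + √(1 - β) • q.2) : ℝ≥0∞) *
      ENNReal.ofReal (Real.exp (-f (√β • q.1 + √(1 - β) • q.2))) :=
    ((measurable_const.indicator hB).comp hh).mul h1
  exact (Measurable.lintegral_prod_right' h1).inv.mul (Measurable.lintegral_prod_right' h2)

lemma gb_le_one {f : E d → ℝ} (hf : Continuous f) (β : ℝ) (w : E d) {B : Set (E d)}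
    (hB : MeasurableSet B) : gb f β w B ≤ 1 := by
  rw [gb_apply hf β w hB]
  calc _ ≤ (∫⁻ ζ, ENNReal.ofReal (Real.exp (-f (√β • w + √(1 - β) • ζ))) ∂(gam d))⁻¹ *
        ∫⁻ ζ, ENNReal.ofReal (Real.exp (-f (√β • w + √(1 - β) • ζ))) ∂(gam d) := by
        refine mul_le_mul_right ?_ _
        refine lintegral_mono fun ζ => ?_
        have : (B.indicator 1 (√β • w + √(1 - β) • ζ) : ℝ≥0∞) ≤ 1 :=
          indicator_le' (fun _ _ => le_rfl) (fun _ _ => zero_le) _
        calc _ ≤ 1 * ENNReal.ofReal (Real.exp (-f (√β • w + √(1 - β) • ζ))) := by gcongr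
          _ = _ := one_mul _
    _ ≤ 1 := ENNReal.inv_mul_le_one _

lemma measurable_turn {f : E d → ℝ} (hf : ContDiff ℝ 2 f) (n : ℕ) :
    Measurable fun q : E d × E d => turn f n q.1 q.2 := by
  unfold turn
  have h : Continuous fun q : E d × E d => ((kick f (Real.pi / n))^[n] q).1 :=
    continuous_fst.comp ((LCS.ROT.continuous_kick hf _).iterate n)
  exact h.measurable

/-- the fibrewise estimate -/
lemma fibre (hGIB : S_GIB) (hV : Pot d V) {s β : ℝ} (hβ : 0 < β) (hβ1 : β < 1) (p : E d) (n : ℕ)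
    {δ : ℝ} [IsProbabilityMeasure (loc (INV.fp V s p))]
    (hT : TV (((loc (INV.fp V s p)).prod (gam d)).map
      fun q => turn (INV.fp V s p) n q.1 q.2) (loc (INV.fp V s p)) δ)
    {B : Set (E d)} (hB : MeasurableSet B) :
    (∫⁻ y, ∫⁻ r, gb (INV.fp V s p) β (√β • turn (INV.fp V s p) n y r.1 + √(1 - β) • r.2) B
        ∂((gam d).prod (gam d)) ∂(loc (INV.fp V s p))) ≤
          loc (INV.fp V s p) B + ENNReal.ofReal δ ∧
      loc (INV.fp V s p) B ≤
      (∫⁻ y, ∫⁻ r, gb (INV.fp V s p) β (√β • turn (INV.fp V s p) n y r.1 + √(1 - β) • r.2) B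
        ∂((gam d).prod (gam d)) ∂(loc (INV.fp V s p))) + ENNReal.ofReal δ := by
  set f := INV.fp V s p with hf
  have hf2 : ContDiff ℝ 2 f := INV.fp_smooth hV s p
  have hfc : Continuous f := hf2.continuous
  have hmt := measurable_turn hf2 n
  have hmg : Measurable fun w => gb f β w B := measurable_gb hfc β hB
  have hm2 : Measurable fun q : E d × E d => gb f β (√β • q.1 + √(1 - β) • q.2) B :=
    hmg.comp (by fun_prop)
  set Ψ : E d → ℝ≥0∞ := fun t => ∫⁻ z, gb f β (√β • t + √(1 - β) • z) B ∂(gam d) with hΨ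
  have hΨm : Measurable Ψ := Measurable.lintegral_prod_right' hm2
  have hΨ1 : ∀ t, Ψ t ≤ 1 := by
    intro t
    calc Ψ t ≤ ∫⁻ _, 1 ∂(gam d) := lintegral_mono fun z => gb_le_one hfc β _ hB
      _ = 1 := by simp
  have e1 : (∫⁻ y, ∫⁻ r, gb f β (√β • turn f n y r.1 + √(1 - β) • r.2) B
        ∂((gam d).prod (gam d)) ∂(loc f)) = ∫⁻ t, Ψ t ∂(((loc f).prod (gam d)).map
      fun q => turn f n q.1 q.2) := by
    rw [lintegral_map hΨm hmt, lintegral_prod (fun q : E d × E d => Ψ (turn f n q.1 q.2))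
      (hΨm.comp hmt).aemeasurable]
    refine lintegral_congr fun y => ?_
    have hm3 : Measurable fun r : E d × E d => gb f β (√β • turn f n y r.1 + √(1 - β) • r.2) B := by
      have hy : Measurable fun z => turn f n y z := hmt.comp measurable_prodMk_left
      exact hmg.comp (by fun_prop)
    rw [lintegral_prod _ hm3.aemeasurable]
  have e2 : loc f B = ∫⁻ t, Ψ t ∂(loc f) := by
    have h := (hGIB d f β hfc hβ hβ1 ?_ ?_).1 B hB
    · rw [← h, lintegral_prod _ hm2.aemeasurable]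
    · have := integrable_fp hV s p 0 1
      simpa using this
    · intro w
      exact integrable_fp hV s p _ _
  have : IsProbabilityMeasure (((loc f).prod (gam d)).map fun q => turn f n q.1 q.2) :=
    Measure.isProbabilityMeasure_map hmt.aemeasurable
  rw [e1, e2]
  exact ⟨tv_lint hT hΨm hΨ1, tv_lint (INV.tv_symm hT) hΨm hΨ1⟩

lemma exists_tail {X : Type*} [MeasurableSpace X] (μ : Measure X) [IsProbabilityMeasure μ]
    {g : X → ℝ} (hg : Measurable g) {δ : ℝ} (hδ : 0 < δ) :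
    ∃ R : ℝ, 0 ≤ R ∧ μ {x | R < g x} ≤ ENNReal.ofReal δ := by
  have h : Tendsto (fun n : ℕ => μ {x | (n : ℝ) < g x}) atTop (𝓝 (μ (⋂ n : ℕ, {x | (n : ℝ) < g x}))) := by
    refine tendsto_measure_iInter_atTop (fun n => (measurableSet_lt measurable_const hg).nullMeasurableSet)
      ?_ ⟨0, measure_ne_top _ _⟩
    intro m n hmn x hx
    simp only [mem_ofPred_eq] at hx ⊢
    have : (m : ℝ) ≤ n := by exact_mod_cast hmn
    linarith
  have he : (⋂ n : ℕ, {x | (n : ℝ) < g x}) = ∅ := by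
    ext x
    simp only [mem_iInter, mem_ofPred_eq, mem_empty_iff_false, iff_false, not_forall, not_lt]
    exact exists_nat_ge (g x)
  rw [he, measure_empty] at h
  have h2 := h.eventually (ge_mem_nhds (ENNReal.ofReal_pos.mpr hδ))
  obtain ⟨n, hn⟩ := h2.exists
  exact ⟨n, by positivity, hn⟩

end GIN

/-- GIN -/
theorem gin (hROT : S_ROT5) (hGIB : S_GIB) : S_GIN := by
  intro d V s β hd hV hs hs1 hβ hβ1 K hK hKe δ hδ
  obtain ⟨f1, f2, f3, f4, -⟩ := fib d V s hd hV hs hs1
  have hPg : IsProbabilityMeasure (gibbs V) := (LCS.lip d V hV).2.2.2.2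
  have hP : IsProbabilityMeasure (Pt V s) := by
    unfold Pt
    exact Measure.isProbabilityMeasure_map (by fun_prop)
  obtain ⟨R, hR0, hR⟩ := GIN.exists_tail (Pt V s) (g := fun q : E d × E d => ‖q.1‖)
    (by fun_prop) (half_pos hδ)
  have hgm : Measurable (gradient V) := (LCS.lip d V hV).2.2.2.1.continuous.measurable
  have hcm : Measurable (INV.c0 V s) := by unfold INV.c0; fun_prop
  filter_upwards [hROT d s (√d + 4 * R) hd hs (by linarith) (by linarith) (δ / 2) (half_pos hδ)]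
    with n hn
  -- the good fibres
  have hgood : ∀ p : E d, ‖p‖ ≤ R → TV (((loc (INV.fp V s p)).prod (gam d)).map
      fun q => turn (INV.fp V s p) n q.1 q.2) (loc (INV.fp V s p)) (δ / 2) := by
    intro p hp
    refine hn _ ?_
    refine ⟨(f1 p).smooth, (f1 p).lower, (f1 p).upper, (f1 p).grad0.trans ?_⟩
    refine mul_le_mul_of_nonneg_left ?_ hs.le
    unfold Ap
    have h1 : ‖INV.c0 V s p‖ ≤ 2 * R := by
      unfold INV.c0
      rw [norm_smul, Real.norm_of_nonneg (Real.sqrt_nonneg s)]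
      have h2 := INV.norm_grad_le LCS.lip hV p
      have h3 : √s ≤ 1 := Real.sqrt_le_one.mpr (by linarith)
      calc √s * ‖gradient V p‖ ≤ 1 * (2 * ‖p‖) := by gcongr
        _ ≤ 2 * R := by linarith
    linarith
  intro B hB
  set S : E d × E d → ℝ≥0∞ := fun q => ∫⁻ r, K n (q, r) B ∂((gam d).prod (gam d)) with hS
  have hKm : Measurable fun x : (E d × E d) × (E d × E d) => K n x B :=
    Kernel.measurable_coe (K n) hB
  have hSm : Measurable S := Measurable.lintegral_prod_right' hKm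
  have hout : ∀ p : E d, Measurable (outp V s p) := by
    intro p
    unfold outp
    fun_prop
  have ebind : (((Pt V s).prod ((gam d).prod (gam d))).bind (K n)) B = ∫⁻ q, S q ∂(Pt V s) := by
    rw [Measure.bind_apply hB (K n).measurable.aemeasurable, lintegral_prod _ hKm.aemeasurable]
  set P1 : E d → ℝ≥0∞ := fun p => ∫⁻ y, S (p, INV.c0 V s p + y) ∂(loc (INV.fp V s p)) with hP1
  set P2 : E d → ℝ≥0∞ := fun p => loc (INV.fp V s p) (outp V s p ⁻¹' B) with hP2
  have hP1m : Measurable P1 := FIB.measurable_fib hV s S hSm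
  have eP1 : ∫⁻ q, S q ∂(Pt V s) = ∫⁻ q, P1 q.1 ∂(Pt V s) := f3 S hSm
  -- the target
  have hinv : Measurable fun q : E d × E d => (q.1 - (2 * √s) • q.2, -q.2) := by fun_prop
  set G : E d × E d → ℝ≥0∞ := fun q => B.indicator 1 (q.1 - (2 * √s) • q.2, -q.2) with hG
  have hGm : Measurable G := (measurable_const.indicator hB).comp hinv
  have eP2' : ∀ p, P2 p = ∫⁻ y, G (p, INV.c0 V s p + y) ∂(loc (INV.fp V s p)) := by
    intro p
    rw [hP2]
    simp only
    rw [← lintegral_indicator_one (hout p hB)]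
    refine lintegral_congr fun y => ?_
    simp only [hG]
    have : p - (2 * √s) • (INV.c0 V s p + y) = p + (2 * √s) • -(INV.c0 V s p + y) := by module
    rw [this]
    rfl
  have hP2m : Measurable P2 := by
    have := FIB.measurable_fib hV s G hGm
    simpa only [← eP2'] using this
  have eP2 : ∫⁻ q, P2 q.1 ∂(Pt V s) = Pt V s B := by
    have h1 := f3 G hGm
    simp_rw [← eP2'] at h1
    rw [← h1]
    have h2 : Pt V s B = ((Pt V s).map fun q => (q.1 - (2 * √s) • q.2, -q.2)) B := by rw [f4]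
    rw [h2, Measure.map_apply hinv hB, ← lintegral_indicator_one (hinv hB)]
    rfl
  -- comparison on the fibres
  have hfib : ∀ p, ‖p‖ ≤ R → P1 p ≤ P2 p + ENNReal.ofReal (δ / 2) ∧
      P2 p ≤ P1 p + ENNReal.ofReal (δ / 2) := by
    intro p hp
    have := f2 p
    have h := GIN.fibre hGIB hV hβ hβ1 p n (hgood p hp) (hout p hB)
    have e : P1 p = ∫⁻ y, ∫⁻ r, gb (INV.fp V s p) β (√β • turn (INV.fp V s p) n y r.1 +
        √(1 - β) • r.2) (outp V s p ⁻¹' B) ∂((gam d).prod (gam d)) ∂(loc (INV.fp V s p)) := by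
      rw [hP1]
      refine lintegral_congr fun y => ?_
      rw [hS]
      refine lintegral_congr fun r => ?_
      rw [hKe n ((p, INV.c0 V s p + y), r)]
      simp only [add_sub_cancel_left]
      rw [Measure.map_apply (hout p) hB]
    rw [e]
    exact h
  have hP1one : ∀ p, P1 p ≤ 1 := by
    intro p
    have := f2 p
    calc P1 p ≤ ∫⁻ _, 1 ∂(loc (INV.fp V s p)) := by
          refine lintegral_mono fun y => ?_
          calc S (p, INV.c0 V s p + y) ≤ ∫⁻ _, 1 ∂((gam d).prod (gam d)) :=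
                lintegral_mono fun r => prob_le_one
            _ = 1 := by simp
      _ = 1 := by simp
  have hP2one : ∀ p, P2 p ≤ 1 := by
    intro p
    have := f2 p
    exact prob_le_one
  have hglob : ∀ (F1 F2 : E d → ℝ≥0∞), Measurable F1 → Measurable F2 → (∀ p, F1 p ≤ 1) →
      (∀ p, ‖p‖ ≤ R → F1 p ≤ F2 p + ENNReal.ofReal (δ / 2)) →
      ∫⁻ q, F1 q.1 ∂(Pt V s) ≤ (∫⁻ q, F2 q.1 ∂(Pt V s)) + ENNReal.ofReal δ := by
    intro F1 F2 hF1 hF2 h1 h2
    have hset : MeasurableSet {q : E d × E d | R < ‖q.1‖} :=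
      measurableSet_lt measurable_const (by fun_prop)
    calc ∫⁻ q, F1 q.1 ∂(Pt V s)
        ≤ ∫⁻ q, ((F2 q.1 + ENNReal.ofReal (δ / 2)) +
            {q : E d × E d | R < ‖q.1‖}.indicator 1 q) ∂(Pt V s) := by
          refine lintegral_mono fun q => ?_
          by_cases hq : ‖q.1‖ ≤ R
          · exact (h2 q.1 hq).trans le_self_add
          · have hm : q ∈ {q : E d × E d | R < ‖q.1‖} := not_le.mp hq
            simp only [indicator_of_mem hm, Pi.one_apply]
            exact (h1 q.1).trans le_add_self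
      _ = ((∫⁻ q, F2 q.1 ∂(Pt V s)) + ENNReal.ofReal (δ / 2)) +
            (Pt V s) {q : E d × E d | R < ‖q.1‖} := by
          rw [lintegral_add_left (by fun_prop), lintegral_add_left (by fun_prop),
            lintegral_indicator_one hset]
          simp
      _ ≤ ((∫⁻ q, F2 q.1 ∂(Pt V s)) + ENNReal.ofReal (δ / 2)) + ENNReal.ofReal (δ / 2) := by
          gcongr
      _ = (∫⁻ q, F2 q.1 ∂(Pt V s)) + ENNReal.ofReal δ := by
          rw [add_assoc, ← ENNReal.ofReal_add (by positivity) (by positivity), add_halves]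
  have hA := hglob P1 P2 hP1m hP2m hP1one (fun p hp => (hfib p hp).1)
  have hBB := hglob P2 P1 hP2m hP1m hP2one (fun p hp => (hfib p hp).2)
  rw [eP2, ← eP1, ← ebind] at hA
  rw [eP2, ← eP1, ← ebind] at hBB
  have hPb : IsProbabilityMeasure (((Pt V s).prod ((gam d).prod (gam d))).bind (K n)) := by
    infer_instance
  have conv : ∀ a b : ℝ≥0∞, a ≠ ⊤ → b ≠ ⊤ → a ≤ b + ENNReal.ofReal δ →
      a.toReal ≤ b.toReal + δ := by
    intro a b ha hb h
    have h1 := ENNReal.toReal_mono (ENNReal.add_ne_top.mpr ⟨hb, ENNReal.ofReal_ne_top⟩) h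
    rwa [ENNReal.toReal_add hb ENNReal.ofReal_ne_top, ENNReal.toReal_ofReal hδ.le] at h1
  have k1 := conv _ _ (measure_ne_top _ _) (measure_ne_top _ _) hA
  have k2 := conv _ _ (measure_ne_top _ _) (measure_ne_top _ _) hBB
  simp only [measureReal_def]
  rw [abs_le]
  constructor <;> linarith

end LCS.Fifth

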