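import Vale.Agent.P347.Fifth.Defs5
import Vale.Agent.P347.Dens
import Vale.Agent.P347.CM
import Vale.Agent.P347.Mp
import Vale.Agent.P347.LocBasic

/-!
# P347 (1/5), modules GKL and REN
-/

namespace LCS.Fifth

open MeasureTheory ProbabilityTheory Set Filter InformationTheory
open scoped ENNReal NNReal Topology RealInnerProductSpace BigOperators ContDiff

namespace GKL

theorem lower {d : ℕ} {g : E d → ℝ} {a₀ a₁ : ℝ} (hg : ContDiff ℝ 1 g) (h1 : 0 ≤ a₁)
    (h : ∀ x, ‖gradient g x‖ ≤ a₀ + a₁ * ‖x‖) (y : E d) :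
    |g y - g 0| ≤ a₀ * ‖y‖ + a₁ * ‖y‖ ^ 2 := by
  have key := (convex_closedBall (0 : E d) ‖y‖).norm_image_sub_le_of_norm_fderiv_le
    (f := g) (C := a₀ + a₁ * ‖y‖) (x := 0) (y := y)
    (fun x _ => hg.differentiable (by norm_num) x)
    (fun x hx => by
      rw [← norm_gradient]
      refine (h x).trans ?_
      have : ‖x‖ ≤ ‖y‖ := by simpa using hx
      have := mul_le_mul_of_nonneg_left this h1
      linarith)
    (by simp) (by simp)
  rw [Real.norm_eq_abs, sub_zero] at key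
  calc |g y - g 0| ≤ (a₀ + a₁ * ‖y‖) * ‖y‖ := key
    _ = _ := by ring

theorem gen (hCM : S_CM) (hMP : S_MP) (d : ℕ) (g : E d → ℝ) (a₀ a₁ : ℝ) (hg : ContDiff ℝ 1 g)
    (h0 : 0 ≤ a₀) (h1 : 0 ≤ a₁) (h2 : a₁ ≤ 1 / 10)
    (h : ∀ x, ‖gradient g x‖ ≤ a₀ + a₁ * ‖x‖) :
    Integrable (fun y => Real.exp (-g y)) (gam d) ∧
    Integrable (fun y => Real.exp (-2 * g y)) (gam d) ∧
    ∫ y, Real.exp (-2 * g y) ∂(gam d) ≤ Real.exp (10 * a₀ ^ 2 + 25 / 2 * (a₁ ^ 2 * d)) *
      (∫ y, Real.exp (-g y) ∂(gam d)) ^ 2 := by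
  obtain ⟨-, -, hexp⟩ := hCM d
  have hcont : Continuous g := hg.continuous
  have hc1 : Continuous fun y => Real.exp (-g y) := Real.continuous_exp.comp hcont.neg
  have hc2 : Continuous fun y => Real.exp (-2 * g y) :=
    Real.continuous_exp.comp (continuous_const.mul hcont)
  -- integrability of `exp (-g)`
  have hI1 : Integrable (fun y => Real.exp (-g y)) (gam d) := by
    have h3 := (hexp (1 / 4) (by norm_num)).1
    refine (h3.const_mul (Real.exp (-g 0 + 5 * a₀ ^ 2))).mono' hc1.aestronglyMeasurable ?_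
    refine Eventually.of_forall fun y => ?_
    rw [Real.norm_eq_abs, abs_of_pos (Real.exp_pos _), ← Real.exp_add]
    apply Real.exp_le_exp.mpr
    have h4 := (abs_le.1 (lower hg h1 h y)).1
    have h5 : a₁ * ‖y‖ ^ 2 ≤ 1 / 10 * ‖y‖ ^ 2 := mul_le_mul_of_nonneg_right h2 (sq_nonneg _)
    nlinarith [sq_nonneg (a₀ - ‖y‖ / 10), sq_nonneg ‖y‖, sq_nonneg a₀]
  -- ENNReal versions
  set X : ℝ≥0∞ := ∫⁻ y, ENNReal.ofReal (Real.exp (-g y)) ∂(gam d) with hX
  set Y : ℝ≥0∞ := ∫⁻ y, ENNReal.ofReal (Real.exp (2 * g y)) ∂(gam d) with hY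
  set W : ℝ≥0∞ := ∫⁻ y, ENNReal.ofReal (Real.exp (-2 * g y)) ∂(gam d) with hW
  -- Hoelder
  have hH : 1 ≤ X ^ 2 * Y := by
    have hpq : Real.HolderConjugate (3 / 2) 3 := by
      rw [Real.holderConjugate_iff]; constructor <;> norm_num
    have h1 := ENNReal.lintegral_mul_le_Lp_mul_Lq (gam d) hpq
      (f := fun y => ENNReal.ofReal (Real.exp (-(2 / 3) * g y)))
      (g := fun y => ENNReal.ofReal (Real.exp (2 / 3 * g y)))
      (by fun_prop) (by fun_prop)
    have e1 : ∫⁻ y, ((fun y => ENNReal.ofReal (Real.exp (-(2 / 3) * g y))) *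
        fun y => ENNReal.ofReal (Real.exp (2 / 3 * g y))) y ∂(gam d) = 1 := by
      have : ∀ y, ((fun y => ENNReal.ofReal (Real.exp (-(2 / 3) * g y))) *
        fun y => ENNReal.ofReal (Real.exp (2 / 3 * g y))) y = 1 := by
        intro y
        simp only [Pi.mul_apply]
        rw [← ENNReal.ofReal_mul (Real.exp_pos _).le, ← Real.exp_add]
        have : -(2 / 3) * g y + 2 / 3 * g y = 0 := by ring
        rw [this, Real.exp_zero, ENNReal.ofReal_one]
      simp only [this, lintegral_one, measure_univ]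
    have e2 : ∫⁻ y, ENNReal.ofReal (Real.exp (-(2 / 3) * g y)) ^ (3 / 2 : ℝ) ∂(gam d) = X := by
      refine lintegral_congr fun y => ?_
      rw [ENNReal.ofReal_rpow_of_pos (Real.exp_pos _), ← Real.exp_mul]
      congr 2; ring
    have e3 : ∫⁻ y, ENNReal.ofReal (Real.exp (2 / 3 * g y)) ^ (3 : ℝ) ∂(gam d) = Y := by
      refine lintegral_congr fun y => ?_
      rw [ENNReal.ofReal_rpow_of_pos (Real.exp_pos _), ← Real.exp_mul]
      congr 2; ring
    rw [e1, e2, e3] at h1
    have h2 : (1 : ℝ≥0∞) ^ (3 : ℝ) ≤ (X ^ (1 / (3 / 2) : ℝ) * Y ^ (1 / 3 : ℝ)) ^ (3 : ℝ) :=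
      ENNReal.rpow_le_rpow h1 (by norm_num)
    rw [ENNReal.one_rpow, ENNReal.mul_rpow_of_nonneg _ _ (by norm_num), ← ENNReal.rpow_mul,
      ← ENNReal.rpow_mul] at h2
    have e4 : (1 / (3 / 2) * 3 : ℝ) = 2 := by norm_num
    have e5 : (1 / 3 * 3 : ℝ) = 1 := by norm_num
    rw [e4, e5, ENNReal.rpow_one, ENNReal.rpow_two] at h2
    exact h2
  -- Maurey-Pisier
  set K : ℝ := Real.exp (10 * a₀ ^ 2 + 25 / 2 * (a₁ ^ 2 * d)) with hKdef
  have hK : W * Y ≤ ENNReal.ofReal K := by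
    have h3 := hMP (E d) (fun y => -2 * g y) (contDiff_const.mul hg)
    have e1 : ∫⁻ y, ∫⁻ z, ENNReal.ofReal (Real.exp (-2 * g y - -2 * g z)) ∂(stdGaussian (E d))
        ∂(stdGaussian (E d)) = W * Y := by
      have : ∀ y, ∫⁻ z, ENNReal.ofReal (Real.exp (-2 * g y - -2 * g z)) ∂(stdGaussian (E d)) =
          ENNReal.ofReal (Real.exp (-2 * g y)) * Y := by
        intro y
        rw [hY, ← lintegral_const_mul _ (by fun_prop)]
        refine lintegral_congr fun z => ?_
        rw [← ENNReal.ofReal_mul (Real.exp_pos _).le, ← Real.exp_add]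
        congr 2; ring
      simp only [this]
      rw [lintegral_mul_const _ (by fun_prop)]
    rw [e1] at h3
    refine h3.trans ?_
    have hpi : Real.pi ^ 2 < 10 := by
      have := Real.pi_lt_d2
      have h0 := Real.pi_pos
      nlinarith
    have hpi0 : 0 < Real.pi ^ 2 := by positivity
    set θ : ℝ := Real.pi ^ 2 * a₁ ^ 2 with hθ
    have hs2 : a₁ ^ 2 ≤ 1 / 100 := by nlinarith
    have hθ0 : 0 ≤ θ := by positivity
    have hθ1 : θ ≤ 1 / 10 := by
      rw [hθ]; nlinarith [sq_nonneg a₁]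
    have hpt : ∀ y : E d, Real.pi ^ 2 / 8 * ‖fderiv ℝ (fun y => -2 * g y) y‖ ^ 2 ≤
        10 * a₀ ^ 2 + θ * ‖y‖ ^ 2 := by
      intro y
      have e2 : ‖fderiv ℝ (fun y => -2 * g y) y‖ = 2 * ‖gradient g y‖ := by
        rw [fderiv_const_mul (hg.differentiable (by norm_num) y), norm_smul, norm_gradient]
        norm_num
      rw [e2]
      have h4 : ‖gradient g y‖ ^ 2 ≤ (a₀ + a₁ * ‖y‖) ^ 2 :=
          pow_le_pow_left₀ (norm_nonneg _) (h y) 2
      have h5 : (2 * ‖gradient g y‖) ^ 2 ≤ 8 * a₀ ^ 2 + 8 * (a₁ ^ 2 * ‖y‖ ^ 2) := by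
        nlinarith [sq_nonneg (a₀ - a₁ * ‖y‖)]
      have h6 : Real.pi ^ 2 / 8 * (2 * ‖gradient g y‖) ^ 2 ≤
          Real.pi ^ 2 / 8 * (8 * a₀ ^ 2 + 8 * (a₁ ^ 2 * ‖y‖ ^ 2)) :=
        mul_le_mul_of_nonneg_left h5 (by positivity)
      have h7 : Real.pi ^ 2 / 8 * (8 * a₀ ^ 2 + 8 * (a₁ ^ 2 * ‖y‖ ^ 2)) =
          Real.pi ^ 2 * a₀ ^ 2 + θ * ‖y‖ ^ 2 := by
        rw [hθ]; ring
      rw [h7] at h6
      have h8 : Real.pi ^ 2 * a₀ ^ 2 ≤ 10 * a₀ ^ 2 := by nlinarith [sq_nonneg a₀]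
      linarith
    have h4 := hexp θ (by linarith)
    calc ∫⁻ y, ENNReal.ofReal (Real.exp (Real.pi ^ 2 / 8 * ‖fderiv ℝ (fun y => -2 * g y) y‖ ^ 2))
          ∂(stdGaussian (E d))
        ≤ ∫⁻ y, ENNReal.ofReal (Real.exp (10 * a₀ ^ 2) * Real.exp (θ * ‖y‖ ^ 2)) ∂(gam d) := by
          refine lintegral_mono fun y => ?_
          apply ENNReal.ofReal_le_ofReal
          rw [← Real.exp_add]
          exact Real.exp_le_exp.mpr (hpt y)
      _ = ENNReal.ofReal (∫ y, Real.exp (10 * a₀ ^ 2) * Real.exp (θ * ‖y‖ ^ 2) ∂(gam d)) := by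
          rw [ofReal_integral_eq_lintegral_ofReal (h4.1.const_mul _)]
          exact Eventually.of_forall fun y => by positivity
      _ ≤ ENNReal.ofReal K := by
          apply ENNReal.ofReal_le_ofReal
          rw [integral_const_mul, h4.2]
          have h5 := DENS.rpow_bound (x := 2 * θ) (by positivity) (by linarith) d
          have h6 : 5 / 8 * (2 * θ) * d ≤ 25 / 2 * (a₁ ^ 2 * d) := by
            have h7 : 5 / 8 * (2 * θ) * d = 5 / 4 * Real.pi ^ 2 * (a₁ ^ 2 * d) := by rw [hθ]; ring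
            rw [h7]
            have h9 : 0 ≤ a₁ ^ 2 * (d : ℝ) := by positivity
            nlinarith
          calc Real.exp (10 * a₀ ^ 2) * (1 - 2 * θ) ^ (-(d : ℝ) / 2)
              ≤ Real.exp (10 * a₀ ^ 2) * Real.exp (5 / 8 * (2 * θ) * d) :=
                mul_le_mul_of_nonneg_left h5 (Real.exp_pos _).le
            _ = Real.exp (10 * a₀ ^ 2 + 5 / 8 * (2 * θ) * d) := by rw [← Real.exp_add]
            _ ≤ K := Real.exp_le_exp.mpr (by linarith)
  -- conclusion
  have hWX : W ≤ ENNReal.ofReal K * X ^ 2 := by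
    calc W = W * 1 := (mul_one _).symm
      _ ≤ W * (X ^ 2 * Y) := by gcongr
      _ = (W * Y) * X ^ 2 := by ring
      _ ≤ _ := by gcongr
  have hXe : X = ENNReal.ofReal (∫ y, Real.exp (-g y) ∂(gam d)) := by
    rw [hX, ofReal_integral_eq_lintegral_ofReal hI1]
    exact Eventually.of_forall fun y => (Real.exp_pos _).le
  have hXfin : X ≠ ⊤ := by rw [hXe]; exact ENNReal.ofReal_ne_top
  have hWfin : W ≠ ⊤ := by
    refine (lt_of_le_of_lt hWX ?_).ne
    exact ENNReal.mul_lt_top ENNReal.ofReal_lt_top (ENNReal.pow_lt_top hXfin.lt_top)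
  have hI2 : Integrable (fun y => Real.exp (-2 * g y)) (gam d) := by
    refine ⟨hc2.aestronglyMeasurable, ?_⟩
    rw [hasFiniteIntegral_iff_ofReal (Eventually.of_forall fun y => (Real.exp_pos _).le)]
    exact hWfin.lt_top
  refine ⟨hI1, hI2, ?_⟩
  have hWe : W = ENNReal.ofReal (∫ y, Real.exp (-2 * g y) ∂(gam d)) := by
    rw [hW, ofReal_integral_eq_lintegral_ofReal hI2]
    exact Eventually.of_forall fun y => (Real.exp_pos _).le
  have hnn : 0 ≤ ∫ y, Real.exp (-g y) ∂(gam d) := integral_nonneg fun y => (Real.exp_pos _).le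
  rw [hWe, hXe, ← ENNReal.ofReal_pow hnn, ← ENNReal.ofReal_mul (Real.exp_pos _).le] at hWX
  exact (ENNReal.ofReal_le_ofReal_iff (by positivity)).mp hWX

theorem klFun_le {r K : ℝ} (hr : 0 < r) (hK : 0 < K) :
    klFun r ≤ r ^ 2 / K - 2 * r + 1 + r * Real.log K := by
  have h1 : Real.log (r / K) ≤ r / K - 1 := Real.log_le_sub_one_of_pos (by positivity)
  rw [Real.log_div hr.ne' hK.ne'] at h1
  have h2 : r * Real.log r ≤ r * (r / K - 1 + Real.log K) :=
    mul_le_mul_of_nonneg_left (by linarith) hr.le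
  rw [klFun_apply]
  have h3 : r * (r / K - 1 + Real.log K) = r ^ 2 / K - r + r * Real.log K := by ring
  linarith

theorem kl_le {d : ℕ} {g : E d → ℝ} {K : ℝ} (hg : Continuous g) (hK : 0 < K)
    (hI1 : Integrable (fun y => Real.exp (-g y)) (gam d))
    (hI2 : Integrable (fun y => Real.exp (-2 * g y)) (gam d))
    (h : ∫ y, Real.exp (-2 * g y) ∂(gam d) ≤ K * (∫ y, Real.exp (-g y) ∂(gam d)) ^ 2) :
    klDiv (loc g) (gam d) ≤ ENNReal.ofReal (Real.log K) := by
  set z : ℝ := ∫ y, Real.exp (-g y) ∂(gam d) with hz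
  have hzpos : 0 < z := integral_exp_pos hI1
  have hc1 : Continuous fun y => Real.exp (-g y) := Real.continuous_exp.comp hg.neg
  have hZ : ∫⁻ y, ENNReal.ofReal (Real.exp (-g y)) ∂(gam d) = ENNReal.ofReal z := by
    rw [hz, ofReal_integral_eq_lintegral_ofReal hI1]
    exact Eventually.of_forall fun y => (Real.exp_pos _).le
  have hr : Measurable fun y => ENNReal.ofReal (Real.exp (-g y) / z) := by fun_prop
  have hloc : loc g = (gam d).withDensity fun y => ENNReal.ofReal (Real.exp (-g y) / z) := by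
    unfold loc
    rw [hZ, ← withDensity_smul _ (by fun_prop)]
    congr 1
    ext y
    rw [Pi.smul_apply, smul_eq_mul, ← ENNReal.ofReal_inv_of_pos hzpos,
      ← ENNReal.ofReal_mul (by positivity)]
    congr 1
    rw [div_eq_inv_mul]
  have hprob : IsProbabilityMeasure (loc g) := loc_prob hI1
  have hac : loc g ≪ gam d := by rw [hloc]; exact withDensity_absolutelyContinuous _ _
  rw [klDiv_eq_lintegral_klFun_of_ac hac]
  have hrn : (loc g).rnDeriv (gam d) =ᵐ[gam d] fun y => ENNReal.ofReal (Real.exp (-g y) / z) := by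
    rw [hloc]; exact Measure.rnDeriv_withDensity _ hr
  have hA : Integrable (fun y => Real.exp (-g y) / z) (gam d) := hI1.div_const z
  have hB : Integrable (fun y => (Real.exp (-g y) / z) ^ 2 / K) (gam d) := by
    have := hI2.div_const (z ^ 2 * K)
    refine this.congr (Eventually.of_forall fun y => ?_)
    have e : Real.exp (-2 * g y) = Real.exp (-g y) ^ 2 := by
      rw [← Real.exp_nat_mul]; congr 1; push_cast; ring
    simp only
    rw [e]
    field_simp
  have hC : Integrable (fun y => (Real.exp (-g y) / z) ^ 2 / K - 2 * (Real.exp (-g y) / z) + 1 +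
      (Real.exp (-g y) / z) * Real.log K) (gam d) :=
    ((hB.sub (hA.const_mul 2)).add (integrable_const 1)).add (hA.mul_const _)
  have hpt : ∀ y, klFun (Real.exp (-g y) / z) ≤ (Real.exp (-g y) / z) ^ 2 / K -
      2 * (Real.exp (-g y) / z) + 1 + (Real.exp (-g y) / z) * Real.log K := fun y =>
    klFun_le (by positivity) hK
  calc ∫⁻ x, ENNReal.ofReal (klFun ((loc g).rnDeriv (gam d) x).toReal) ∂(gam d)
      = ∫⁻ x, ENNReal.ofReal (klFun (Real.exp (-g x) / z)) ∂(gam d) := by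
        refine lintegral_congr_ae ?_
        filter_upwards [hrn] with x hx
        rw [hx, ENNReal.toReal_ofReal (by positivity)]
    _ ≤ ∫⁻ x, ENNReal.ofReal ((Real.exp (-g x) / z) ^ 2 / K - 2 * (Real.exp (-g x) / z) + 1 +
          (Real.exp (-g x) / z) * Real.log K) ∂(gam d) :=
        lintegral_mono fun x => ENNReal.ofReal_le_ofReal (hpt x)
    _ = ENNReal.ofReal (∫ x, ((Real.exp (-g x) / z) ^ 2 / K - 2 * (Real.exp (-g x) / z) + 1 +
          (Real.exp (-g x) / z) * Real.log K) ∂(gam d)) := by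
        rw [ofReal_integral_eq_lintegral_ofReal hC]
        exact Eventually.of_forall fun y => (klFun_nonneg (by positivity)).trans (hpt y)
    _ ≤ ENNReal.ofReal (Real.log K) := by
        apply ENNReal.ofReal_le_ofReal
        have e1 : ∫ x, Real.exp (-g x) / z ∂(gam d) = 1 := by
          rw [integral_div, ← hz, div_self hzpos.ne']
        have e2 : ∫ x, (Real.exp (-g x) / z) ^ 2 / K ∂(gam d) ≤ 1 := by
          have : ∀ x, (Real.exp (-g x) / z) ^ 2 / K = Real.exp (-2 * g x) / (z ^ 2 * K) := by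
            intro x
            have e : Real.exp (-2 * g x) = Real.exp (-g x) ^ 2 := by
              rw [← Real.exp_nat_mul]; congr 1; push_cast; ring
            rw [e]
            field_simp
          simp only [this]
          rw [integral_div, div_le_one (by positivity)]
          linarith
        have i1 := integral_add ((hB.sub (hA.const_mul 2)).add (integrable_const (μ := gam d) (1:ℝ)))
          (hA.mul_const (Real.log K))
        have i2 := integral_add (hB.sub (hA.const_mul 2)) (integrable_const (μ := gam d) (1:ℝ))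
        have i3 := integral_sub hB (hA.const_mul 2)
        simp only [Pi.add_apply, Pi.sub_apply] at i1 i2 i3
        rw [i1, i2, i3, integral_const_mul, integral_mul_const, e1]
        simp
        linarith

end GKL

theorem gkl : S_GKL := by
  intro d g a₀ a₁ hg h0 h1 h2 h
  obtain ⟨h3, h4, h5⟩ := GKL.gen LCS.cm LCS.mp d g a₀ a₁ hg h0 h1 (by linarith) h
  refine ⟨h3, loc_prob h3, ?_⟩
  refine (GKL.kl_le hg.continuous (Real.exp_pos _) h3 h4 h5).trans ?_
  rw [Real.log_exp]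
  apply ENNReal.ofReal_le_ofReal
  have : 0 ≤ a₁ ^ 2 * (d : ℝ) := by positivity
  linarith

theorem ren : S_REN := by
  refine ⟨60, by norm_num, fun d s A f hs hs' hdA hf => ?_⟩
  have hA0 : 0 ≤ A := (Real.sqrt_nonneg _).trans hdA
  obtain ⟨h1, h2, h3⟩ := GKL.gen LCS.cm LCS.mp d f (s * A) (2 * s)
    (hf.smooth.of_le (by norm_num)) (by positivity) (by positivity) (by linarith)
    (fun x => hf.grad_le hs.le x)
  refine ⟨h1, h2, h3.trans ?_⟩
  refine mul_le_mul_of_nonneg_right (Real.exp_le_exp.mpr ?_) (by positivity)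
  have h7 : (d : ℝ) ≤ A ^ 2 := by
    rw [← Real.sqrt_le_left hA0]
    exact hdA
  have : s ^ 2 * d ≤ s ^ 2 * A ^ 2 := mul_le_mul_of_nonneg_left h7 (by positivity)
  nlinarith

end LCS.Fifth
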