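import Mathlib
import Vale.Agent.P347.Fifth.Defs5

/-! # P347 (1/5): basic facts on `mk` and `itm` -/

namespace LCS.Fifth

open MeasureTheory ProbabilityTheory Set Filter InformationTheory
open scoped ENNReal NNReal Topology RealInnerProductSpace BigOperators ContDiff

section

variable {X Y Z : Type} [MeasurableSpace X] [MeasurableSpace Y] [MeasurableSpace Z]

theorem mk_markov (F : X × Y → Z) (Γ : Measure Y) [IsProbabilityMeasure Γ] (hF : Measurable F) :
    IsMarkovKernel (mk F Γ) := by
  unfold mk
  exact Kernel.IsMarkovKernel.map _ hF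

theorem mk_apply {F : X × Y → Z} (hF : Measurable F) (Γ : Measure Y) [SFinite Γ] (x : X) :
    mk F Γ x = Γ.map fun y => F (x, y) := by
  unfold mk
  rw [Kernel.map_apply _ hF, Kernel.prod_apply, Kernel.id_apply, Kernel.const_apply,
    Measure.dirac_prod, Measure.map_map hF measurable_prodMk_left]
  rfl

theorem bind_idconst (μ : Measure X) [SFinite μ] (Γ : Measure Y) [SFinite Γ] :
    μ.bind (Kernel.id ×ₖ Kernel.const X Γ) = μ.prod Γ := by
  rw [← Measure.compProd_const, Measure.compProd_eq_comp_prod]

theorem bind_mk {F : X × Y → Z} (hF : Measurable F) (μ : Measure X) [SFinite μ] (Γ : Measure Y)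
    [SFinite Γ] : μ.bind (mk F Γ) = (μ.prod Γ).map F := by
  unfold mk
  rw [← bind_idconst μ Γ, Measure.map_comp _ _ hF]

theorem itm_prob (κ : Kernel X X) [IsMarkovKernel κ] (μ : Measure X) [IsProbabilityMeasure μ]
    (n : ℕ) : IsProbabilityMeasure (itm κ μ n) := by
  induction n with
  | zero => exact ‹_›
  | succ n ih =>
    simp only [itm]
    infer_instance

end

end LCS.Fifth
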