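import Mathlib
import Vale.Agent.P347.Fifth.Defs5
import Vale.Agent.P347.Fifth.Ker
import Vale.Agent.P347.Lip

/-! # P347 (1/5): joint measurability in `(p, y, z)` -/

namespace LCS.Fifth.Meas

open MeasureTheory ProbabilityTheory Set Filter InformationTheory
open scoped ENNReal NNReal Topology RealInnerProductSpace BigOperators ContDiff

variable {d : ℕ} {V : E d → ℝ}

theorem cont_gradV (hV : Pot d V) : Continuous (gradient V) :=
  INV.cont_grad lip hV

theorem meas_c0 (hV : Pot d V) (s : ℝ) : Measurable fun p : E d => INV.c0 V s p := by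
  have := (cont_gradV hV).measurable
  unfold INV.c0
  fun_prop

theorem meas_Ap (hV : Pot d V) (s : ℝ) : Measurable fun p : E d => Ap V s p := by
  have := meas_c0 hV s
  unfold Ap
  fun_prop

/-- the gradient of the local potential, jointly -/
theorem meas_grad (hV : Pot d V) (s : ℝ) :
    Measurable fun q : E d × E d => gradient (INV.fp V s q.1) q.2 := by
  have h1 := (cont_gradV hV).measurable
  have h2 := meas_c0 hV s
  have e : (fun q : E d × E d => gradient (INV.fp V s q.1) q.2) = fun q =>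
      √s • (gradient V q.1 - gradient V (q.1 - √s • (INV.c0 V s q.1 + q.2))) := by
    funext q
    exact INV.grad_fp hV s q.1 q.2
  rw [e]
  fun_prop

theorem meas_fp (hV : Pot d V) (s : ℝ) :
    Measurable fun q : E d × E d => INV.fp V s q.1 q.2 := by
  have h1 := (cont_gradV hV).measurable
  have h2 := meas_c0 hV s
  have h3 : Measurable V := hV.smooth.continuous.measurable
  unfold INV.fp
  fun_prop

/-- Mehler averages, jointly in the parameter `x`, in `p` and in `y` -/
theorem meas_Mh (hV : Pot d V) (s : ℝ) :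
    Measurable fun q : ℝ × (E d × E d) => Mh q.1 (gradient (INV.fp V s q.2.1)) q.2.2 := by
  have h := meas_grad hV s
  unfold Mh
  have h2 : Measurable fun r : (ℝ × (E d × E d)) × E d =>
      gradient (INV.fp V s r.1.2.1) (r.1.1 • r.1.2.2 + √(1 - r.1.1 ^ 2) • r.2) := by
    exact h.comp (f := fun r : (ℝ × (E d × E d)) × E d =>
      (r.1.2.1, r.1.1 • r.1.2.2 + √(1 - r.1.1 ^ 2) • r.2)) (by fun_prop)
  exact (h2.stronglyMeasurable.integral_prod_right' (ν := gam d)).measurable

theorem meas_Mh' (hV : Pot d V) (s x : ℝ) :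
    Measurable fun q : E d × E d => Mh x (gradient (INV.fp V s q.1)) q.2 := by
  have h := meas_grad hV s
  unfold Mh
  have h2 : Measurable fun r : (E d × E d) × E d =>
      gradient (INV.fp V s r.1.1) (x • r.1.2 + √(1 - x ^ 2) • r.2) := by
    exact h.comp (f := fun r : (E d × E d) × E d =>
      (r.1.1, x • r.1.2 + √(1 - x ^ 2) • r.2)) (by fun_prop)
  exact (h2.stronglyMeasurable.integral_prod_right' (ν := gam d)).measurable

theorem meas_MhS (hV : Pot d V) (s : ℝ) :
    Measurable fun r : (E d × E d) × ℝ => Mh r.2 (gradient (INV.fp V s r.1.1)) r.1.2 := by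
  have h := meas_grad hV s
  unfold Mh
  have h2 : Measurable fun r : ((E d × E d) × ℝ) × E d =>
      gradient (INV.fp V s r.1.1.1) (r.1.2 • r.1.1.2 + √(1 - r.1.2 ^ 2) • r.2) := by
    exact h.comp (f := fun r : ((E d × E d) × ℝ) × E d =>
      (r.1.1.1, r.1.2 • r.1.1.2 + √(1 - r.1.2 ^ 2) • r.2)) (by fun_prop)
  exact (h2.stronglyMeasurable.integral_prod_right' (ν := gam d)).measurable

theorem meas_intMh (hV : Pot d V) (s : ℝ) :
    Measurable fun q : E d × E d => ∫ x in (-1 : ℝ)..1, Mh x (gradient (INV.fp V s q.1)) q.2 := by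
  have h := (meas_MhS hV s).stronglyMeasurable
  have h1 : (fun q : E d × E d => ∫ x in (-1 : ℝ)..1, Mh x (gradient (INV.fp V s q.1)) q.2) =
      fun q : E d × E d => ∫ x, Mh x (gradient (INV.fp V s q.1)) q.2
        ∂(volume.restrict (Ioc (-1 : ℝ) 1)) := by
    funext q
    rw [intervalIntegral.integral_of_le (show (-1 : ℝ) ≤ 1 by norm_num)]
  rw [h1]
  exact (StronglyMeasurable.integral_prod_right' h).measurable

theorem meas_freeD (hV : Pot d V) (s : ℝ) (n : ℕ) :
    Measurable fun q : (E d × E d) × E d => freeD (INV.fp V s q.1.1) n q.1.2 q.2 := by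
  have h := meas_grad hV s
  unfold freeD
  have h2 : ∀ i : ℕ, Measurable fun q : (E d × E d) × E d => gradient (INV.fp V s q.1.1)
      (Real.cos (i * (Real.pi / n)) • q.1.2 + Real.sin (i * (Real.pi / n)) • q.2) := by
    intro i
    have h0 : Measurable fun q : (E d × E d) × E d => ((q.1.1,
      Real.cos (i * (Real.pi / n)) • q.1.2 + Real.sin (i * (Real.pi / n)) • q.2) : E d × E d) := by
      fun_prop
    exact h.comp h0
  fun_prop

theorem meas_fbar (hV : Pot d V) (s : ℝ) (n : ℕ) :
    Measurable fun q : E d × E d => fbar (INV.fp V s q.1) n q.2 := by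
  unfold fbar
  exact ((meas_freeD hV s n).stronglyMeasurable.integral_prod_right' (ν := gam d)).measurable

theorem meas_Tq (hV : Pot d V) (s : ℝ) {J : ℕ} (c w : Fin J → ℝ) :
    Measurable fun q : E d × E d => Tq c w (INV.fp V s q.1) q.2 := by
  unfold Tq
  have h1 := meas_intMh hV s
  have h2 : ∀ j, Measurable fun q : E d × E d => Mh (c j) (gradient (INV.fp V s q.1)) q.2 :=
    fun j => meas_Mh' hV s (c j)
  fun_prop

theorem meas_mY (hV : Pot d V) (s : ℝ) {J : ℕ} (c w : Fin J → ℝ) :
    Measurable fun q : E d × E d => mY c w (INV.fp V s q.1) q.2 := by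
  unfold mY
  have h2 : ∀ j, Measurable fun q : E d × E d => Mh (c j) (gradient (INV.fp V s q.1)) q.2 :=
    fun j => meas_Mh' hV s (c j)
  fun_prop

theorem meas_cen (hV : Pot d V) (s β : ℝ) {J : ℕ} (c w : Fin J → ℝ) (n : ℕ) :
    Measurable fun q : (E d × E d) × (E d × E d) =>
      cen β c w (INV.fp V s q.1.1) n q.1.2 q.2.1 q.2.2 := by
  unfold cen
  have h1 := (meas_mY hV s c w).comp (f := fun q : (E d × E d) × (E d × E d) => q.1) (by fun_prop)
  have h2 := (meas_freeD hV s n).comp (f := fun q : (E d × E d) × (E d × E d) => (q.1, q.2.1))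
    (by fun_prop)
  have h3 := (meas_fbar hV s n).comp (f := fun q : (E d × E d) × (E d × E d) => q.1) (by fun_prop)
  have h4 := (meas_Mh' hV s (-β)).comp (f := fun q : (E d × E d) × (E d × E d) => q.1) (by fun_prop)
  simp only [Function.comp_def] at h1 h2 h3 h4
  fun_prop

theorem meas_bd (hV : Pot d V) (s β : ℝ) {J : ℕ} (c w : Fin J → ℝ) (n : ℕ) :
    Measurable fun q : (E d × E d) × (E d × E d) =>
      bd s (Ap V s q.1.1) β c w (INV.fp V s q.1.1) n q.1.2 q.2.1 q.2.2 := by
  unfold bd
  have h1 := (meas_Ap hV s).comp (f := fun q : (E d × E d) × (E d × E d) => q.1.1) (by fun_prop)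
  have h2 := (meas_intMh hV s).comp (f := fun q : (E d × E d) × (E d × E d) => q.1) (by fun_prop)
  have h3 := (meas_fbar hV s n).comp (f := fun q : (E d × E d) × (E d × E d) => q.1) (by fun_prop)
  have h4 := (meas_Tq hV s c w).comp (f := fun q : (E d × E d) × (E d × E d) => q.1) (by fun_prop)
  simp only [Function.comp_def] at h1 h2 h3 h4
  fun_prop

/-- shift from `(p, a)` to `(p, y)` -/
theorem meas_shift (hV : Pot d V) (s : ℝ) :
    Measurable fun q : E d × E d => (q.1, q.2 - INV.c0 V s q.1) := by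
  have := meas_c0 hV s
  fun_prop

theorem meas_bd' (hV : Pot d V) (s β : ℝ) {J : ℕ} (c w : Fin J → ℝ) (n : ℕ) :
    Measurable fun x : (E d × E d) × (E d × E d) => ENNReal.ofReal
      (bd s (Ap V s x.1.1) β c w (INV.fp V s x.1.1) n
        (x.1.2 - INV.c0 V s x.1.1) x.2.1 x.2.2) := by
  have h := (meas_bd hV s β c w n).comp (f := fun x : (E d × E d) × (E d × E d) =>
    ((x.1.1, x.1.2 - INV.c0 V s x.1.1), x.2)) (by have := meas_c0 hV s; fun_prop)
  exact h.ennreal_ofReal

theorem meas_gst (hV : Pot d V) (s β : ℝ) {J : ℕ} (c w : Fin J → ℝ) (n : ℕ) :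
    Measurable (gst V s β c w n) := by
  unfold gst
  exact (meas_bd' hV s β c w n).lintegral_prod_right'

theorem meas_outp (hV : Pot d V) (s : ℝ) :
    Measurable fun q : E d × E d => outp V s q.1 q.2 := by
  have := meas_c0 hV s
  unfold outp
  fun_prop

theorem meas_cmpF (hV : Pot d V) (s β : ℝ) {J : ℕ} (c w : Fin J → ℝ) (n : ℕ) :
    Measurable (cmpF V s β c w n) := by
  unfold cmpF
  have h1 := (meas_cen hV s β c w n).comp (f := fun q : (E d × E d) × ((E d × E d) × E d) =>
    ((q.1.1, q.1.2 - INV.c0 V s q.1.1), q.2.1)) (by have := meas_c0 hV s; fun_prop)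
  simp only [Function.comp_def] at h1
  exact (meas_outp hV s).comp (f := fun q : (E d × E d) × ((E d × E d) × E d) =>
    (q.1.1, cen β c w (INV.fp V s q.1.1) n (q.1.2 - INV.c0 V s q.1.1) q.2.1.1 q.2.1.2
      + √(1 - β) • q.2.2)) (by fun_prop)

end LCS.Fifth.Meas
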