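import Mathlib
import Vale.Agent.P347.Fifth.Defs5
import Vale.Agent.P347.LocBasic
import Vale.Agent.P347.Moll
import Vale.Agent.P347.Tow
import Vale.Agent.P347.Deriv
import Vale.Agent.P347.Ibp
import Vale.Agent.P347.CM
import Vale.Agent.P347.Mq

/-!
# P347, `γ_* ≤ 1/5`, module QL: quadrature error under the local measure
-/

namespace LCS.Fifth

open MeasureTheory ProbabilityTheory Set Filter InformationTheory
open scoped ENNReal NNReal Topology RealInnerProductSpace BigOperators ContDiff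

namespace QL

variable {d : ℕ}

/-- Lipschitz with constant `L`, with values in a normed space -/
def Lp {F : Type*} [NormedAddCommGroup F] (L : ℝ) (G : E d → F) : Prop :=
  ∀ x y, ‖G x - G y‖ ≤ L * ‖x - y‖

theorem sqrt_le_one (c : ℝ) : |√(1 - c ^ 2)| ≤ 1 := by
  rw [abs_of_nonneg (Real.sqrt_nonneg _)]
  exact Real.sqrt_le_one.mpr (by nlinarith [sq_nonneg c])

section

variable {F : Type*} [NormedAddCommGroup F] {L : ℝ} {G : E d → F}

theorem Lp.continuous (hG : Lp L G) : Continuous G := by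
  have : LipschitzWith L.toNNReal G := LipschitzWith.of_dist_le' fun x y => by
    rw [dist_eq_norm, dist_eq_norm]; exact hG x y
  exact this.continuous

theorem Lp.nonneg_or (hG : Lp L G) (hL : 0 ≤ L) (x : ℝ) (y z : E d) :
    ‖G (x • y + √(1 - x ^ 2) • z)‖ ≤ ‖G 0‖ + L * (|x| * ‖y‖ + ‖z‖) := by
  have h1 := hG (x • y + √(1 - x ^ 2) • z) 0
  rw [sub_zero] at h1
  have h2 : ‖x • y + √(1 - x ^ 2) • z‖ ≤ |x| * ‖y‖ + ‖z‖ := by
    refine (norm_add_le _ _).trans ?_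
    rw [norm_smul, norm_smul, Real.norm_eq_abs, Real.norm_eq_abs]
    have := mul_le_mul_of_nonneg_right (sqrt_le_one x) (norm_nonneg z)
    linarith
  have h3 := mul_le_mul_of_nonneg_left h2 hL
  have h4 : ‖G (x • y + √(1 - x ^ 2) • z)‖ ≤ ‖G (x • y + √(1 - x ^ 2) • z) - G 0‖ + ‖G 0‖ := by
    calc ‖G (x • y + √(1 - x ^ 2) • z)‖
        = ‖(G (x • y + √(1 - x ^ 2) • z) - G 0) + G 0‖ := by rw [sub_add_cancel]
      _ ≤ _ := norm_add_le _ _
  linarith

theorem Lp.int (hG : Lp L G) (hL : 0 ≤ L) (x : ℝ) (y : E d) :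
    Integrable (fun z => G (x • y + √(1 - x ^ 2) • z)) (gam d) := by
  have hb : Integrable (fun z : E d => ‖G 0‖ + L * (|x| * ‖y‖ + ‖z‖)) (gam d) :=
    (integrable_const _).add (((integrable_const _).add (MQ.inorm1 (d := d))).const_mul L)
  refine hb.mono' ?_ (ae_of_all _ fun z => hG.nonneg_or hL x y z)
  exact (hG.continuous.comp (by fun_prop)).aestronglyMeasurable

variable [NormedSpace ℝ F]

theorem Lp.mh_sub (hG : Lp L G) (hL : 0 ≤ L) {x : ℝ} (hx : |x| ≤ 1) (y y' : E d) :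
    ‖Mh x G y - Mh x G y'‖ ≤ L * ‖y - y'‖ := by
  unfold Mh
  rw [← integral_sub (hG.int hL x y) (hG.int hL x y')]
  have h := norm_integral_le_of_norm_le (μ := gam d) (integrable_const (L * ‖y - y'‖))
    (Eventually.of_forall fun z => (?_ :
      ‖G (x • y + √(1 - x ^ 2) • z) - G (x • y' + √(1 - x ^ 2) • z)‖ ≤ L * ‖y - y'‖))
  · simpa using h
  · refine (hG _ _).trans (mul_le_mul_of_nonneg_left ?_ hL)
    have e : x • y + √(1 - x ^ 2) • z - (x • y' + √(1 - x ^ 2) • z) = x • (y - y') := by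
      module
    rw [e, norm_smul, Real.norm_eq_abs]
    exact mul_le_of_le_one_left (norm_nonneg _) hx

theorem Lp.mh_le (hG : Lp L G) (hL : 0 ≤ L) {x : ℝ} (hx : |x| ≤ 1) (y : E d) :
    ‖Mh x G y‖ ≤ ‖G 0‖ + L * (‖y‖ + ∫ z : E d, ‖z‖ ∂(gam d)) := by
  have hb : Integrable (fun z : E d => ‖G 0‖ + L * (‖y‖ + ‖z‖)) (gam d) :=
    (integrable_const _).add (((integrable_const _).add (MQ.inorm1 (d := d))).const_mul L)
  have h : ‖Mh x G y‖ ≤ ∫ z : E d, (‖G 0‖ + L * (‖y‖ + ‖z‖)) ∂(gam d) := by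
    unfold Mh
    refine norm_integral_le_of_norm_le hb (ae_of_all _ fun z => ?_)
    refine (hG.nonneg_or hL x y z).trans ?_
    have h1 : |x| * ‖y‖ ≤ ‖y‖ := mul_le_of_le_one_left (norm_nonneg _) hx
    have h2 := mul_le_mul_of_nonneg_left (add_le_add_left h1 ‖z‖) hL
    linarith
  refine h.trans (le_of_eq ?_)
  have i1 : Integrable (fun z : E d => ‖y‖ + ‖z‖) (gam d) :=
    (integrable_const _).add (MQ.inorm1 (d := d))
  have e1 : ∫ z : E d, L * (‖y‖ + ‖z‖) ∂(gam d) = L * ∫ z : E d, (‖y‖ + ‖z‖) ∂(gam d) :=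
    integral_const_mul _ _
  rw [integral_add (integrable_const _) (i1.const_mul L), e1,
    integral_add (integrable_const _) (MQ.inorm1 (d := d))]
  simp

/-- measurability in the parameter -/
theorem Lp.mh_meas (hG : Lp L G) (y : E d) : StronglyMeasurable (fun x => Mh x G y) := by
  unfold Mh
  have : Continuous fun p : ℝ × E d => G (p.1 • y + √(1 - p.1 ^ 2) • p.2) :=
    hG.continuous.comp (by fun_prop)
  exact (this.stronglyMeasurable).integral_prod_right'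

theorem Lp.mh_ii (hG : Lp L G) (hL : 0 ≤ L) (y : E d) :
    IntervalIntegrable (fun x => Mh x G y) volume (-1) 1 := by
  rw [intervalIntegrable_iff, uIoc_of_le (by norm_num)]
  refine Measure.integrableOn_of_bounded (M := ‖G 0‖ + L * (‖y‖ + ∫ z : E d, ‖z‖ ∂(gam d)))
    (by simp) (hG.mh_meas y).aestronglyMeasurable ?_
  rw [ae_restrict_iff' measurableSet_Ioc]
  exact ae_of_all _ fun x hx => hG.mh_le hL (abs_le.mpr ⟨hx.1.le, hx.2⟩) y

/-- the quadrature defect of a Lipschitz map -/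
noncomputable def T {J : ℕ} (c w : Fin J → ℝ) (G : E d → F) (y : E d) : F :=
  (∫ x in (-1 : ℝ)..1, Mh x G y) - ∑ j, w j • Mh (c j) G y

theorem T_sub_le {J : ℕ} {η : ℝ} {c w : Fin J → ℝ} (hR : Rule J η c w) {G H : E d → F}
    (hG : Lp L G) (hL : 0 ≤ L) {L' : ℝ} (hH : Lp L' H) (hL' : 0 ≤ L') (y y' : E d) {δ : ℝ}
    (h : ∀ x, |x| ≤ 1 → ‖Mh x G y - Mh x H y'‖ ≤ δ) : ‖T c w G y - T c w H y'‖ ≤ 4 * δ := by
  have e : T c w G y - T c w H y' = (∫ x in (-1 : ℝ)..1, (Mh x G y - Mh x H y')) -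
      ∑ j, w j • (Mh (c j) G y - Mh (c j) H y') := by
    unfold T
    rw [intervalIntegral.integral_sub (hG.mh_ii hL y) (hH.mh_ii hL' y')]
    simp only [smul_sub, Finset.sum_sub_distrib]
    abel
  rw [e]
  have h1 : ‖∫ x in (-1 : ℝ)..1, (Mh x G y - Mh x H y')‖ ≤ δ * |1 - (-1)| := by
    refine intervalIntegral.norm_integral_le_of_norm_le_const fun x hx => ?_
    rw [uIoc_of_le (by norm_num)] at hx
    exact h x (abs_le.mpr ⟨hx.1.le, hx.2⟩)
  have h2 : ‖∑ j, w j • (Mh (c j) G y - Mh (c j) H y')‖ ≤ 2 * δ := by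
    refine (norm_sum_le _ _).trans ?_
    rw [← hR.sum, Finset.sum_mul]
    refine Finset.sum_le_sum fun j _ => ?_
    rw [norm_smul, Real.norm_eq_abs, abs_of_pos (hR.pos j)]
    exact mul_le_mul_of_nonneg_left (h _
      (abs_le.mpr ⟨(hR.mem j).1.le, (hR.mem j).2.le⟩)) (hR.pos j).le
  have h3 := norm_sub_le (∫ x in (-1 : ℝ)..1, (Mh x G y - Mh x H y'))
    (∑ j, w j • (Mh (c j) G y - Mh (c j) H y'))
  have h4 : |(1 : ℝ) - (-1)| = 2 := by norm_num
  rw [h4] at h1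
  linarith

theorem T_lip {J : ℕ} {η : ℝ} {c w : Fin J → ℝ} (hR : Rule J η c w)
    (hG : Lp L G) (hL : 0 ≤ L) : Lp (4 * L) (T c w G) := by
  intro y y'
  have := T_sub_le hR hG hL hG hL y y' (δ := L * ‖y - y'‖) fun x hx => hG.mh_sub hL hx y y'
  linarith

theorem T_close {J : ℕ} {η : ℝ} {c w : Fin J → ℝ} (hR : Rule J η c w) {G H : E d → F}
    (hG : Lp L G) (hL : 0 ≤ L) {L' : ℝ} (hH : Lp L' H) (hL' : 0 ≤ L') {δ : ℝ}
    (h : ∀ x, ‖G x - H x‖ ≤ δ) (y : E d) : ‖T c w G y - T c w H y‖ ≤ 4 * δ := by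
  refine T_sub_le hR hG hL hH hL' y y fun x _ => ?_
  unfold Mh
  rw [← integral_sub (hG.int hL x y) (hH.int hL' x y)]
  have := norm_integral_le_of_norm_le (μ := gam d) (integrable_const δ)
    (Eventually.of_forall fun z => h (x • y + √(1 - x ^ 2) • z))
  simpa using this

end

/-- components -/
theorem Mh_comp {L : ℝ} {G : E d → E d} (hG : Lp L G) (hL : 0 ≤ L) (x : ℝ) (y : E d) (i : Fin d) :
    Mh x (fun y => G y i) y = Mh x G y i := by
  have := (EuclideanSpace.proj i : E d →L[ℝ] ℝ).integral_comp_comm (hG.int hL x y)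
  unfold Mh
  simpa using this

theorem T_comp {L : ℝ} {G : E d → E d} (hG : Lp L G) (hL : 0 ≤ L) {J : ℕ} (c w : Fin J → ℝ)
    (y : E d) (i : Fin d) : T c w G y i =
      (∫ x in (-1 : ℝ)..1, Mh x (fun y => G y i) y) - ∑ j, w j * Mh (c j) (fun y => G y i) y := by
  have h1 : ∫ x in (-1 : ℝ)..1, Mh x G y i = (∫ x in (-1 : ℝ)..1, Mh x G y) i :=
    (EuclideanSpace.proj i : E d →L[ℝ] ℝ).intervalIntegral_comp_comm (hG.mh_ii hL y)
  simp only [Mh_comp hG hL]
  rw [h1, T]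
  simp

/-- a Lipschitz map is square integrable -/
theorem Lp.sq_int {L : ℝ} {G : E d → E d} (hG : Lp L G) :
    Integrable (fun y => ‖G y‖ ^ 2) (gam d) := by
  have h0 : Integrable (fun y : E d => 2 * ‖G 0‖ ^ 2 + 2 * L ^ 2 * ‖y‖ ^ 2) (gam d) :=
    (integrable_const _).add (integrable_norm_sq_gam.const_mul _)
  refine h0.mono' (hG.continuous.norm.pow 2).aestronglyMeasurable (ae_of_all _ fun y => ?_)
  rw [Real.norm_eq_abs, abs_of_nonneg (sq_nonneg _)]
  have h1 := hG y 0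
  rw [sub_zero] at h1
  have h4 : ‖G y‖ ≤ ‖G y - G 0‖ + ‖G 0‖ := by
    calc ‖G y‖ = ‖(G y - G 0) + G 0‖ := by rw [sub_add_cancel]
      _ ≤ _ := norm_add_le _ _
  have h5 : ‖G y‖ ≤ L * ‖y‖ + ‖G 0‖ := by linarith
  have h6 := pow_le_pow_left₀ (norm_nonneg _) h5 2
  nlinarith [sq_nonneg (L * ‖y‖ - ‖G 0‖)]

theorem lp_grad {s A : ℝ} {f : E d → ℝ} (hs : 0 ≤ s) (h : Loc d s A f) :
    Lp (2 * s) (gradient f) := fun x y => h.grad_lip hs x y

theorem grad_sq {s A : ℝ} {f : E d → ℝ} (hs : 0 ≤ s) (hA : √d ≤ A) (h : Loc d s A f) :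
    ∫ y, ‖gradient f y‖ ^ 2 ∂(gam d) ≤ 10 * (s * A) ^ 2 := by
  have hA0 : 0 ≤ A := (Real.sqrt_nonneg _).trans hA
  have hb : ∀ y, ‖gradient f y‖ ^ 2 ≤ 2 * (s * A) ^ 2 + 8 * s ^ 2 * ‖y‖ ^ 2 := by
    intro y
    have h1 := h.grad_le hs y
    have h3 := pow_le_pow_left₀ (norm_nonneg _) h1 2
    nlinarith [sq_nonneg (s * A - 2 * s * ‖y‖)]
  have h0 : Integrable (fun y : E d => 2 * (s * A) ^ 2 + 8 * s ^ 2 * ‖y‖ ^ 2) (gam d) :=
    (integrable_const _).add (integrable_norm_sq_gam.const_mul _)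
  refine (integral_mono (lp_grad hs h).sq_int h0 hb).trans ?_
  have e5 : ∫ a : E d, (8 * s ^ 2 * ‖a‖ ^ 2) ∂(gam d) = 8 * s ^ 2 * ∫ a : E d, ‖a‖ ^ 2 ∂(gam d) :=
    integral_const_mul _ _
  rw [integral_add (integrable_const _) (integrable_norm_sq_gam.const_mul _), e5,
    integral_norm_sq_gam, integral_const, probReal_univ, smul_eq_mul, one_mul]
  have h1 : (d : ℝ) ≤ A ^ 2 := by
    have := Real.sq_sqrt (Nat.cast_nonneg d : (0 : ℝ) ≤ d)
    have h2 := pow_le_pow_left₀ (Real.sqrt_nonneg _) hA 2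
    linarith
  nlinarith [mul_le_mul_of_nonneg_left h1 (sq_nonneg s)]

/-- the quadrature error in `L²(γ)` for smooth local potentials -/
theorem T_sq_le (hMQ : S_MQ) (hTOW : S_TOW) {s A : ℝ} (hs : 0 ≤ s) (hA : √d ≤ A) {f : E d → ℝ}
    (hf : LocS d s A f) {J : ℕ} {c w : Fin J → ℝ} {η : ℝ} (hη : 0 ≤ η) (hR : Rule J η c w) :
    ∫ y, ‖T c w (gradient f) y‖ ^ 2 ∂(gam d) ≤ η ^ 2 * (10 * (s * A) ^ 2) := by
  have hL : Loc d s A f := hf.toLoc
  have hG := lp_grad hs hL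
  have hs2 : 0 ≤ 2 * s := by linarith
  have hT := T_lip hR hG hs2
  have hsq := hT.sq_int
  have hgi := hG.sq_int
  have hgle := grad_sq hs hA hL
  have e1 : ∀ y, ‖T c w (gradient f) y‖ ^ 2 = ∑ i, (T c w (gradient f) y i) ^ 2 := fun y =>
    EuclideanSpace.real_norm_sq_eq _
  have e2 : ∀ y, ‖gradient f y‖ ^ 2 = ∑ i, (gradient f y i) ^ 2 := fun y =>
    EuclideanSpace.real_norm_sq_eq _
  have hi1 : ∀ i, Integrable (fun y => (T c w (gradient f) y i) ^ 2) (gam d) := by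
    intro i
    have hm : Continuous fun y => T c w (gradient f) y i :=
      (EuclideanSpace.proj i : E d →L[ℝ] ℝ).continuous.comp hT.continuous
    refine hsq.mono' (hm.pow 2).aestronglyMeasurable (ae_of_all _ fun y => ?_)
    rw [Real.norm_eq_abs, abs_of_nonneg (sq_nonneg _), e1]
    exact Finset.single_le_sum (f := fun i => (T c w (gradient f) y i) ^ 2)
      (fun j _ => sq_nonneg _) (Finset.mem_univ i)
  have hi2 : ∀ i, Integrable (fun y => (gradient f y i) ^ 2) (gam d) := by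
    intro i
    have hm : Continuous fun y => gradient f y i :=
      (EuclideanSpace.proj i : E d →L[ℝ] ℝ).continuous.comp hG.continuous
    refine hgi.mono' (hm.pow 2).aestronglyMeasurable (ae_of_all _ fun y => ?_)
    rw [Real.norm_eq_abs, abs_of_nonneg (sq_nonneg _), e2]
    exact Finset.single_le_sum (f := fun i => (gradient f y i) ^ 2) (fun j _ => sq_nonneg _)
      (Finset.mem_univ i)
  have h1 : ∫ y, ‖T c w (gradient f) y‖ ^ 2 ∂(gam d) =
      ∑ i, ∫ y, (T c w (gradient f) y i) ^ 2 ∂(gam d) := by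
    simp_rw [e1]
    exact integral_finsetSum _ fun i _ => hi1 i
  have h2 : ∫ y, ‖gradient f y‖ ^ 2 ∂(gam d) = ∑ i, ∫ y, (gradient f y i) ^ 2 ∂(gam d) := by
    simp_rw [e2]
    exact integral_finsetSum _ fun i _ => hi2 i
  rw [h1]
  calc ∑ i, ∫ y, (T c w (gradient f) y i) ^ 2 ∂(gam d)
      ≤ ∑ i, η ^ 2 * ∫ y, (gradient f y i) ^ 2 ∂(gam d) := by
        refine Finset.sum_le_sum fun i _ => ?_
        obtain ⟨G, hG', hG0⟩ := hTOW d s A f hf i
        have := hMQ d J η c w hη hR G (fun y => gradient f y i) hG' hG0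
        simp only [T_comp hG hs2]
        exact this
    _ = η ^ 2 * ∫ y, ‖gradient f y‖ ^ 2 ∂(gam d) := by rw [h2, Finset.mul_sum]
    _ ≤ _ := mul_le_mul_of_nonneg_left hgle (sq_nonneg _)

/-- the quadrature error in `L²(γ)` for `C²` local potentials -/
theorem T_sq_le' (hMQ : S_MQ) (hTOW : S_TOW) (hMOLL : S_MOLL) {s A : ℝ} (hd : 1 ≤ d) (hs : 0 < s)
    (hs1 : s ≤ 1) (hA : √d ≤ A) {f : E d → ℝ} (hf : Loc d s A f) {J : ℕ} {c w : Fin J → ℝ} {η : ℝ}
    (hη : 0 ≤ η) (hR : Rule J η c w) :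
    ∫ y, ‖T c w (gradient f) y‖ ^ 2 ∂(gam d) ≤ 80 * (η * (s * A)) ^ 2 + 32 * s ^ 2 := by
  have hA1 : 1 ≤ A := by
    refine le_trans ?_ hA
    rw [Real.one_le_sqrt]
    exact_mod_cast hd
  obtain ⟨g, hg, hgf⟩ := hMOLL d s A f hs hf s hs
  have hs2 : 0 ≤ 2 * s := by linarith
  have hG := lp_grad hs.le hf
  have hG' := lp_grad hs.le hg.toLoc
  have hT := T_lip hR hG hs2
  have hT' := T_lip hR hG' hs2
  have h1 := T_sq_le hMQ hTOW hs.le (hA.trans (by linarith : A ≤ A + s)) hg hη hR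
  have hc : ∀ y, ‖T c w (gradient g) y - T c w (gradient f) y‖ ≤ 4 * s := fun y =>
    T_close hR hG' hs2 hG hs2 (fun x => (hgf x).2) y
  have hb : ∀ y, ‖T c w (gradient f) y‖ ^ 2 ≤ 2 * ‖T c w (gradient g) y‖ ^ 2 + 32 * s ^ 2 := by
    intro y
    have h2 : ‖T c w (gradient f) y‖ ≤ ‖T c w (gradient g) y‖ + 4 * s := by
      have h3 : ‖T c w (gradient f) y‖ ≤
          ‖T c w (gradient g) y‖ + ‖T c w (gradient g) y - T c w (gradient f) y‖ := by
        calc ‖T c w (gradient f) y‖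
            = ‖T c w (gradient g) y - (T c w (gradient g) y - T c w (gradient f) y)‖ := by
              rw [sub_sub_cancel]
          _ ≤ _ := norm_sub_le _ _
      linarith [hc y]
    have h4 := pow_le_pow_left₀ (norm_nonneg _) h2 2
    nlinarith [sq_nonneg (‖T c w (gradient g) y‖ - 4 * s)]
  have hi : Integrable (fun y => 2 * ‖T c w (gradient g) y‖ ^ 2 + 32 * s ^ 2) (gam d) :=
    (hT'.sq_int.const_mul 2).add (integrable_const _)
  refine (integral_mono hT.sq_int hi hb).trans ?_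
  rw [integral_add (hT'.sq_int.const_mul 2) (integrable_const _), integral_const_mul,
    integral_const, probReal_univ, smul_eq_mul, one_mul]
  have h5 : (s * (A + s)) ^ 2 ≤ 4 * (s * A) ^ 2 := by
    have h6 : s * (A + s) ≤ 2 * (s * A) := by nlinarith
    have h7 := pow_le_pow_left₀ (by positivity) h6 2
    nlinarith
  have h8 := mul_le_mul_of_nonneg_left h5 (sq_nonneg η)
  nlinarith

end QL

open QL in
/-- QL from TRA and the modules of the `1/4` theorem. -/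
theorem ql_aux (hMQ : S_MQ) (hTOW : S_TOW) (hMOLL : S_MOLL) (hTRA : S_TRA) : S_QL := by
  obtain ⟨C, hC, h⟩ := hTRA
  refine ⟨96 * C, by positivity, ?_⟩
  intro d J s A η c w f hd hs hs1 hA hf hη hR
  have hs2 : 0 ≤ 2 * s := by linarith
  have hG := lp_grad hs.le hf
  have hT := T_lip hR hG hs2
  have hsq := T_sq_le' hMQ hTOW hMOLL hd hs (by linarith) hA hf hη hR
  have he0 : 0 ≤ 80 * (η * (s * A)) ^ 2 + 32 * s ^ 2 := by positivity
  have hT8 : ∀ x y, ‖Tq c w f x - Tq c w f y‖ ≤ 8 * s * ‖x - y‖ := by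
    intro x y
    have := hT x y
    have e : 4 * (2 * s) = 8 * s := by ring
    rw [e] at this
    exact this
  have hli : ∫⁻ y, ENNReal.ofReal (‖Tq c w f y‖ ^ 2) ∂(gam d) ≤
      ENNReal.ofReal (√(80 * (η * (s * A)) ^ 2 + 32 * s ^ 2) ^ 2) := by
    have hTq : Tq c w f = T c w (gradient f) := rfl
    rw [Real.sq_sqrt he0, hTq, ← ofReal_integral_eq_lintegral_ofReal hT.sq_int
      (ae_of_all _ fun y => sq_nonneg _)]
    exact ENNReal.ofReal_le_ofReal hsq
  have key := h d s A (8 * s) (√(80 * (η * (s * A)) ^ 2 + 32 * s ^ 2)) f (Tq c w f) hs hs1 hA hf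
    (by positivity) (Real.sqrt_nonneg _) hT.continuous hT8 hli
  refine key.trans (ENNReal.ofReal_le_ofReal ?_)
  rw [Real.sq_sqrt he0]
  have e : 80 * (η * (s * A)) ^ 2 + 32 * s ^ 2 + (8 * s) ^ 2 * (1 + (s * A) ^ 2) ≤
      96 * ((η * (s * A)) ^ 2 + s ^ 2 + (s ^ 2 * A) ^ 2) := by
    have h1 : 0 ≤ (η * (s * A)) ^ 2 := sq_nonneg _
    have h2 : 0 ≤ (s ^ 2 * A) ^ 2 := sq_nonneg _
    nlinarith
  have := mul_le_mul_of_nonneg_left e hC.le
  linarith

/-- QL: quadrature error under the local measure. -/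
theorem ql (hTRA : S_TRA) : S_QL :=
  ql_aux (LCS.mq (LCS.deriv (LCS.ibp LCS.cm))) LCS.tow LCS.moll hTRA

end LCS.Fifth
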