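import Mathlib
import Vale.Agent.P347.Fifth.Defs5
import Vale.Agent.P347.Fifth.Meas5
import Vale.Agent.P347.Fifth.Ql
import Vale.Agent.P347.Locs
import Vale.Agent.P347.Mom
import Vale.Agent.P347.Riem

/-!
# P347, `γ_* ≤ 1/5`, module GST: integrals of the state-dependent entropy bound
-/

namespace LCS.Fifth

open MeasureTheory ProbabilityTheory Set Filter InformationTheory
open scoped ENNReal NNReal Topology RealInnerProductSpace BigOperators ContDiff

namespace GST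

/-! ### the Riemann sums converge, without restriction on `s A` -/

section

variable {d : ℕ} {s A : ℝ} {f : E d → ℝ}

theorem growth (hs : 0 < s) (hL : Loc d s A f) (a b R : ℝ) (ha : |a| ≤ R) (hb : |b| ≤ 1)
    (y z : E d) :
    ‖gradient f (a • y + b • z)‖ ≤ s * A + 2 * s * (R * ‖y‖ + ‖z‖) := by
  refine (hL.grad_le hs.le _).trans ?_
  have h1 : ‖a • y + b • z‖ ≤ R * ‖y‖ + ‖z‖ := by
    refine (norm_add_le _ _).trans ?_
    rw [norm_smul, norm_smul, Real.norm_eq_abs, Real.norm_eq_abs]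
    have h2 : |a| * ‖y‖ ≤ R * ‖y‖ := mul_le_mul_of_nonneg_right ha (norm_nonneg _)
    have h3 : |b| * ‖z‖ ≤ 1 * ‖z‖ := mul_le_mul_of_nonneg_right hb (norm_nonneg _)
    linarith
  gcongr

theorem integrable_norm_gam' : Integrable (fun z : E d => ‖z‖) (gam d) := by
  have h : Integrable (fun z : E d => ‖z‖ ^ 2 + 1) (gam d) :=
    integrable_norm_sq_gam.add (integrable_const _)
  refine h.mono' (by fun_prop) (ae_of_all _ fun z => ?_)
  rw [Real.norm_eq_abs, abs_of_nonneg (norm_nonneg _)]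
  nlinarith [norm_nonneg z, sq_nonneg (‖z‖ - 1)]

theorem integrable_bound (s A R : ℝ) (y : E d) :
    Integrable (fun z : E d => s * A + 2 * s * (R * ‖y‖ + ‖z‖)) (gam d) :=
  (integrable_const _).add (((integrable_const _).add integrable_norm_gam').const_mul _)

theorem integrable_grad (hs : 0 < s) (hL : Loc d s A f) (a b : ℝ) (hb : |b| ≤ 1) (y : E d) :
    Integrable (fun z => gradient f (a • y + b • z)) (gam d) := by
  refine (integrable_bound s A |a| y).mono' ?_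
    (ae_of_all _ fun z => growth hs hL a b |a| le_rfl hb y z)
  have := hL.continuous_grad
  exact (this.comp (by fun_prop)).aestronglyMeasurable

/-- continuity of averages along continuous paths -/
theorem cont (hs : 0 < s) (hL : Loc d s A f) (y : E d) (a b : ℝ → ℝ) (ha : Continuous a)
    (hb : Continuous b) (hb1 : ∀ t, |b t| ≤ 1) :
    Continuous fun t => ∫ z, gradient f (a t • y + b t • z) ∂(gam d) := by
  rw [continuous_iff_continuousAt]
  intro t0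
  have hg := hL.continuous_grad
  refine continuousAt_of_dominated
    (bound := fun z => s * A + 2 * s * ((|a t0| + 1) * ‖y‖ + ‖z‖))
    (Eventually.of_forall fun t => (hg.comp (by fun_prop)).aestronglyMeasurable) ?_
    (integrable_bound s A _ y) (ae_of_all _ fun z => ?_)
  · have h1 : ∀ᶠ t in 𝓝 t0, |a t| < |a t0| + 1 := by
      have : ContinuousAt (fun t => |a t|) t0 := ha.abs.continuousAt
      exact this.eventually (gt_mem_nhds (by linarith))
    filter_upwards [h1] with t ht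
    exact ae_of_all _ fun z => growth hs hL _ _ _ ht.le (hb1 t) y z
  · have : Continuous fun t => gradient f (a t • y + b t • z) := hg.comp (by fun_prop)
    exact this.continuousAt

theorem sqrt_le_one (c : ℝ) : |√(1 - c ^ 2)| ≤ 1 := by
  rw [abs_of_nonneg (Real.sqrt_nonneg _)]
  exact Real.sqrt_le_one.mpr (by nlinarith [sq_nonneg c])

theorem subst (hs : 0 < s) (hL : Loc d s A f) (y : E d) :
    ∫ c in (-1 : ℝ)..1, Mh c (gradient f) y =
      ∫ t in (0 : ℝ)..Real.pi, Real.sin t •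
        ∫ z, gradient f (Real.cos t • y + Real.sin t • z) ∂(gam d) := by
  have hcont : Continuous fun c : ℝ => Mh c (gradient f) y := by
    unfold Mh
    exact cont hs hL y (fun c => c) (fun c => √(1 - c ^ 2)) continuous_id
      (by fun_prop) sqrt_le_one
  have h1 := intervalIntegral.integral_deriv_smul_comp (a := 0) (b := Real.pi)
    (f := Real.cos) (f' := fun t => -Real.sin t) (g := fun c : ℝ => Mh c (gradient f) y)
    (fun t _ => Real.hasDerivAt_cos t) (by fun_prop) hcont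
  rw [Real.cos_zero, Real.cos_pi] at h1
  rw [intervalIntegral.integral_symm, ← h1, ← intervalIntegral.integral_neg]
  refine intervalIntegral.integral_congr fun t ht => ?_
  rw [uIcc_of_le Real.pi_pos.le] at ht
  have h2 : √(1 - Real.cos t ^ 2) = Real.sin t := by
    rw [← Real.sin_sq, Real.sqrt_sq (Real.sin_nonneg_of_mem_Icc ht)]
  simp only [Function.comp, Mh, h2, neg_smul, neg_neg]

theorem riem5 (hs : 0 < s) (hL : Loc d s A f) (y : E d) :
    Tendsto (fun J : ℕ => ∫ z, freeD f J y z ∂(gam d)) atTop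
      (𝓝 (∫ c in (-1 : ℝ)..1, Mh c (gradient f) y)) := by
  have hcont : Continuous fun t : ℝ => Real.sin t •
      ∫ z, gradient f (Real.cos t • y + Real.sin t • z) ∂(gam d) :=
    Real.continuous_sin.smul (cont hs hL y Real.cos Real.sin Real.continuous_cos
      Real.continuous_sin Real.abs_sin_le_one)
  have h := RIEM.riemann hcont Real.pi_pos
  rw [subst hs hL y]
  refine h.congr fun J => ?_
  unfold freeD
  have hint : ∀ i ∈ Finset.range J, Integrable (fun z : E d => Real.sin (i * (Real.pi / J)) •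
      gradient f (Real.cos (i * (Real.pi / J)) • y + Real.sin (i * (Real.pi / J)) • z)) (gam d) :=
    fun i _ => (integrable_grad hs hL (Real.cos (i * (Real.pi / J))) (Real.sin (i * (Real.pi / J)))
      (Real.abs_sin_le_one _) y).smul (Real.sin (i * (Real.pi / J)))
  rw [integral_smul, integral_finsetSum _ hint]
  congr 1
  refine Finset.sum_congr rfl fun i _ => ?_
  rw [integral_smul]


end

/-! ### pointwise bounds -/

section

variable {d : ℕ} {s A : ℝ} {f : E d → ℝ}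

theorem fbar_le (hs : 0 < s) (hA : √d ≤ A) (hL : Loc d s A f) (n : ℕ) (y : E d) :
    ‖fbar f n y‖ ≤ 4 * (s * A + 2 * s * (‖y‖ + √d)) := by
  have hA0 : 0 ≤ A := (Real.sqrt_nonneg _).trans hA
  refine (LOCS.mJ_le hL hs.le hA0 n y).trans ?_
  exact mul_le_mul_of_nonneg_right Real.pi_le_four (by positivity)

theorem mh_le (hs : 0 < s) (hL : Loc d s A f) {x : ℝ} (hx : |x| ≤ 1) (y : E d) :
    ‖Mh x (gradient f) y‖ ≤ s * A + 2 * s * (‖y‖ + √d) := by
  have h := (QL.lp_grad hs.le hL).mh_le (by positivity) hx y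
  have h1 := integral_norm_gam_le (d := d)
  have h2 : 2 * s * (‖y‖ + ∫ z : E d, ‖z‖ ∂(gam d)) ≤ 2 * s * (‖y‖ + √d) :=
    mul_le_mul_of_nonneg_left (by linarith) (by positivity)
  linarith [hL.grad0]

theorem intMh_le (hs : 0 < s) (hL : Loc d s A f) (y : E d) :
    ‖∫ x in (-1 : ℝ)..1, Mh x (gradient f) y‖ ≤ 2 * (s * A + 2 * s * (‖y‖ + √d)) := by
  have h := intervalIntegral.norm_integral_le_of_norm_le_const (a := (-1 : ℝ)) (b := 1)
    (C := s * A + 2 * s * (‖y‖ + √d)) (f := fun x => Mh x (gradient f) y) fun x hx => by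
      rw [uIoc_of_le (by norm_num)] at hx
      exact mh_le hs hL (abs_le.mpr ⟨hx.1.le, hx.2⟩) y
  have h4 : |(1 : ℝ) - (-1)| = 2 := by norm_num
  rw [h4] at h
  linarith

theorem Tq_le (hs : 0 < s) (hL : Loc d s A f) {J : ℕ} {c w : Fin J → ℝ} {η : ℝ}
    (hR : Rule J η c w) (y : E d) :
    ‖Tq c w f y‖ ≤ 4 * (s * A + 2 * s * (‖y‖ + √d)) := by
  have h1 := intMh_le hs hL y
  set B := s * A + 2 * s * (‖y‖ + √d) with hB
  have h2 : ‖∑ j, w j • Mh (c j) (gradient f) y‖ ≤ 2 * B := by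
    refine (norm_sum_le _ _).trans ?_
    rw [← hR.sum, Finset.sum_mul]
    refine Finset.sum_le_sum fun j _ => ?_
    rw [norm_smul, Real.norm_eq_abs, abs_of_pos (hR.pos j)]
    exact mul_le_mul_of_nonneg_left (mh_le hs hL
      (abs_le.mpr ⟨(hR.mem j).1.le, (hR.mem j).2.le⟩) y) (hR.pos j).le
  unfold Tq
  refine (norm_sub_le _ _).trans ?_
  linarith

end

/-! ### a general moment formula -/

theorem lint_quad {d : ℕ} {μ ν : Measure (E d)} [IsProbabilityMeasure μ] [IsProbabilityMeasure ν]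
    (hμ : Integrable (fun x => ‖x‖ ^ 2) μ) (hν : Integrable (fun x => ‖x‖ ^ 2) ν) {a b c : ℝ}
    (ha : 0 ≤ a) (hb : 0 ≤ b) (hc : 0 ≤ c) :
    ∫⁻ r : E d × E d, ENNReal.ofReal (a + b * ‖r.1‖ ^ 2 + c * ‖r.2‖ ^ 2) ∂(μ.prod ν) =
      ENNReal.ofReal (a + b * (∫ x, ‖x‖ ^ 2 ∂μ) + c * ∫ x, ‖x‖ ^ 2 ∂ν) := by
  have i1 : Integrable (fun r : E d × E d => ‖r.1‖ ^ 2) (μ.prod ν) := hμ.comp_fst ν
  have i2 : Integrable (fun r : E d × E d => ‖r.2‖ ^ 2) (μ.prod ν) := hν.comp_snd μ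
  have i3 : Integrable (fun r : E d × E d => a + b * ‖r.1‖ ^ 2) (μ.prod ν) :=
    (integrable_const a).add (i1.const_mul b)
  have e1 : ∫ r : E d × E d, ‖r.1‖ ^ 2 ∂(μ.prod ν) = ∫ x, ‖x‖ ^ 2 ∂μ := by
    have := integral_fun_fst (μ := μ) (ν := ν) (fun x : E d => ‖x‖ ^ 2)
    rw [this]; simp
  have e2 : ∫ r : E d × E d, ‖r.2‖ ^ 2 ∂(μ.prod ν) = ∫ x, ‖x‖ ^ 2 ∂ν := by
    have := integral_fun_snd (μ := μ) (ν := ν) (fun x : E d => ‖x‖ ^ 2)
    rw [this]; simp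
  have i4 : Integrable (fun r : E d × E d => a + b * ‖r.1‖ ^ 2 + c * ‖r.2‖ ^ 2) (μ.prod ν) :=
    i3.add (i2.const_mul c)
  rw [← ofReal_integral_eq_lintegral_ofReal i4 (ae_of_all _ fun r => by positivity)]
  rw [integral_add i3 (i2.const_mul c), integral_add (integrable_const a) (i1.const_mul b),
    integral_const_mul, integral_const_mul, e1, e2]
  simp


section

variable {d : ℕ} {V : E d → ℝ} {s : ℝ}

/-- the dominating function -/
noncomputable def Rd (q : E d × E d) : ℝ := 3 * d + 2 * ‖q.1‖ ^ 2 + 2 * ‖q.2‖ ^ 2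

theorem Rd_nonneg (q : E d × E d) : 0 ≤ Rd q := by unfold Rd; positivity

theorem c0_sq (hV : Pot d V) (hs : 0 < s) (p : E d) :
    ‖INV.c0 V s p‖ ^ 2 ≤ 4 * s * ‖p‖ ^ 2 := by
  unfold INV.c0
  rw [norm_smul, Real.norm_eq_abs, mul_pow, sq_abs, Real.sq_sqrt hs.le]
  have h := pow_le_pow_left₀ (norm_nonneg _) (INV.norm_grad_le lip hV p) 2
  nlinarith

theorem Ap_sq (hV : Pot d V) (hs : 0 < s) (hs1 : s ≤ 1 / 1000) (p : E d) :
    Ap V s p ^ 2 ≤ 2 * d + ‖p‖ ^ 2 := by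
  unfold Ap
  have h := c0_sq hV hs p
  have h1 := Real.sq_sqrt (Nat.cast_nonneg d : (0 : ℝ) ≤ d)
  have h2 := sq_nonneg ‖p‖
  nlinarith [sq_nonneg (√d - 2 * ‖INV.c0 V s p‖)]

theorem y_sq (hV : Pot d V) (hs : 0 < s) (hs1 : s ≤ 1 / 1000) (p a : E d) :
    ‖a - INV.c0 V s p‖ ^ 2 ≤ 2 * ‖a‖ ^ 2 + ‖p‖ ^ 2 := by
  have h := c0_sq hV hs p
  have h1 := norm_sub_le a (INV.c0 V s p)
  have h2 := pow_le_pow_left₀ (norm_nonneg _) h1 2
  have h3 := sq_nonneg ‖p‖
  nlinarith [sq_nonneg (‖a‖ - ‖INV.c0 V s p‖)]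

theorem sum_sq (hV : Pot d V) (hs : 0 < s) (hs1 : s ≤ 1 / 1000) (q : E d × E d) :
    Ap V s q.1 ^ 2 + ‖q.2 - INV.c0 V s q.1‖ ^ 2 + d ≤ Rd q := by
  have h1 := Ap_sq hV hs hs1 q.1
  have h2 := y_sq hV hs hs1 q.1 q.2
  unfold Rd
  linarith

theorem Ap_ge (p : E d) : √d ≤ Ap V s p := by
  unfold Ap; linarith [norm_nonneg (INV.c0 V s p)]

theorem sq3 {a b c : ℝ} : (a + b + c) ^ 2 ≤ 3 * (a ^ 2 + b ^ 2 + c ^ 2) := by
  nlinarith [sq_nonneg (a - b), sq_nonneg (b - c), sq_nonneg (a - c)]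

theorem bound6 (hV : Pot d V) (hs : 0 < s) (hs1 : s ≤ 1 / 1000) (q : E d × E d) {t : ℝ}
    (ht : 0 ≤ t)
    (h : t ≤ 6 * (s * Ap V s q.1 + 2 * s * (‖q.2 - INV.c0 V s q.1‖ + √d))) :
    t ^ 2 ≤ 3 * Rd q := by
  have hA : 0 ≤ Ap V s q.1 := (Real.sqrt_nonneg _).trans (Ap_ge q.1)
  have h1 : t ≤ Ap V s q.1 + ‖q.2 - INV.c0 V s q.1‖ + √d := by
    refine h.trans ?_
    have h2 := norm_nonneg (q.2 - INV.c0 V s q.1)
    have h3 := Real.sqrt_nonneg (d : ℝ)
    nlinarith [mul_nonneg (sub_nonneg.mpr hs1) hA, mul_nonneg (sub_nonneg.mpr hs1) h2,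
      mul_nonneg (sub_nonneg.mpr hs1) h3]
  refine (pow_le_pow_left₀ ht h1 2).trans (sq3.trans ?_)
  have h4 := sum_sq hV hs hs1 q
  rw [Real.sq_sqrt (Nat.cast_nonneg d : (0 : ℝ) ≤ d)]
  linarith

/-- the error of the Riemann sum -/
noncomputable def D (V : E d → ℝ) (s : ℝ) (n : ℕ) (q : E d × E d) : ℝ :=
  ‖fbar (INV.fp V s q.1) n (q.2 - INV.c0 V s q.1) -
    ∫ x in (-1 : ℝ)..1, Mh x (gradient (INV.fp V s q.1)) (q.2 - INV.c0 V s q.1)‖ ^ 2

/-- the error of the quadrature -/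
noncomputable def Tt (V : E d → ℝ) (s : ℝ) {J : ℕ} (c w : Fin J → ℝ) (q : E d × E d) : ℝ :=
  ‖Tq c w (INV.fp V s q.1) (q.2 - INV.c0 V s q.1)‖ ^ 2

theorem D_nonneg (n : ℕ) (q : E d × E d) : 0 ≤ D V s n q := sq_nonneg _

theorem Tt_nonneg {J : ℕ} (c w : Fin J → ℝ) (q : E d × E d) : 0 ≤ Tt V s c w q := sq_nonneg _

theorem D_le (hFIB : S_FIB) (hd : 1 ≤ d) (hV : Pot d V) (hs : 0 < s) (hs1 : s ≤ 1 / 1000) (n : ℕ)
    (q : E d × E d) : D V s n q ≤ 3 * Rd q := by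
  have hL := (hFIB d V s hd hV hs hs1).1 q.1
  refine bound6 hV hs hs1 q (norm_nonneg _) ((norm_sub_le _ _).trans ?_)
  have h1 := fbar_le hs (Ap_ge q.1) hL n (q.2 - INV.c0 V s q.1)
  have h2 := intMh_le hs hL (q.2 - INV.c0 V s q.1)
  linarith

theorem Tt_le (hFIB : S_FIB) (hd : 1 ≤ d) (hV : Pot d V) (hs : 0 < s) (hs1 : s ≤ 1 / 1000) {J : ℕ}
    {c w : Fin J → ℝ} {η : ℝ} (hR : Rule J η c w) (q : E d × E d) :
    Tt V s c w q ≤ 3 * Rd q := by
  have hL := (hFIB d V s hd hV hs hs1).1 q.1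
  refine bound6 hV hs hs1 q (norm_nonneg _) ?_
  have h1 := Tq_le hs hL hR (q.2 - INV.c0 V s q.1)
  have hA : 0 ≤ Ap V s q.1 := (Real.sqrt_nonneg _).trans (Ap_ge q.1)
  have h2 : 0 ≤ s * Ap V s q.1 + 2 * s * (‖q.2 - INV.c0 V s q.1‖ + √d) := by positivity
  linarith

theorem D_tendsto (hFIB : S_FIB) (hd : 1 ≤ d) (hV : Pot d V) (hs : 0 < s) (hs1 : s ≤ 1 / 1000)
    (q : E d × E d) : Tendsto (fun n => D V s n q) atTop (𝓝 0) := by
  have hL := (hFIB d V s hd hV hs hs1).1 q.1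
  have h := riem5 hs hL (q.2 - INV.c0 V s q.1)
  have h2 := ((h.sub_const (∫ x in (-1 : ℝ)..1, Mh x (gradient (INV.fp V s q.1))
    (q.2 - INV.c0 V s q.1))).norm).pow 2
  simpa [D, fbar] using h2

theorem D_meas (hV : Pot d V) (n : ℕ) : Measurable (D V s n) := by
  have h1 := (Meas.meas_fbar hV s n).comp (Meas.meas_shift hV s)
  have h2 := (Meas.meas_intMh hV s).comp (Meas.meas_shift hV s)
  simp only [Function.comp_def] at h1 h2
  unfold D
  fun_prop

theorem Tt_meas (hV : Pot d V) {J : ℕ} (c w : Fin J → ℝ) : Measurable (Tt V s c w) := by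
  have h1 := (Meas.meas_Tq hV s c w).comp (Meas.meas_shift hV s)
  simp only [Function.comp_def] at h1
  unfold Tt
  fun_prop

/-- pointwise bound of `gst` -/
theorem gst_le (hV : Pot d V) (hs : 0 < s) (hs1 : s ≤ 1 / 1000) {β : ℝ} (hβ1 : β < 1) {J : ℕ}
    (c w : Fin J → ℝ) (n : ℕ) (q : E d × E d) :
    gst V s β c w n q ≤ ENNReal.ofReal (2 * (1 - β) ^ 2 * s ^ 2 * d + 3 * s ^ 4 / (1 - β) * Rd q +
      (D V s n q + Tt V s c w q) / (1 - β)) := by
  have hb : 0 < 1 - β := by linarith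
  have hA : 0 ≤ Ap V s q.1 := (Real.sqrt_nonneg _).trans (Ap_ge q.1)
  have hD := D_nonneg (V := V) (s := s) n q
  have hT := Tt_nonneg (V := V) (s := s) c w q
  set A := Ap V s q.1 with hAdef
  set y := q.2 - INV.c0 V s q.1 with hy
  have hpt : ∀ r : E d × E d, bd s A β c w (INV.fp V s q.1) n y r.1 r.2 ≤
      ((1 - β) ^ 2 * s ^ 2 * d + 3 * s ^ 4 / (1 - β) * (A ^ 2 + ‖y‖ ^ 2) +
        (D V s n q + Tt V s c w q) / (1 - β)) + 3 * s ^ 4 / (1 - β) * ‖r.1‖ ^ 2 +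
        (1 - β) ^ 2 * s ^ 2 * ‖r.2‖ ^ 2 := by
    intro r
    unfold bd
    have e1 : (s ^ 2 * (A + ‖y‖ + ‖r.1‖)) ^ 2 / (1 - β) ≤
        3 * s ^ 4 / (1 - β) * (A ^ 2 + ‖y‖ ^ 2 + ‖r.1‖ ^ 2) := by
      have h1 : (s ^ 2 * (A + ‖y‖ + ‖r.1‖)) ^ 2 = s ^ 4 * (A + ‖y‖ + ‖r.1‖) ^ 2 := by ring
      rw [h1, div_mul_eq_mul_div]
      refine div_le_div_of_nonneg_right ?_ hb.le
      have h2 := mul_le_mul_of_nonneg_left (sq3 (a := A) (b := ‖y‖) (c := ‖r.1‖))
        (by positivity : (0 : ℝ) ≤ s ^ 4)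
      linarith
    have e2 : (‖fbar (INV.fp V s q.1) n y -
        ∫ x in (-1 : ℝ)..1, Mh x (gradient (INV.fp V s q.1)) y‖ ^ 2 +
        ‖Tq c w (INV.fp V s q.1) y‖ ^ 2) / (1 - β) = (D V s n q + Tt V s c w q) / (1 - β) := rfl
    rw [e2]
    nlinarith [e1]
  have ig : Integrable (fun x : E d => ‖x‖ ^ 2) (gam d) := integrable_norm_sq_gam
  unfold gst
  refine (lintegral_mono fun r => ENNReal.ofReal_le_ofReal (hpt r)).trans ?_
  rw [lint_quad ig ig (by positivity) (by positivity) (by positivity)]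
  refine ENNReal.ofReal_le_ofReal ?_
  rw [integral_norm_sq_gam]
  have h5 := sum_sq hV hs hs1 q
  have h6 := mul_le_mul_of_nonneg_left h5 (by positivity : 0 ≤ 3 * s ^ 4 / (1 - β))
  linarith

/-- second moments under `Pt` -/
theorem lint_Pt (hd : 1 ≤ d) (hV : Pot d V) (hs : 0 < s) (hs1 : s ≤ 1 / 1000) {a b c : ℝ}
    (ha : 0 ≤ a) (hb : 0 ≤ b) (hc : 0 ≤ c) :
    ∫⁻ q, ENNReal.ofReal (a + b * ‖q.1‖ ^ 2 + c * ‖q.2‖ ^ 2) ∂(Pt V s) ≤
      ENNReal.ofReal (a + 9 * b * d + c * d) := by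
  have hP : IsProbabilityMeasure (gibbs V) := (lip d V hV).2.2.2.2
  obtain ⟨m1, m2, -, -⟩ := mom lip cm d V hd hV
  have hT : Measurable fun q : E d × E d => (q.1 + √s • q.2, q.2) := by fun_prop
  unfold Pt
  rw [lintegral_map (by fun_prop) hT]
  have h1 : ∀ r : E d × E d, a + b * ‖r.1 + √s • r.2‖ ^ 2 + c * ‖r.2‖ ^ 2 ≤
      a + (2 * b) * ‖r.1‖ ^ 2 + (b + c) * ‖r.2‖ ^ 2 := by
    intro r
    have h2 := norm_add_le r.1 (√s • r.2)
    have h3 := pow_le_pow_left₀ (norm_nonneg _) h2 2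
    have h4 : ‖√s • r.2‖ ^ 2 = s * ‖r.2‖ ^ 2 := by
      rw [norm_smul, Real.norm_eq_abs, mul_pow, sq_abs, Real.sq_sqrt hs.le]
    have h5 : ‖r.1 + √s • r.2‖ ^ 2 ≤ 2 * ‖r.1‖ ^ 2 + ‖r.2‖ ^ 2 := by
      have := sq_nonneg ‖r.2‖
      nlinarith [sq_nonneg (‖r.1‖ - ‖√s • r.2‖)]
    have h6 := mul_le_mul_of_nonneg_left h5 hb
    linarith
  refine (lintegral_mono fun r => ENNReal.ofReal_le_ofReal (h1 r)).trans ?_
  rw [lint_quad m1 integrable_norm_sq_gam ha (by positivity) (by positivity),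
    integral_norm_sq_gam]
  refine ENNReal.ofReal_le_ofReal ?_
  have h7 := mul_le_mul_of_nonneg_left m2 (by positivity : 0 ≤ 2 * b)
  linarith

theorem int_pow4 {μ : Measure (E d)} [IsProbabilityMeasure μ]
    (h : Integrable (fun x => Real.exp (1 / 4 * ‖x‖ ^ 2)) μ) :
    Integrable (fun x => ‖x‖ ^ 4) μ := by
  refine (h.const_mul 32).mono' (by fun_prop) (ae_of_all _ fun x => ?_)
  rw [Real.norm_eq_abs, abs_of_nonneg (by positivity)]
  have h1 : 0 ≤ 1 / 4 * ‖x‖ ^ 2 := by positivity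
  have h2 := Real.quadratic_le_exp_of_nonneg h1
  nlinarith

/-- fourth moments under `Pt` are finite -/
theorem fin4 (hV : Pot d V) (hs : 0 < s) (hs1 : s ≤ 1 / 1000) (a b : ℝ) :
    ∫⁻ q, ENNReal.ofReal ((a + b * Rd q) ^ 2) ∂(Pt V s) ≠ ⊤ := by
  have hP : IsProbabilityMeasure (gibbs V) := (lip d V hV).2.2.2.2
  have hT : Measurable fun q : E d × E d => (q.1 + √s • q.2, q.2) := by fun_prop
  have i1 := int_pow4 (MOM.gibbs_exp lip V hV).1
  have i2 : Integrable (fun x : E d => ‖x‖ ^ 4) (gam d) :=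
    int_pow4 ((cm d).2.2 (1 / 4) (by norm_num)).1
  have hm : Measurable fun q : E d × E d => ENNReal.ofReal ((a + b * Rd q) ^ 2) := by
    unfold Rd; fun_prop
  unfold Pt
  rw [lintegral_map hm hT]
  have h1 : ∀ r : E d × E d, (a + b * Rd ((r.1 + √s • r.2, r.2) : E d × E d)) ^ 2 ≤
      2 * a ^ 2 + 6 * b ^ 2 * (9 * d ^ 2 + 16 * ‖r.1‖ ^ 4 + 16 * ‖r.2‖ ^ 4) := by
    intro r
    have h2 := norm_add_le r.1 (√s • r.2)
    have h3 := pow_le_pow_left₀ (norm_nonneg _) h2 2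
    have h4 : ‖√s • r.2‖ ^ 2 = s * ‖r.2‖ ^ 2 := by
      rw [norm_smul, Real.norm_eq_abs, mul_pow, sq_abs, Real.sq_sqrt hs.le]
    have h5 : ‖r.1 + √s • r.2‖ ^ 2 ≤ 2 * ‖r.1‖ ^ 2 + ‖r.2‖ ^ 2 := by
      have := sq_nonneg ‖r.2‖
      nlinarith [sq_nonneg (‖r.1‖ - ‖√s • r.2‖)]
    have h6 : Rd ((r.1 + √s • r.2, r.2) : E d × E d) ≤ 3 * d + 4 * ‖r.1‖ ^ 2 + 4 * ‖r.2‖ ^ 2 := by
      unfold Rd; dsimp only; linarith
    have h7 := pow_le_pow_left₀ (Rd_nonneg _) h6 2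
    have h8 := sq3 (a := 3 * (d : ℝ)) (b := 4 * ‖r.1‖ ^ 2) (c := 4 * ‖r.2‖ ^ 2)
    have h9 : Rd ((r.1 + √s • r.2, r.2) : E d × E d) ^ 2 ≤
        3 * (9 * d ^ 2 + 16 * ‖r.1‖ ^ 4 + 16 * ‖r.2‖ ^ 4) := by
      refine (h7.trans h8).trans (le_of_eq ?_)
      ring
    have h10 := mul_le_mul_of_nonneg_left h9 (sq_nonneg b)
    nlinarith [sq_nonneg (a - b * Rd ((r.1 + √s • r.2, r.2) : E d × E d))]
  refine ne_of_lt ((lintegral_mono fun r => ENNReal.ofReal_le_ofReal (h1 r)).trans_lt ?_)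
  have j1 : Integrable (fun r : E d × E d => ‖r.1‖ ^ 4) ((gibbs V).prod (gam d)) :=
    i1.comp_fst _
  have j2 : Integrable (fun r : E d × E d => ‖r.2‖ ^ 4) ((gibbs V).prod (gam d)) :=
    i2.comp_snd _
  have j3 : Integrable (fun r : E d × E d =>
      2 * a ^ 2 + 6 * b ^ 2 * (9 * d ^ 2 + 16 * ‖r.1‖ ^ 4 + 16 * ‖r.2‖ ^ 4))
      ((gibbs V).prod (gam d)) :=
    (integrable_const _).add ((((integrable_const _).add (j1.const_mul 16)).add
      (j2.const_mul 16)).const_mul _)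
  exact j3.lintegral_lt_top

/-- the Riemann error tends to zero in mean -/
theorem D_lim (hFIB : S_FIB) (hd : 1 ≤ d) (hV : Pot d V) (hs : 0 < s) (hs1 : s ≤ 1 / 1000) :
    Tendsto (fun n => ∫⁻ q, ENNReal.ofReal (D V s n q) ∂(Pt V s)) atTop (𝓝 0) := by
  have h := tendsto_lintegral_of_dominated_convergence (μ := Pt V s)
    (F := fun n q => ENNReal.ofReal (D V s n q)) (f := fun _ => 0)
    (fun q => ENNReal.ofReal (3 * Rd q)) (fun n => (D_meas hV n).ennreal_ofReal)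
    (fun n => ae_of_all _ fun q => ENNReal.ofReal_le_ofReal (D_le hFIB hd hV hs hs1 n q)) ?_
    (ae_of_all _ fun q => ?_)
  · simpa using h
  · have h1 := lint_Pt (a := 9 * (d : ℝ)) (b := 6) (c := 6) hd hV hs hs1 (by positivity)
      (by norm_num) (by norm_num)
    have e : ∀ q : E d × E d, 3 * Rd q = 9 * (d : ℝ) + 6 * ‖q.1‖ ^ 2 + 6 * ‖q.2‖ ^ 2 := by
      intro q; unfold Rd; ring
    simp only [e]
    exact ne_of_lt (h1.trans_lt ENNReal.ofReal_lt_top)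
  · have := ENNReal.tendsto_ofReal (D_tendsto hFIB hd hV hs hs1 q)
    simpa using this

/-- the quadrature error in mean -/
theorem Tt_int (hFIB : S_FIB) (hd : 1 ≤ d) (hV : Pot d V) (hs : 0 < s) (hs1 : s ≤ 1 / 1000) {J : ℕ}
    {c w : Fin J → ℝ} {η C : ℝ} (hη : 0 ≤ η) (hC : 0 < C) (hR : Rule J η c w)
    (hQ : ∀ (d J : ℕ) (s A η : ℝ) (c w : Fin J → ℝ) (f : E d → ℝ),
      1 ≤ d → 0 < s → s ≤ 1 / 20 → √d ≤ A → Loc d s A f → 0 ≤ η → Rule J η c w →
      ∫⁻ y, ENNReal.ofReal (‖Tq c w f y‖ ^ 2) ∂(loc f) ≤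
        ENNReal.ofReal (C * ((η * (s * A)) ^ 2 + s ^ 2 + (s ^ 2 * A) ^ 2))) :
    ∫⁻ q, ENNReal.ofReal (Tt V s c w q) ∂(Pt V s) ≤
      ENNReal.ofReal (11 * C * (η ^ 2 * s ^ 2 * d + s ^ 2 + s ^ 4 * d)) := by
  obtain ⟨hL, -, hdis, -, -⟩ := hFIB d V s hd hV hs hs1
  rw [hdis _ (Tt_meas hV c w).ennreal_ofReal]
  have h1 : ∀ q : E d × E d, ∫⁻ y, ENNReal.ofReal (Tt V s c w (q.1, INV.c0 V s q.1 + y))
      ∂(loc (INV.fp V s q.1)) ≤ ENNReal.ofReal ((C * s ^ 2 + 2 * C * (η ^ 2 * s ^ 2 + s ^ 4) * d) +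
        C * (η ^ 2 * s ^ 2 + s ^ 4) * ‖q.1‖ ^ 2 + 0 * ‖q.2‖ ^ 2) := by
    intro q
    have h2 := hQ d J s (Ap V s q.1) η c w (INV.fp V s q.1) hd hs (by linarith) (Ap_ge q.1)
      (hL q.1) hη hR
    have e : ∀ y, Tt V s c w (q.1, INV.c0 V s q.1 + y) =
        ‖Tq c w (INV.fp V s q.1) y‖ ^ 2 := by
      intro y
      unfold Tt
      simp only [add_sub_cancel_left]
    simp only [e]
    refine h2.trans (ENNReal.ofReal_le_ofReal ?_)
    have h3 := Ap_sq hV hs hs1 q.1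
    have h4 := mul_le_mul_of_nonneg_left h3
      (by positivity : 0 ≤ C * (η ^ 2 * s ^ 2 + s ^ 4))
    nlinarith
  refine (lintegral_mono h1).trans ?_
  refine (lint_Pt hd hV hs hs1 (by positivity) (by positivity) le_rfl).trans ?_
  refine ENNReal.ofReal_le_ofReal ?_
  have h5 : 0 ≤ C * s ^ 2 := by positivity
  nlinarith

end

end GST

open GST in
/-- GST: integrals of the state-dependent entropy bound. -/
theorem gst_ql_fib (hQL : S_QL) (hFIB : S_FIB) : S_GST := by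
  obtain ⟨C, hC, hQ⟩ := hQL
  refine ⟨70 + 11 * C, by positivity, ?_⟩
  intro d J V s β η c w hd hV hs hs1 hβ hβ1 hη hR
  have hb : 0 < 1 - β := by linarith
  have hP : IsProbabilityMeasure (gibbs V) := (lip d V hV).2.2.2.2
  refine ⟨fun n => Meas.meas_gst hV s β c w n, ?_, ?_⟩
  · refine ⟨∫⁻ q, ENNReal.ofReal ((2 * d + 9 / (1 - β) * Rd q) ^ 2) ∂(Pt V s),
      fin4 hV hs hs1 _ _, fun n _ => ?_⟩
    refine lintegral_mono fun q => ?_
    have h1 := gst_le hV hs hs1 hβ1 c w n q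
    have h2 : 2 * (1 - β) ^ 2 * s ^ 2 * d + 3 * s ^ 4 / (1 - β) * Rd q +
        (D V s n q + Tt V s c w q) / (1 - β) ≤ 2 * d + 9 / (1 - β) * Rd q := by
      have h3 := D_le hFIB hd hV hs hs1 n q
      have h4 := Tt_le hFIB hd hV hs hs1 hR q
      have h5 : (D V s n q + Tt V s c w q) / (1 - β) ≤ 6 * Rd q / (1 - β) :=
        div_le_div_of_nonneg_right (by linarith) hb.le
      have h6 : 3 * s ^ 4 / (1 - β) * Rd q ≤ 3 * Rd q / (1 - β) := by
        rw [div_mul_eq_mul_div]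
        refine div_le_div_of_nonneg_right ?_ hb.le
        have h7 : s ^ 4 ≤ 1 := pow_le_one₀ hs.le (by linarith)
        have := Rd_nonneg q
        nlinarith
      have h8 : 2 * (1 - β) ^ 2 * s ^ 2 * d ≤ 2 * d := by
        have h9 : (1 - β) ^ 2 ≤ 1 := pow_le_one₀ hb.le (by linarith)
        have h10 : s ^ 2 ≤ 1 := pow_le_one₀ hs.le (by linarith)
        have h11 : (1 - β) ^ 2 * s ^ 2 ≤ 1 := mul_le_one₀ h9 (sq_nonneg s) h10
        have : (0 : ℝ) ≤ d := Nat.cast_nonneg d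
        nlinarith
      have h12 : 9 / (1 - β) * Rd q = 3 * Rd q / (1 - β) + 6 * Rd q / (1 - β) := by ring
      rw [h12]
      linarith
    have h13 := h1.trans (ENNReal.ofReal_le_ofReal h2)
    have h14 : 0 ≤ 2 * d + 9 / (1 - β) * Rd q := by
      have := Rd_nonneg q
      positivity
    calc gst V s β c w n q ^ 2 ≤ ENNReal.ofReal (2 * d + 9 / (1 - β) * Rd q) ^ 2 :=
          pow_le_pow_left₀ zero_le h13 2
      _ = _ := (ENNReal.ofReal_pow h14 2).symm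
  · have hlim := D_lim hFIB hd hV hs hs1
    have hTt := Tt_int hFIB hd hV hs hs1 hη hC hR hQ
    have hs2 : (0 : ℝ≥0∞) < ENNReal.ofReal (s ^ 2) := ENNReal.ofReal_pos.mpr (by positivity)
    filter_upwards [hlim.eventually (gt_mem_nhds hs2)] with n hn
    have h1 : ∀ q, gst V s β c w n q ≤
        ENNReal.ofReal (2 * (1 - β) ^ 2 * s ^ 2 * d + 3 * s ^ 4 / (1 - β) * Rd q) +
          ENNReal.ofReal (1 / (1 - β)) * (ENNReal.ofReal (D V s n q) +
            ENNReal.ofReal (Tt V s c w q)) := by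
      intro q
      refine (gst_le hV hs hs1 hβ1 c w n q).trans (le_of_eq ?_)
      have hRd := Rd_nonneg q
      have hDn := D_nonneg (V := V) (s := s) n q
      have hTn := Tt_nonneg (V := V) (s := s) c w q
      rw [ENNReal.ofReal_add (by positivity) (by positivity), ← ENNReal.ofReal_add hDn hTn,
        ← ENNReal.ofReal_mul (by positivity)]
      congr 2
      ring
    have hRm : Measurable fun q : E d × E d =>
        ENNReal.ofReal (2 * (1 - β) ^ 2 * s ^ 2 * d + 3 * s ^ 4 / (1 - β) * Rd q) := by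
      unfold Rd; fun_prop
    have h2 : ∫⁻ q, ENNReal.ofReal (2 * (1 - β) ^ 2 * s ^ 2 * d + 3 * s ^ 4 / (1 - β) * Rd q)
        ∂(Pt V s) ≤ ENNReal.ofReal (2 * (1 - β) ^ 2 * s ^ 2 * d + 69 * s ^ 4 * d / (1 - β)) := by
      have e : ∀ q : E d × E d, 2 * (1 - β) ^ 2 * s ^ 2 * d + 3 * s ^ 4 / (1 - β) * Rd q =
          (2 * (1 - β) ^ 2 * s ^ 2 * d + 9 * s ^ 4 / (1 - β) * d) +
            6 * s ^ 4 / (1 - β) * ‖q.1‖ ^ 2 + 6 * s ^ 4 / (1 - β) * ‖q.2‖ ^ 2 := by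
        intro q; unfold Rd; ring
      simp only [e]
      refine (lint_Pt hd hV hs hs1 (by positivity) (by positivity) (by positivity)).trans
        (ENNReal.ofReal_le_ofReal (le_of_eq ?_))
      ring
    calc ∫⁻ q, gst V s β c w n q ∂(Pt V s)
        ≤ ∫⁻ q, (ENNReal.ofReal (2 * (1 - β) ^ 2 * s ^ 2 * d + 3 * s ^ 4 / (1 - β) * Rd q) +
          ENNReal.ofReal (1 / (1 - β)) * (ENNReal.ofReal (D V s n q) +
            ENNReal.ofReal (Tt V s c w q))) ∂(Pt V s) := lintegral_mono h1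
      _ = (∫⁻ q, ENNReal.ofReal (2 * (1 - β) ^ 2 * s ^ 2 * d + 3 * s ^ 4 / (1 - β) * Rd q)
            ∂(Pt V s)) + ENNReal.ofReal (1 / (1 - β)) *
            ((∫⁻ q, ENNReal.ofReal (D V s n q) ∂(Pt V s)) +
              ∫⁻ q, ENNReal.ofReal (Tt V s c w q) ∂(Pt V s)) := by
          rw [lintegral_add_left hRm, lintegral_const_mul' _ _ ENNReal.ofReal_ne_top,
            lintegral_add_left (D_meas hV n).ennreal_ofReal]
      _ ≤ ENNReal.ofReal (2 * (1 - β) ^ 2 * s ^ 2 * d + 69 * s ^ 4 * d / (1 - β)) +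
            ENNReal.ofReal (1 / (1 - β)) * (ENNReal.ofReal (s ^ 2) +
              ENNReal.ofReal (11 * C * (η ^ 2 * s ^ 2 * d + s ^ 2 + s ^ 4 * d))) := by
          gcongr
      _ ≤ _ := by
          rw [← ENNReal.ofReal_add (by positivity) (by positivity),
            ← ENNReal.ofReal_mul (by positivity), ← ENNReal.ofReal_add (by positivity)
              (by positivity)]
          refine ENNReal.ofReal_le_ofReal ?_
          have k1 : 0 ≤ (1 - β) ^ 2 * s ^ 2 * d := by positivity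
          have k2 : 0 ≤ s ^ 4 * d / (1 - β) := by positivity
          have k3 : 0 ≤ η ^ 2 * s ^ 2 * d / (1 - β) := by positivity
          have k4 : 0 ≤ s ^ 2 / (1 - β) := by positivity
          have e1 : 2 * (1 - β) ^ 2 * s ^ 2 * d + 69 * s ^ 4 * d / (1 - β) + 1 / (1 - β) *
              (s ^ 2 + 11 * C * (η ^ 2 * s ^ 2 * d + s ^ 2 + s ^ 4 * d)) =
              2 * ((1 - β) ^ 2 * s ^ 2 * d) + (69 + 11 * C) * (s ^ 4 * d / (1 - β)) +
                11 * C * (η ^ 2 * s ^ 2 * d / (1 - β)) + (1 + 11 * C) * (s ^ 2 / (1 - β)) := by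
            ring
          have e2 : (70 + 11 * C) * ((1 - β) ^ 2 * s ^ 2 * d +
              (s ^ 4 * d + η ^ 2 * s ^ 2 * d + s ^ 2) / (1 - β)) =
              (70 + 11 * C) * ((1 - β) ^ 2 * s ^ 2 * d) +
                (70 + 11 * C) * (s ^ 4 * d / (1 - β)) +
                (70 + 11 * C) * (η ^ 2 * s ^ 2 * d / (1 - β)) +
                (70 + 11 * C) * (s ^ 2 / (1 - β)) := by
            ring
          rw [e1, e2]
          have m1 : 2 * ((1 - β) ^ 2 * s ^ 2 * d) ≤ (70 + 11 * C) * ((1 - β) ^ 2 * s ^ 2 * d) :=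
            mul_le_mul_of_nonneg_right (by linarith) k1
          have m2 : (69 + 11 * C) * (s ^ 4 * d / (1 - β)) ≤
              (70 + 11 * C) * (s ^ 4 * d / (1 - β)) :=
            mul_le_mul_of_nonneg_right (by linarith) k2
          have m3 : 11 * C * (η ^ 2 * s ^ 2 * d / (1 - β)) ≤
              (70 + 11 * C) * (η ^ 2 * s ^ 2 * d / (1 - β)) :=
            mul_le_mul_of_nonneg_right (by linarith) k3
          have m4 : (1 + 11 * C) * (s ^ 2 / (1 - β)) ≤ (70 + 11 * C) * (s ^ 2 / (1 - β)) :=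
            mul_le_mul_of_nonneg_right (by linarith) k4
          linarith


end LCS.Fifth
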