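import Mathlib
import Vale.Agent.P347.Fifth.Defs5
import Vale.Agent.P347.Fifth.Ker
import Vale.Agent.P347.TVBasic
import Vale.Agent.P347.TV3

/-! # P347 (1/5): module HYB -/

namespace LCS.Fifth

open MeasureTheory ProbabilityTheory Set Filter InformationTheory
open scoped ENNReal NNReal Topology RealInnerProductSpace BigOperators ContDiff

namespace HYB

variable {X : Type} [MeasurableSpace X]

/-- total variation does not increase under a kernel -/
theorem tv_bind {μ ν : Measure X} [IsProbabilityMeasure μ] [IsProbabilityMeasure ν] {a : ℝ}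
    (h : TV μ ν a) (κ : Kernel X X) [IsMarkovKernel κ] : TV (μ.bind κ) (ν.bind κ) a := by
  intro B hB
  have hm : Measurable fun x => κ x B := κ.measurable_coe hB
  have e : ∀ (ρ : Measure X) [IsProbabilityMeasure ρ], (ρ.bind κ).real B = ∫ x, (κ x B).toReal ∂ρ := by
    intro ρ _
    rw [measureReal_def, Measure.bind_apply hB κ.aemeasurable,
      integral_toReal hm.aemeasurable (Eventually.of_forall fun x => measure_lt_top _ _)]
  rw [e μ, e ν]
  refine tvb X μ ν a h _ hm.ennreal_toReal (fun x => ENNReal.toReal_nonneg) fun x => ?_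
  have : κ x B ≤ 1 := prob_le_one
  exact ENNReal.toReal_mono ENNReal.one_ne_top this |>.trans (le_of_eq ENNReal.toReal_one)

/-- bounded functions -/
theorem lint_le {μ ν : Measure X} [IsProbabilityMeasure μ] [IsProbabilityMeasure ν] {a B : ℝ}
    (hB : 0 < B) (h : TV ν μ a) (g : X → ℝ≥0∞) (hg : Measurable g)
    (hgB : ∀ x, g x ≤ ENNReal.ofReal B) : ∫⁻ x, g x ∂ν ≤ ∫⁻ x, g x ∂μ + ENNReal.ofReal (B * a) := by
  have hgt : ∀ x, g x ≠ ⊤ := fun x => ne_top_of_le_ne_top ENNReal.ofReal_ne_top (hgB x)
  have hr : ∀ x, (g x).toReal ≤ B := fun x => ENNReal.toReal_le_of_le_ofReal hB.le (hgB x)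
  have h1 := tvb X ν μ a h (fun x => (g x).toReal / B) (hg.ennreal_toReal.div_const B)
    (fun x => by positivity) (fun x => by rw [div_le_one hB]; exact hr x)
  have hi : ∀ (ρ : Measure X) [IsProbabilityMeasure ρ], Integrable (fun x => (g x).toReal) ρ := by
    intro ρ _
    refine Integrable.mono' (integrable_const B) hg.ennreal_toReal.aestronglyMeasurable
      (Eventually.of_forall fun x => ?_)
    rw [Real.norm_of_nonneg ENNReal.toReal_nonneg]
    exact hr x
  have e : ∀ (ρ : Measure X) [IsProbabilityMeasure ρ], ∫⁻ x, g x ∂ρ =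
      ENNReal.ofReal (∫ x, (g x).toReal ∂ρ) := by
    intro ρ _
    rw [ofReal_integral_eq_lintegral_ofReal (hi ρ)
      (Eventually.of_forall fun x => ENNReal.toReal_nonneg)]
    exact lintegral_congr fun x => (ENNReal.ofReal_toReal (hgt x)).symm
  rw [e μ, e ν]
  have h2 : (∫ x, (g x).toReal ∂ν) ≤ (∫ x, (g x).toReal ∂μ) + B * a := by
    have h3 := (abs_le.1 h1).2
    simp only [integral_div] at h3
    rw [← sub_div, div_le_iff₀ hB] at h3
    linarith
  refine (ENNReal.ofReal_le_ofReal h2).trans ?_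
  exact ENNReal.ofReal_add_le

/-- replacing a kernel on a small set -/
theorem tv_piece (μ : Measure X) [IsProbabilityMeasure μ] (κ η : Kernel X X) [IsMarkovKernel κ]
    [IsMarkovKernel η] {S : Set X} [DecidablePred (· ∈ S)] (hS : MeasurableSet S) :
    TV (μ.bind (Kernel.piecewise hS κ η)) (μ.bind κ) (μ.real Sᶜ) := by
  intro B hB
  set κ' := Kernel.piecewise hS κ η with hκ'
  have hm : ∀ κ : Kernel X X, Measurable fun x => κ x B := fun κ => κ.measurable_coe hB
  have hle : ∀ (κ : Kernel X X) [IsMarkovKernel κ] x, (κ x B).toReal ≤ 1 := fun κ _ x =>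
    ENNReal.toReal_mono ENNReal.one_ne_top prob_le_one |>.trans (le_of_eq ENNReal.toReal_one)
  have hi : ∀ (κ : Kernel X X) [IsMarkovKernel κ], Integrable (fun x => (κ x B).toReal) μ := by
    intro κ _
    refine Integrable.mono' (integrable_const (1 : ℝ)) (hm κ).ennreal_toReal.aestronglyMeasurable
      (Eventually.of_forall fun x => ?_)
    rw [Real.norm_of_nonneg ENNReal.toReal_nonneg]
    exact hle κ x
  have e : ∀ (κ : Kernel X X) [IsMarkovKernel κ], (μ.bind κ).real B = ∫ x, (κ x B).toReal ∂μ := by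
    intro κ _
    rw [measureReal_def, Measure.bind_apply hB κ.aemeasurable,
      integral_toReal (hm κ).aemeasurable (Eventually.of_forall fun x => measure_lt_top _ _)]
  rw [e κ', e κ, ← integral_sub (hi κ') (hi κ)]
  have h1 : ∀ x, ‖(κ' x B).toReal - (κ x B).toReal‖ ≤ Sᶜ.indicator (fun _ => (1 : ℝ)) x := by
    intro x
    by_cases hx : x ∈ S
    · rw [indicator_of_notMem (by simpa using hx), hκ', Kernel.piecewise_apply, if_pos hx, sub_self,
        norm_zero]
    · rw [indicator_of_mem (by simpa using hx), Real.norm_eq_abs, abs_le]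
      have a1 := hle κ' x
      have a2 := hle κ x
      have a3 : 0 ≤ (κ' x B).toReal := ENNReal.toReal_nonneg
      have a4 : 0 ≤ (κ x B).toReal := ENNReal.toReal_nonneg
      constructor <;> linarith
  have h2 := norm_integral_le_of_norm_le
    ((integrable_const (1 : ℝ)).indicator (μ := μ) hS.compl) (Eventually.of_forall h1)
  rw [Real.norm_eq_abs, integral_indicator_const _ hS.compl, smul_eq_mul, mul_one] at h2
  exact h2

end HYB

open HYB in
theorem hyb (hCHN : S_CHN) (hPIN : S_PIN) : S_HYB := by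
  classical
  intro X _ _ μ _ N ε κ η _ _ g M hε hM hgm hkl hg2 hg1 hinv δ hδ
  set R : ℝ := M.toReal with hR
  have hR0 : 0 ≤ R := ENNReal.toReal_nonneg
  have hNR : (0 : ℝ) ≤ N := Nat.cast_nonneg N
  -- the parameters
  set B : ℝ := 1 + 4 * N * R / δ + 32 * N ^ 2 * R / δ ^ 2 with hB
  have hB1 : 1 ≤ B := by
    have : 0 ≤ 4 * N * R / δ := by positivity
    have : 0 ≤ 32 * N ^ 2 * R / δ ^ 2 := by positivity
    linarith
  have hB0 : 0 < B := by linarith
  set δ' : ℝ := min (δ / (4 * (N + 1))) (δ ^ 2 / (32 * (N ^ 2 + 1) * B)) with hδ'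
  have hδ'0 : 0 < δ' := by
    apply lt_min <;> positivity
  set t : ℝ := δ' + R / B ^ 2 with ht
  have ht0 : 0 ≤ t := by positivity
  have c1 : N * t ≤ δ / 2 := by
    have h1 : N * δ' ≤ δ / 4 := by
      calc N * δ' ≤ N * (δ / (4 * (N + 1))) := by gcongr; exact min_le_left _ _
        _ ≤ (N + 1) * (δ / (4 * (N + 1))) := by gcongr; linarith
        _ = δ / 4 := by field_simp
    have h2 : N * (R / B ^ 2) ≤ δ / 4 := by
      have h3 : N * R ≤ δ / 4 * B := by
        have : δ / 4 * B = δ / 4 + N * R + δ / 4 * (32 * N ^ 2 * R / δ ^ 2) := by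
          rw [hB]; field_simp
        rw [this]
        have : 0 ≤ δ / 4 * (32 * N ^ 2 * R / δ ^ 2) := by positivity
        linarith
      have h4 : δ / 4 * B ≤ δ / 4 * B ^ 2 := by
        have : B ≤ B ^ 2 := by nlinarith
        gcongr
      rw [← mul_div_assoc, div_le_iff₀ (by positivity)]
      linarith
    have : N * t = N * δ' + N * (R / B ^ 2) := by rw [ht]; ring
    linarith
  have c2 : N * (N * (B * t)) ≤ δ ^ 2 / 16 := by
    have h1 : N * (N * (B * δ')) ≤ δ ^ 2 / 32 := by
      calc N * (N * (B * δ')) = N ^ 2 * B * δ' := by ring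
        _ ≤ (N ^ 2 + 1) * B * (δ ^ 2 / (32 * (N ^ 2 + 1) * B)) := by
            gcongr
            · linarith
            · exact min_le_right _ _
        _ = δ ^ 2 / 32 := by field_simp
    have h2 : N * (N * (B * (R / B ^ 2))) ≤ δ ^ 2 / 32 := by
      have e : N * (N * (B * (R / B ^ 2))) = N ^ 2 * R / B := by field_simp
      rw [e, div_le_iff₀ hB0]
      have h3 : δ ^ 2 / 32 * B = δ ^ 2 / 32 + δ ^ 2 / 32 * (4 * N * R / δ) + N ^ 2 * R := by
        rw [hB]; field_simp
      rw [h3]
      have : 0 ≤ δ ^ 2 / 32 * (4 * N * R / δ) := by positivity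
      have : 0 ≤ δ ^ 2 / 32 := by positivity
      linarith
    have : N * (N * (B * t)) = N * (N * (B * δ')) + N * (N * (B * (R / B ^ 2))) := by
      rw [ht]; ring
    linarith
  filter_upwards [hg1, hinv δ' hδ'0] with j hj1 hj2
  set S : Set X := {x | g j x ≤ ENNReal.ofReal B} with hS
  have hSm : MeasurableSet S := measurableSet_le (hgm j) measurable_const
  set κ' : Kernel X X := Kernel.piecewise hSm (κ j) (η j) with hκ'
  set g' : X → ℝ≥0∞ := S.indicator (g j) with hg'
  have hg'm : Measurable g' := (hgm j).indicator hSm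
  have hg'B : ∀ x, g' x ≤ ENNReal.ofReal B := by
    intro x
    by_cases hx : x ∈ S
    · rw [hg', indicator_of_mem hx]; exact hx
    · rw [hg', indicator_of_notMem hx]; exact zero_le
  have hkl' : ∀ x, klDiv (κ' x) (η j x) ≤ g' x := by
    intro x
    by_cases hx : x ∈ S
    · rw [hκ', Kernel.piecewise_apply, if_pos hx, hg', indicator_of_mem hx]
      exact hkl j x
    · rw [hκ', Kernel.piecewise_apply, if_neg hx, klDiv_self]
      exact zero_le
  -- the bad set
  have hbad : μ.real Sᶜ ≤ R / B ^ 2 := by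
    have h1 : ENNReal.ofReal B ^ 2 * μ Sᶜ ≤ M := by
      refine le_trans ?_ (hg2 j)
      have h2 := mul_meas_ge_le_lintegral (μ := μ) ((hgm j).pow_const 2) (ENNReal.ofReal B ^ 2)
      refine le_trans ?_ h2
      gcongr
      intro x hx
      simp only [hS, mem_compl_iff, mem_ofPred_eq, not_le] at hx
      exact pow_le_pow_left₀ zero_le hx.le 2
    rw [measureReal_def, le_div_iff₀ (by positivity)]
    have h3 := ENNReal.toReal_mono hM h1
    rw [ENNReal.toReal_mul, ENNReal.toReal_pow, ENNReal.toReal_ofReal hB0.le] at h3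
    linarith
  have htv1 : TV (μ.bind κ') μ t := by
    have h1 := ((tv_piece μ (κ j) (η j) hSm).trans hj2)
    exact h1.mono (by rw [ht]; linarith)
  have htv : ∀ i : ℕ, TV (itm κ' μ i) μ (i * t) := by
    intro i
    induction i with
    | zero =>
      simp only [itm, CharP.cast_eq_zero, zero_mul]
      exact TV.refl μ
    | succ i ih =>
      have i1 := itm_prob κ' μ i
      have h1 := tv_bind ih κ'
      have h2 := h1.trans htv1
      simp only [itm]
      refine h2.mono (le_of_eq ?_)
      push_cast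
      ring
  have hint : ∀ i ∈ Finset.range N, ∫⁻ x, g' x ∂(itm κ' μ i) ≤ ENNReal.ofReal (ε + N * (B * t)) := by
    intro i hi
    have i1 := itm_prob κ' μ i
    have h1 := lint_le hB0 (htv i) g' hg'm hg'B
    have h2 : ∫⁻ x, g' x ∂μ ≤ ENNReal.ofReal ε := by
      refine le_trans (lintegral_mono fun x => ?_) hj1
      exact indicator_le_self _ _ _
    rw [Finset.mem_range] at hi
    have h3 : ENNReal.ofReal (B * (i * t)) ≤ ENNReal.ofReal (N * (B * t)) := by
      apply ENNReal.ofReal_le_ofReal
      have : (i : ℝ) ≤ N := by exact_mod_cast hi.le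
      calc B * (i * t) = i * (B * t) := by ring
        _ ≤ N * (B * t) := by gcongr
    rw [ENNReal.ofReal_add hε (by positivity)]
    exact h1.trans (add_le_add h2 h3)
  have i1 := itm_prob κ' μ N
  have i2 := itm_prob (η j) μ N
  have hch : klDiv (itm κ' μ N) (itm (η j) μ N) ≤ ENNReal.ofReal (N * (ε + N * (B * t))) := by
    refine (hCHN X μ κ' (η j) g' hg'm hkl' N).trans ((Finset.sum_le_sum hint).trans ?_)
    rw [Finset.sum_const, Finset.card_range, nsmul_eq_mul, ENNReal.ofReal_mul hNR,
      ENNReal.ofReal_natCast]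
  have h5 := hPIN X _ _ _ (by positivity) hch
  have h6 := h5.symm.trans (htv N)
  refine h6.mono ?_
  have h7 : √(N * (ε + N * (B * t))) ≤ √(N * ε) + δ / 4 := by
    have e : N * (ε + N * (B * t)) = N * ε + N * (N * (B * t)) := by ring
    rw [e]
    have h8 : 0 ≤ √(N * ε) := Real.sqrt_nonneg _
    have h9 : √(N * ε) ^ 2 = N * ε := Real.sq_sqrt (by positivity)
    rw [Real.sqrt_le_iff]
    refine ⟨by positivity, ?_⟩
    have h10 : (√(N * ε) + δ / 4) ^ 2 = N * ε + √(N * ε) * δ / 2 + δ ^ 2 / 16 := by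
      rw [← h9]; ring_nf; rw [Real.sqrt_sq h8]; ring
    rw [h10]
    have h11 : 0 ≤ √(N * ε) * δ / 2 := by positivity
    linarith
  linarith

end LCS.Fifth
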