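import Mathlib
import Vale.Agent.P347.Fifth.Defs5
import Vale.Agent.P347.Fifth.Ker
import Vale.Agent.P347.Fifth.Meas5
import Vale.Agent.P347.TVBasic
import Vale.Agent.P347.Lip

/-! # P347 (1/5): module INV5 -/

namespace LCS.Fifth

open MeasureTheory ProbabilityTheory Set Filter InformationTheory
open scoped ENNReal NNReal Topology RealInnerProductSpace BigOperators ContDiff

namespace INV5X

/-- mixing a kernel over noise -/
noncomputable def mixK {X R Z : Type} [MeasurableSpace X] [MeasurableSpace R] [MeasurableSpace Z]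
    (K : Kernel (X × R) Z) (Γ : Measure R) : Kernel X Z :=
  K ∘ₖ (Kernel.id ×ₖ Kernel.const X Γ)

variable {X R Z : Type} [MeasurableSpace X] [MeasurableSpace R] [MeasurableSpace Z]

theorem mixK_apply (K : Kernel (X × R) Z) (Γ : Measure R) [SFinite Γ] (x : X) :
    mixK K Γ x = ((Measure.dirac x).prod Γ).bind K := by
  unfold mixK
  rw [Kernel.comp_apply, Kernel.prod_apply, Kernel.id_apply, Kernel.const_apply]

theorem bind_mixK (K : Kernel (X × R) Z) (μ : Measure X) [SFinite μ] (Γ : Measure R) [SFinite Γ] :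
    μ.bind (mixK K Γ) = (μ.prod Γ).bind K := by
  unfold mixK
  rw [← bind_idconst μ Γ, Measure.comp_assoc]

theorem mixK_markov (K : Kernel (X × R) Z) [IsMarkovKernel K] (Γ : Measure R)
    [IsProbabilityMeasure Γ] : IsMarkovKernel (mixK K Γ) := by
  unfold mixK
  infer_instance


theorem tv_limit {X : Type*} [MeasurableSpace X] {μ ν : Measure X} {a : ℝ}
    (h : ∀ δ : ℝ, 0 < δ → TV μ ν (a + δ)) : TV μ ν a := by
  intro B hB
  refine le_of_forall_pos_le_add fun δ hδ => ?_
  exact h δ hδ B hB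

end INV5X

open INV5X in
theorem inv5 (hHYB : S_HYB) (hLKL : S_LKL) (hEXK : S_EXK) (hGIN : S_GIN) (hGST : S_GST)
    (hMEA : S_MEA) (hCHN : S_CHN) (hPIN : S_PIN) (hKLI : S_KLI) (hFIB : S_FIB) : S_INV5 := by
  obtain ⟨C₁, hC₁, hL⟩ := hLKL
  obtain ⟨C₂, hC₂, hG⟩ := hGST
  obtain ⟨C₃, hC₃, hM⟩ := hMEA
  refine ⟨2 * √(C₁ * C₂) + 2 * √C₃, by positivity, ?_⟩
  intro d J N V s β η c w hd hV hs hs1 hβ hβ1 hσ hη hR
  have sb1 : StandardBorelSpace (E d × E d) := inferInstance
  have sb2 : StandardBorelSpace ((E d × E d) × (E d × E d)) := inferInstance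
  have hP : IsProbabilityMeasure (gibbs V) := (lip d V hV).2.2.2.2
  have hT : Measurable fun q : E d × E d => (q.1 + √s • q.2, q.2) := by fun_prop
  have hPt : IsProbabilityMeasure (Pt V s) := Measure.isProbabilityMeasure_map hT.aemeasurable
  obtain ⟨hLoc, hlp, -, -, -⟩ := hFIB d V s hd hV hs hs1
  obtain ⟨hgm, ⟨M, hMt, hM2⟩, hge⟩ := hG d J V s β η c w hd hV hs hs1 hβ hβ1 hη hR
  have hβ0 : 0 < β := by linarith
  -- the exact kernels
  have hK := fun n : ℕ => hEXK d n V s β hd hV hs hs1 hβ0 hβ1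
  choose K hKm hKf using hK
  set Γ : Measure (E d × E d) := (gam d).prod (gam d) with hΓ
  -- the comparison kernels
  have hcm : ∀ j : ℕ, Measurable (cmpF V s β c w (j + 1)) := fun j =>
    (hM d J (j + 1) V s β c w hd (by omega) hV hs hs1 hβ hβ1 hσ hR.mem hR.pos hR.sum).1
  have hnm : Measurable (nstep5 V s β (cx β c) (wx β w)) :=
    (hM d J 1 V s β c w hd le_rfl hV hs hs1 hβ hβ1 hσ hR.mem hR.pos hR.sum).2.1
  set F' : ℕ → ((E d × E d) × (E d × E d)) × E d → E d × E d := fun j p =>
    cmpF V s β c w (j + 1) (p.1.1, (p.1.2, p.2)) with hF'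
  have hF'm : ∀ j, Measurable (F' j) := fun j => by
    have h := hcm j
    have h2 : Measurable fun p : ((E d × E d) × (E d × E d)) × E d => (p.1.1, (p.1.2, p.2)) := by
      fun_prop
    exact h.comp h2
  set K' : ℕ → Kernel ((E d × E d) × (E d × E d)) (E d × E d) := fun j => mk (F' j) (gam d) with hK'
  have hK'm : ∀ j, IsMarkovKernel (K' j) := fun j => mk_markov _ _ (hF'm j)
  set κ : ℕ → Kernel (E d × E d) (E d × E d) := fun j => mixK (K (j + 1)) Γ with hκ
  set ξ : ℕ → Kernel (E d × E d) (E d × E d) := fun j => mixK (K' j) Γ with hξ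
  have hκm : ∀ j, IsMarkovKernel (κ j) := fun j => by
    have := hKm (j + 1)
    exact mixK_markov _ _
  have hξm : ∀ j, IsMarkovKernel (ξ j) := fun j => mixK_markov _ _
  -- pointwise entropy bound
  have hpt : ∀ (j : ℕ) (q r : E d × E d), klDiv (K (j + 1) (q, r)) (K' j (q, r)) ≤
      ENNReal.ofReal (C₁ * bd s (Ap V s q.1) β c w (INV.fp V s q.1) (j + 1)
        (q.2 - INV.c0 V s q.1) r.1 r.2) := by
    intro j q r
    have hA : √(d : ℝ) ≤ Ap V s q.1 := by
      unfold Ap
      have := norm_nonneg (INV.c0 V s q.1)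
      linarith
    have h1 := hL d J (j + 1) s (Ap V s q.1) β c w (INV.fp V s q.1) hd hs hs1 hA (hLoc q.1) hβ hβ1
      (by omega) hR.mem hR.pos hR.sum (q.2 - INV.c0 V s q.1) r.1 r.2
    have hom : Measurable (outp V s q.1) := by
      unfold outp
      fun_prop
    rw [hKf (j + 1) (q, r), hK']
    simp only
    rw [mk_apply (hF'm j)]
    have e : ((gam d).map fun y => F' j ((q, r), y)) =
        ((gam d).map fun ζ => cen β c w (INV.fp V s q.1) (j + 1) (q.2 - INV.c0 V s q.1) r.1 r.2
          + √(1 - β) • ζ).map (outp V s q.1) := by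
      rw [Measure.map_map hom (by fun_prop)]
      rfl
    rw [e]
    refine le_trans ?_ h1
    have i1 : IsProbabilityMeasure ((gam d).map fun ζ => cen β c w (INV.fp V s q.1) (j + 1)
        (q.2 - INV.c0 V s q.1) r.1 r.2 + √(1 - β) • ζ) :=
      Measure.isProbabilityMeasure_map (by fun_prop)
    have i2 : IsFiniteMeasure (gb (INV.fp V s q.1) β (√β • turn (INV.fp V s q.1) (j + 1)
        (q.2 - INV.c0 V s q.1) r.1 + √(1 - β) • r.2)) := by
      have h3 := hKm (j + 1)
      have h4 : IsProbabilityMeasure (K (j + 1) (q, r)) := h3.isProbabilityMeasure _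
      rw [hKf (j + 1) (q, r)] at h4
      constructor
      have h5 := h4.measure_univ
      rw [Measure.map_apply hom MeasurableSet.univ, preimage_univ] at h5
      simp only at h5
      rw [h5]
      exact ENNReal.one_lt_top
    exact klDiv_map_le _ _ hom
  have hbdm : ∀ j, Measurable fun x : (E d × E d) × (E d × E d) => ENNReal.ofReal
      (bd s (Ap V s x.1.1) β c w (INV.fp V s x.1.1) (j + 1)
        (x.1.2 - INV.c0 V s x.1.1) x.2.1 x.2.2) := fun j =>
    Meas.meas_bd' hV s β c w (j + 1)
  have hkl : ∀ j q, klDiv (κ j q) (ξ j q) ≤ ENNReal.ofReal C₁ * gst V s β c w (j + 1) q := by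
    intro j q
    have := hKm (j + 1)
    have h1 := (hKLI ((E d × E d) × (E d × E d)) (E d × E d) ((Measure.dirac q).prod Γ)
      (K (j + 1)) (K' j) (fun x => ENNReal.ofReal C₁ * ENNReal.ofReal
        (bd s (Ap V s x.1.1) β c w (INV.fp V s x.1.1) (j + 1)
        (x.1.2 - INV.c0 V s x.1.1) x.2.1 x.2.2)) ((hbdm j).const_mul _) ?_).2
    · rw [← mixK_apply, ← mixK_apply] at h1
      refine h1.trans (le_of_eq ?_)
      rw [lintegral_const_mul _ (hbdm j), lintegral_prod _ (hbdm j).aemeasurable, lintegral_dirac']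
      · rfl
      · exact (hbdm j).lintegral_prod_right'
    · rintro ⟨q', r⟩
      rw [← ENNReal.ofReal_mul hC₁.le]
      exact hpt j q' r
  -- the hybrid lemma
  set ε : ℝ := C₁ * (C₂ * ((1 - β) ^ 2 * s ^ 2 * d + (s ^ 4 * d + η ^ 2 * s ^ 2 * d + s ^ 2) /
    (1 - β))) with hε
  have hε0 : 0 ≤ ε := by
    have : 0 < 1 - β := by linarith
    positivity
  have hyb := hHYB (E d × E d) (Pt V s) N ε κ ξ
    (fun j q => ENNReal.ofReal C₁ * gst V s β c w (j + 1) q) (ENNReal.ofReal C₁ ^ 2 * M) hε0
    (ENNReal.mul_ne_top (by simp) hMt) (fun j => (hgm (j + 1)).const_mul _) hkl ?_ ?_ ?_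
  · -- conclusion
    set ε2 : ℝ := C₃ * d * s ^ 4 / (1 - β ^ 2) ^ 2 with hε2
    have hε20 : 0 ≤ ε2 := by positivity
    set Kn : Kernel (E d × E d) (E d × E d) := mk (nstep5 V s β (cx β c) (wx β w)) (gam d) with hKn
    have hKnm : IsMarkovKernel Kn := mk_markov _ _ hnm
    have hch : ∀ j, TV (itm (ξ j) (Pt V s) N) (itm Kn (Pt V s) N) (2 * √(N * ε2)) := by
      intro j
      have h1 := hCHN (E d × E d) (Pt V s) (ξ j) Kn (fun _ => ENNReal.ofReal ε2) measurable_const
        ?_ N
      · have i1 := itm_prob (ξ j) (Pt V s) N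
        have i2 := itm_prob Kn (Pt V s) N
        refine hPIN _ _ _ _ (by positivity) (h1.trans (le_of_eq ?_))
        have i3 : ∀ i, IsProbabilityMeasure (itm (ξ j) (Pt V s) i) := itm_prob (ξ j) (Pt V s)
        simp only [lintegral_const, measure_univ, mul_one, Finset.sum_const, Finset.card_range,
          nsmul_eq_mul]
        rw [ENNReal.ofReal_mul (by positivity), ENNReal.ofReal_natCast]
      · intro q
        have h2 := (hM d J (j + 1) V s β c w hd (by omega) hV hs hs1 hβ hβ1 hσ hR.mem hR.pos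
          hR.sum).2.2 q
        rw [hKn, mk_apply hnm]
        have e : ξ j q = ((((gam d).prod (gam d)).prod (gam d)).map fun r =>
            cmpF V s β c w (j + 1) (q, r)) := by
          rw [hξ]
          simp only
          rw [mixK_apply, hK']
          simp only
          rw [bind_mk (hF'm j), Measure.dirac_prod]
          have e1 : (Γ.map (Prod.mk q)).prod (gam d) =
              (Γ.prod (gam d)).map (Prod.map (Prod.mk q) id) := by
            have h := Measure.map_prod_map Γ (gam d) (measurable_prodMk_left (x := q))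
              (measurable_id (α := E d))
            rw [Measure.map_id] at h
            exact h
          rw [e1, Measure.map_map (hF'm j) (by fun_prop)]
          rfl
        rw [e]
        exact h2
    apply tv_limit
    intro δ hδ
    obtain ⟨j, hj⟩ := (hyb δ hδ).exists
    refine ((hch j).symm.trans hj).mono ?_
    set a := (1 - β) ^ 2 * s ^ 2 * d + (s ^ 4 * d + η ^ 2 * s ^ 2 * d + s ^ 2) / (1 - β) with ha
    set b := d * s ^ 4 / (1 - β ^ 2) ^ 2 with hb
    have ha0 : 0 ≤ a := by
      have : 0 < 1 - β := by linarith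
      positivity
    have hb0 : 0 ≤ b := by positivity
    have e1 : √(N * ε2) ≤ √C₃ * √(N * (a + b)) := by
      rw [← Real.sqrt_mul hC₃.le]
      apply Real.sqrt_le_sqrt
      have : ε2 = C₃ * b := by rw [hε2, hb]; ring
      rw [this]
      have h3 : (N : ℝ) * (C₃ * b) ≤ N * (C₃ * (a + b)) := by
        gcongr
        linarith
      linarith
    have e2 : √(N * ε) ≤ √(C₁ * C₂) * √(N * (a + b)) := by
      rw [← Real.sqrt_mul (by positivity)]
      apply Real.sqrt_le_sqrt
      have : ε = C₁ * C₂ * a := by rw [hε, ha]; ring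
      rw [this]
      have h3 : (N : ℝ) * (C₁ * C₂ * a) ≤ N * (C₁ * C₂ * (a + b)) := by
        gcongr
        linarith
      linarith
    linarith
  · intro j
    have h1 := hM2 (j + 1) (by omega)
    have e : ∀ q, (ENNReal.ofReal C₁ * gst V s β c w (j + 1) q) ^ 2 =
        ENNReal.ofReal C₁ ^ 2 * gst V s β c w (j + 1) q ^ 2 := fun q => mul_pow _ _ _
    simp_rw [e]
    rw [lintegral_const_mul _ ((hgm (j + 1)).pow_const 2)]
    gcongr
  · have h1 := (tendsto_add_atTop_nat 1).eventually hge
    filter_upwards [h1] with j hj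
    rw [lintegral_const_mul _ (hgm (j + 1)), hε, ENNReal.ofReal_mul hC₁.le]
    gcongr
  · intro δ hδ
    have h1 := (tendsto_add_atTop_nat 1).eventually
      (hGIN d V s β hd hV hs hs1 hβ0 hβ1 K hKm hKf δ hδ)
    filter_upwards [h1] with j hj
    rw [hκ]
    simp only
    rw [bind_mixK]
    exact hj

end LCS.Fifth
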