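import Mathlib
import Vale.Agent.P347.Fifth.Defs5
import Vale.Agent.P347.Fifth.Ker

/-! # P347 (1/5): modules KLI and CHN -/

namespace LCS.Fifth

open MeasureTheory ProbabilityTheory Set Filter InformationTheory
open scoped ENNReal NNReal Topology RealInnerProductSpace BigOperators ContDiff

namespace KLI

variable {X Y : Type} [MeasurableSpace X] [MeasurableSpace Y] [StandardBorelSpace Y]

theorem compProd_eq (μ : Measure X) [IsProbabilityMeasure μ] (κ η : Kernel X Y)
    [IsMarkovKernel κ] [IsMarkovKernel η] (hac : ∀ᵐ x ∂μ, κ x ≪ η x) :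
    μ.compProd κ = (μ.compProd η).withDensity (fun p => Kernel.rnDeriv κ η p.1 p.2) := by
  have hm : Measurable fun p : X × Y => Kernel.rnDeriv κ η p.1 p.2 := Kernel.measurable_rnDeriv κ η
  ext S hS
  rw [Measure.compProd_apply hS, withDensity_apply _ hS, ← lintegral_indicator hS,
    Measure.lintegral_compProd (hm.indicator hS)]
  refine lintegral_congr_ae ?_
  filter_upwards [hac] with x hx
  have h1 : κ x = (η x).withDensity (Kernel.rnDeriv κ η x) := by
    rw [← Kernel.withDensity_apply _ (Kernel.measurable_rnDeriv κ η)]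
    exact (Kernel.withDensity_rnDeriv_eq hx).symm
  have hS' : MeasurableSet (Prod.mk x ⁻¹' S) := measurable_prodMk_left hS
  conv_lhs => rw [h1]
  rw [withDensity_apply _ hS', ← lintegral_indicator hS']
  rfl

theorem first (μ : Measure X) [IsProbabilityMeasure μ] (κ η : Kernel X Y)
    [IsMarkovKernel κ] [IsMarkovKernel η] (g : X → ℝ≥0∞) (hg : Measurable g)
    (h : ∀ x, klDiv (κ x) (η x) ≤ g x) :
    klDiv (μ.compProd κ) (μ.compProd η) ≤ ∫⁻ x, g x ∂μ := by
  by_cases hfin : ∫⁻ x, g x ∂μ = ⊤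
  · rw [hfin]
    exact le_top
  have hlt : ∀ᵐ x ∂μ, g x < ⊤ := ae_lt_top hg hfin
  have hac : ∀ᵐ x ∂μ, κ x ≪ η x := by
    filter_upwards [hlt] with x hx
    by_contra hn
    have h1 := h x
    rw [klDiv_of_not_ac hn] at h1
    exact absurd (lt_of_le_of_lt h1 hx) (lt_irrefl _)
  have hm : Measurable fun p : X × Y => Kernel.rnDeriv κ η p.1 p.2 := Kernel.measurable_rnDeriv κ η
  have e := compProd_eq μ κ η hac
  have hacp : μ.compProd κ ≪ μ.compProd η := by
    rw [e]
    exact withDensity_absolutelyContinuous _ _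
  rw [klDiv_eq_lintegral_klFun_of_ac hacp]
  have e2 : (μ.compProd κ).rnDeriv (μ.compProd η) =ᵐ[μ.compProd η]
      fun p => Kernel.rnDeriv κ η p.1 p.2 := by
    conv_lhs => rw [e]
    exact Measure.rnDeriv_withDensity _ hm
  have e3 : ∫⁻ p, ENNReal.ofReal (klFun ((μ.compProd κ).rnDeriv (μ.compProd η) p).toReal)
      ∂(μ.compProd η) = ∫⁻ p, ENNReal.ofReal (klFun (Kernel.rnDeriv κ η p.1 p.2).toReal)
      ∂(μ.compProd η) := by
    refine lintegral_congr_ae ?_
    filter_upwards [e2] with p hp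
    rw [hp]
  have hmk : Measurable fun p : X × Y => ENNReal.ofReal (klFun (Kernel.rnDeriv κ η p.1 p.2).toReal) :=
    (measurable_klFun.comp hm.ennreal_toReal).ennreal_ofReal
  rw [e3, Measure.lintegral_compProd hmk]
  refine lintegral_mono_ae ?_
  filter_upwards [hac] with x hx
  refine le_trans (le_of_eq ?_) (h x)
  rw [klDiv_eq_lintegral_klFun_of_ac hx]
  refine lintegral_congr_ae ?_
  filter_upwards [Kernel.rnDeriv_eq_rnDeriv_measure (κ := κ) (η := η) (a := x)] with y hy
  rw [hy]

end KLI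

theorem kli : S_KLI := by
  intro X Y _ _ _ _ μ _ κ η _ _ g hg h
  have h1 := KLI.first μ κ η g hg h
  refine ⟨h1, le_trans ?_ h1⟩
  have e : ∀ κ : Kernel X Y, IsMarkovKernel κ → μ.bind κ = (μ.compProd κ).map Prod.snd := by
    intro κ _
    exact (Measure.snd_compProd μ κ).symm
  rw [e κ ‹_›, e η ‹_›]
  exact klDiv_map_le _ _ measurable_snd

theorem chn (hK : S_KLI) : S_CHN := by
  intro X _ _ μ _ κ η _ _ g hg h N
  induction N with
  | zero =>
    simp only [itm, Finset.range_zero, Finset.sum_empty, nonpos_iff_eq_zero]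
    exact klDiv_self μ
  | succ N ih =>
    have i1 := itm_prob κ μ N
    have i2 := itm_prob η μ N
    have e : ∀ (ν : Measure X) (κ : Kernel X X), IsProbabilityMeasure ν → IsMarkovKernel κ →
        ν.bind κ = (ν.compProd κ).map Prod.snd := by
      intro ν κ _ _
      exact (Measure.snd_compProd ν κ).symm
    simp only [itm]
    rw [e _ κ i1 ‹_›, e _ η i2 ‹_›, Finset.sum_range_succ]
    refine (klDiv_map_le _ _ measurable_snd).trans ?_
    rw [klDiv_compProd_eq_add]
    exact add_le_add ih (hK X X (itm κ μ N) κ η g hg h).1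

end LCS.Fifth
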