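import Mathlib
import Vale.Agent.P347.Fifth.Defs5
import Vale.Agent.P347.Phat
import Vale.Agent.P347.MeanBasic
import Vale.Agent.P347.Fifth.Meas5

/-! # P347 (1/5): MEA, the comparison kernel and the ideal step -/

namespace LCS.Fifth

open MeasureTheory ProbabilityTheory Set Filter InformationTheory
open scoped ENNReal NNReal Topology RealInnerProductSpace BigOperators ContDiff

namespace MEA

variable {d J : ℕ} (V : E d → ℝ) (s β : ℝ) (c w : Fin J → ℝ)

/-- gradient averages over the auxiliary Gaussian -/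
noncomputable def GG (V : E d → ℝ) (s c : ℝ) (p v : E d) : E d :=
  ∫ z, gradient V (node V s c p v z) ∂(gam d)

theorem grad_arg (hV : Pot d V) (a : ℝ) (p v z : E d) (b : ℝ) :
    gradient (INV.fp V s p) (a • (v - INV.c0 V s p) + b • z) =
      INV.c0 V s p - √s • gradient V (p - √s • ((1 - a) • INV.c0 V s p + a • v + b • z)) := by
  rw [INV.grad_fp hV, smul_sub]
  have e : INV.c0 V s p + (a • (v - INV.c0 V s p) + b • z) =
      (1 - a) • INV.c0 V s p + a • v + b • z := by module
  rw [e]
  rfl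

theorem Mh_fp (hV : Pot d V) (hs : 0 < s) (c : ℝ) (p v : E d) :
    Mh c (gradient (INV.fp V s p)) (v - INV.c0 V s p) =
      INV.c0 V s p - √s • GG V s c p v := by
  unfold Mh
  simp_rw [grad_arg V s hV]
  have hi := PHAT.integrable_grad_node V s hV hs c p v
  have hi2 : Integrable (fun z => √s • gradient V (node V s c p v z)) (gam d) := hi.smul (√s)
  have h := integral_sub (integrable_const (INV.c0 V s p)) hi2
  rw [integral_const, integral_smul] at h
  simp only [probReal_univ, one_smul] at h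
  exact h

theorem mean_id (hV : Pot d V) (hs : 0 < s) (hβ : 0 < β) (hw2 : ∑ j, w j = 2) (p v : E d) :
    -(INV.c0 V s p + (β • mY c w (INV.fp V s p) (v - INV.c0 V s p)
      - (1 - β) • Mh (-β) (gradient (INV.fp V s p)) (v - INV.c0 V s p))) =
    mean5 V s β (cx β c) (wx β w) (p, v) := by
  unfold mY mean5
  simp_rw [Mh_fp V s hV hs]
  rw [Fin.sum_univ_castSucc]
  simp only [cx, wx, Fin.snoc_castSucc, Fin.snoc_last]
  change _ = β • (v - √s • (∑ i : Fin J, w i • GG V s (c i) p v + ((1 - β) / β) • GG V s (-β) p v))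
  have e1 : ∑ j, w j • (INV.c0 V s p - √s • GG V s (c j) p v) =
      (2 : ℝ) • INV.c0 V s p - √s • ∑ i : Fin J, w i • GG V s (c i) p v := by
    simp_rw [smul_sub]
    rw [Finset.sum_sub_distrib, ← Finset.sum_smul, hw2, Finset.smul_sum]
    congr 1
    refine Finset.sum_congr rfl fun j _ => ?_
    rw [smul_comm]
  rw [e1]
  have e2 : β • (v - √s • (∑ i : Fin J, w i • GG V s (c i) p v + ((1 - β) / β) • GG V s (-β) p v)) =
      β • v - (β * √s) • (∑ i : Fin J, w i • GG V s (c i) p v) - (√s * (1 - β)) • GG V s (-β) p v := by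
    have : β * √s * ((1 - β) / β) = √s * (1 - β) := by field_simp
    rw [smul_sub, smul_smul, smul_add, smul_smul, this]
    abel
  rw [e2]
  module

/-! ### measurability -/

theorem measurable_grad (hV : Pot d V) : Measurable (gradient V) :=
  (contDiff_gradient hV.smooth).continuous.measurable

theorem measurable_GG (hV : Pot d V) (c : ℝ) :
    Measurable (fun q : E d × E d => GG V s c q.1 q.2) := by
  have hg := measurable_grad V hV
  have h : Measurable (fun q : (E d × E d) × E d => gradient V (node V s c q.1.1 q.1.2 q.2)) := by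
    unfold node
    fun_prop
  exact (h.stronglyMeasurable.integral_prod_right').measurable

theorem measurable_c0 (hV : Pot d V) : Measurable (INV.c0 V s) := by
  have hg := measurable_grad V hV
  unfold INV.c0
  fun_prop

theorem measurable_mean5 {K : ℕ} (c w : Fin K → ℝ) (hV : Pot d V) :
    Measurable (mean5 V s β c w) := by
  have h : ∀ j, Measurable (fun q : E d × E d => GG V s (c j) q.1 q.2) := fun j =>
    measurable_GG V s hV (c j)
  have e : mean5 V s β c w = fun q : E d × E d => β • (q.2 - √s • ∑ j, w j • GG V s (c j) q.1 q.2) := rfl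
  rw [e]
  fun_prop

/-! ### the law -/

/-- the noise map of the comparison step -/
noncomputable def FF (V : E d → ℝ) (s β : ℝ) (c w : Fin J → ℝ) (n : ℕ) (q : E d × E d) (z : E d) :
    E d :=
  mean5 V s β (cx β c) (wx β w) q + β • (freeD (INV.fp V s q.1) n (q.2 - INV.c0 V s q.1) z
    - fbar (INV.fp V s q.1) n (q.2 - INV.c0 V s q.1))

theorem outp_eq (hV : Pot d V) (hs : 0 < s) (hβ : 0 < β) (hw2 : ∑ j, w j = 2) (n : ℕ)
    (q : E d × E d) (z z₁ ζ : E d) :
    cmpF V s β c w n (q, ((z, z₁), ζ)) =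
      (q.1 + (2 * √s) • (FF V s β c w n q z - ((√β * √(1 - β)) • z₁ + √(1 - β) • ζ)),
        FF V s β c w n q z - ((√β * √(1 - β)) • z₁ + √(1 - β) • ζ)) := by
  have hb : √β * √β = β := Real.mul_self_sqrt hβ.le
  have e : -(INV.c0 V s q.1 + (cen β c w (INV.fp V s q.1) n (q.2 - INV.c0 V s q.1) z z₁
      + √(1 - β) • ζ)) = FF V s β c w n q z - ((√β * √(1 - β)) • z₁ + √(1 - β) • ζ) := by
    unfold FF
    rw [show mean5 V s β (cx β c) (wx β w) q = mean5 V s β (cx β c) (wx β w) (q.1, q.2) from rfl,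
      ← mean_id V s β c w hV hs hβ hw2 q.1 q.2]
    unfold cen
    set X := mY c w (INV.fp V s q.1) (q.2 - INV.c0 V s q.1)
    set Y := Mh (-β) (gradient (INV.fp V s q.1)) (q.2 - INV.c0 V s q.1)
    set D := freeD (INV.fp V s q.1) n (q.2 - INV.c0 V s q.1) z
    set F := fbar (INV.fp V s q.1) n (q.2 - INV.c0 V s q.1)
    have e3 : √β • (√β • (X - (D - F)) + √(1 - β) • z₁) =
        β • (X - (D - F)) + (√β * √(1 - β)) • z₁ := by
      rw [smul_add, smul_smul, smul_smul, hb]
    rw [e3]
    module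
  unfold cmpF outp
  simp only
  rw [e]

/-- abstract facts on the noise map -/
theorem gen (D : E d → E d) (m : E d) {β K : ℝ} (hβ0 : 0 ≤ β) (hβ1 : β ≤ 1) (hD : ContDiff ℝ 1 D)
    (hL : ∀ z, ‖fderiv ℝ D z‖ ≤ K) (hi : Integrable D (gam d)) :
    ContDiff ℝ 1 (fun z => m + β • (D z - ∫ z, D z ∂(gam d))) ∧
    (∀ z, ‖fderiv ℝ (fun z => m + β • (D z - ∫ z, D z ∂(gam d))) z‖ ≤ K) ∧
    ∫ z, (m + β • (D z - ∫ z, D z ∂(gam d))) ∂(gam d) = m := by
  refine ⟨contDiff_const.add ((hD.sub contDiff_const).const_smul β), fun z => ?_, ?_⟩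
  · have hd1 : DifferentiableAt ℝ D z := (hD.differentiable (by norm_num)).differentiableAt
    have h1 := ((hd1.hasFDerivAt.sub_const (∫ z, D z ∂(gam d))).const_smul β).const_add m
    have e : fderiv ℝ (fun z => m + β • (D z - ∫ z, D z ∂(gam d))) z = β • fderiv ℝ D z := h1.fderiv
    rw [e, norm_smul, Real.norm_of_nonneg hβ0]
    calc β * ‖fderiv ℝ D z‖ ≤ 1 * K := by
          refine mul_le_mul hβ1 (hL z) (norm_nonneg _) (by norm_num)
      _ = K := one_mul _
  · have hi2 : Integrable (fun z => β • (D z - ∫ z, D z ∂(gam d))) (gam d) :=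
      (hi.sub (integrable_const _)).smul β
    rw [integral_add (integrable_const _) hi2, integral_smul, integral_sub hi (integrable_const _),
      integral_const, integral_const]
    simp only [probReal_univ, one_smul]
    rw [sub_self, smul_zero, add_zero]

theorem slice (D : E d × E d → E d) (hD : ContDiff ℝ 1 D) (y : E d) :
    ContDiff ℝ 1 (fun z => D (y, z)) := by
  have h1 : ContDiff ℝ 1 (fun z : E d => ((y, z) : E d × E d)) := by fun_prop
  exact hD.comp h1

theorem facts (hV : Pot d V) (hs : 0 < s) (hs1 : s ≤ 1 / 1000) (hβ : 0 < β) (hβ1 : β < 1)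
    (hd : 1 ≤ d) (n : ℕ) (hn : 1 ≤ n) (hP : S_PATH5) (hFIB : S_FIB) (q : E d × E d) :
    ContDiff ℝ 1 (FF V s β c w n q) ∧ (∀ z, ‖fderiv ℝ (FF V s β c w n q) z‖ ≤ 8 * s) ∧
    ∫ z, FF V s β c w n q z ∂(gam d) = mean5 V s β (cx β c) (wx β w) q := by
  obtain ⟨_, _, hP⟩ := hP
  obtain ⟨hloc, -⟩ := hFIB d V s hd hV hs hs1
  have hA : √d ≤ Ap V s q.1 := by
    unfold Ap
    have := norm_nonneg (INV.c0 V s q.1)
    linarith
  obtain ⟨-, hC1, hlip, hb⟩ := hP d s (Ap V s q.1) (INV.fp V s q.1) hs (by linarith) hA (hloc q.1) n hn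
  have hCz := slice (fun q' : E d × E d => freeD (INV.fp V s q.1) n q'.1 q'.2) hC1
    (q.2 - INV.c0 V s q.1)
  have hintD : Integrable (fun z => freeD (INV.fp V s q.1) n (q.2 - INV.c0 V s q.1) z) (gam d) := by
    refine ((integrable_const (8 * s * (Ap V s q.1 + ‖q.2 - INV.c0 V s q.1‖))).add
      ((integrable_norm_gam (d := d)).const_mul (8 * s))).mono' hCz.continuous.aestronglyMeasurable
      (ae_of_all _ fun z => ?_)
    refine (hb _ z).trans (le_of_eq ?_)
    simp only [Pi.add_apply]
    ring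
  exact gen (fun z => freeD (INV.fp V s q.1) n (q.2 - INV.c0 V s q.1) z)
    (mean5 V s β (cx β c) (wx β w) q) hβ.le hβ1.le hCz (hlip (q.2 - INV.c0 V s q.1)) hintD

/-- sum of two independent Gaussians -/
theorem map_gauss {a b σ : ℝ} (hσ : 0 < σ) (h : a ^ 2 + b ^ 2 = σ ^ 2) :
    ((gam d).prod (gam d)).map (fun q : E d × E d => (-(1 / σ)) • (a • q.1 + b • q.2)) = gam d := by
  -- an angle
  obtain ⟨θ, hc, hsn⟩ : ∃ θ : ℝ, Real.cos θ = -(a / σ) ∧ Real.sin θ = -(b / σ) := by
    have h1 : (-(a / σ)) ^ 2 + (-(b / σ)) ^ 2 = 1 := by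
      rw [neg_sq, neg_sq, div_pow, div_pow, ← add_div, h, div_self (by positivity)]
    set w : ℂ := ⟨-(a / σ), -(b / σ)⟩ with hw
    have hn : ‖w‖ = 1 := by
      rw [Complex.norm_def, Complex.normSq_apply]
      simp only [hw]
      rw [← sq, ← sq, h1, Real.sqrt_one]
    refine ⟨Complex.arg w, ?_, ?_⟩
    · have hw0 : w ≠ 0 := by intro e; rw [e] at hn; simp at hn
      rw [Complex.cos_arg hw0, hn, div_one]
    · rw [Complex.sin_arg, hn, div_one]
  have hrot := IsGaussian.map_rotation_eq_self (μ := gam d) integral_id_stdGaussian θ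
  have e : (fun q : E d × E d => (-(1 / σ)) • (a • q.1 + b • q.2)) =
      Prod.fst ∘ (ContinuousLinearMap.rotation θ : E d × E d →L[ℝ] E d × E d) := by
    funext q
    rw [Function.comp_apply, ContinuousLinearMap.rotation_apply, hc, hsn]
    simp only
    rw [smul_add, smul_smul, smul_smul]
    congr 2
    · ring
    · ring
  rw [e, ← Measure.map_map measurable_fst (ContinuousLinearMap.rotation θ).continuous.measurable,
    hrot, Measure.map_fst_prod]
  simp

end MEA

open MEA in
theorem mea (hN : S_NKL) (hP : S_PATH5) (hFIB : S_FIB) : S_MEA := by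
  refine ⟨7 * 8 ^ 4, by norm_num, ?_⟩
  intro d J n V s β c w hd hn hV hs hs1 hβ hβ1 hsσ hc hw hw2
  have hβ0 : 0 < β := by linarith
  have hns : Measurable (nstep5 V s β (cx β c) (wx β w)) := by
    have h1 := measurable_mean5 V s β (cx β c) (wx β w) hV
    unfold nstep5
    fun_prop
  refine ⟨Meas.meas_cmpF hV s β c w n, hns, fun q => ?_⟩
  set σ := √(1 - β ^ 2) with hσ
  have hσ2 : 0 < 1 - β ^ 2 := by nlinarith
  have hσ0 : 0 < σ := Real.sqrt_pos.mpr hσ2
  have hσs : σ ^ 2 = 1 - β ^ 2 := Real.sq_sqrt hσ2.le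
  -- the noise map
  obtain ⟨hCF, hLF, hmean⟩ := facts V s β c w hV hs hs1 hβ0 hβ1 hd n hn hP hFIB q
  have hout : ∀ r : (E d × E d) × E d, cmpF V s β c w n (q, r) =
      (q.1 + (2 * √s) • (FF V s β c w n q r.1.1 - ((√β * √(1 - β)) • r.1.2 + √(1 - β) • r.2)),
        FF V s β c w n q r.1.1 - ((√β * √(1 - β)) • r.1.2 + √(1 - β) • r.2)) := fun r =>
    outp_eq V s β c w hV hs hβ0 hw2 n q r.1.1 r.1.2 r.2
  generalize FF V s β c w n q = F at hCF hLF hmean hout
  have hcontF : Continuous F := hCF.continuous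
  have key := hN (E d) d F (8 * s) σ hd hCF (by positivity) hLF hσ0 (by linarith)
  rw [hmean] at key
  -- laws
  have hK : Measurable (fun u : E d => (q.1 + (2 * √s) • u, u)) := by fun_prop
  have hm1 : Measurable (fun r : E d × E d => F r.1 + σ • r.2) := by
    have := hcontF.measurable
    fun_prop
  have e1 : (((gam d).map fun z => mean5 V s β (cx β c) (wx β w) q + σ • z).map
      (fun u : E d => (q.1 + (2 * √s) • u, u))) =
      (gam d).map fun z => nstep5 V s β (cx β c) (wx β w) (q, z) := by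
    rw [Measure.map_map hK (by fun_prop)]
    rfl
  have hab : (√β * √(1 - β)) ^ 2 + (√(1 - β)) ^ 2 = σ ^ 2 := by
    rw [mul_pow, Real.sq_sqrt hβ0.le, Real.sq_sqrt (by linarith), hσs]
    ring
  have hgauss := map_gauss (d := d) hσ0 hab
  set W : E d × E d → E d := fun q => (-(1 / σ)) • ((√β * √(1 - β)) • q.1 + √(1 - β) • q.2) with hW
  have hWm : Measurable W := by rw [hW]; fun_prop
  have hpm : (((gam d).prod (gam d)).prod (gam d)).map
      (fun r : (E d × E d) × E d => (r.1.1, W (r.1.2, r.2))) = (gam d).prod (gam d) := by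
    have h1 : (((gam d).prod (gam d)).prod (gam d)).map MeasurableEquiv.prodAssoc =
        (gam d).prod ((gam d).prod (gam d)) := Measure.prodAssoc_prod
    have h2 : ((gam d).prod ((gam d).prod (gam d))).map (Prod.map id W) = (gam d).prod (gam d) := by
      rw [← Measure.map_prod_map _ _ measurable_id hWm, hgauss, Measure.map_id]
    rw [← h1, Measure.map_map (measurable_id.prodMap hWm) MeasurableEquiv.prodAssoc.measurable] at h2
    exact h2
  have hm2 : Measurable (fun r : (E d × E d) × E d => (r.1.1, W (r.1.2, r.2))) :=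
    (measurable_fst.comp measurable_fst).prodMk
      (hWm.comp ((measurable_snd.comp measurable_fst).prodMk measurable_snd))
  have e2 : ((((gam d).prod (gam d)).map fun r => F r.1 + σ • r.2).map
      (fun u : E d => (q.1 + (2 * √s) • u, u))) =
      (((gam d).prod (gam d)).prod (gam d)).map fun r => cmpF V s β c w n (q, r) := by
    conv_lhs => rw [Measure.map_map hK hm1, ← hpm, Measure.map_map (hK.comp hm1) hm2]
    congr 1
    funext r
    rw [hout r]
    have e3 : F r.1.1 + σ • W (r.1.2, r.2) =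
        F r.1.1 - ((√β * √(1 - β)) • r.1.2 + √(1 - β) • r.2) := by
      rw [hW]
      simp only
      rw [smul_smul]
      have : σ * -(1 / σ) = -1 := by field_simp
      rw [this, neg_one_smul, ← sub_eq_add_neg]
    simp only [Function.comp_apply]
    rw [e3]
  rw [← e1, ← e2]
  haveI : IsProbabilityMeasure (((gam d).prod (gam d)).map
      fun r => F r.1 + σ • r.2) := Measure.isProbabilityMeasure_map hm1.aemeasurable
  haveI : IsProbabilityMeasure ((gam d).map fun z => mean5 V s β (cx β c) (wx β w) q + σ • z) :=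
    Measure.isProbabilityMeasure_map (by fun_prop)
  refine (klDiv_map_le _ _ hK).trans (key.trans (ENNReal.ofReal_le_ofReal (le_of_eq ?_)))
  have : σ ^ 4 = (1 - β ^ 2) ^ 2 := by rw [← hσs]; ring
  rw [this]
  ring

end LCS.Fifth
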