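import Vale.Agent.P347.Fifth.Gkl
import Vale.Agent.P347.NOISE

/-!
# P347 (1/5), module NKL
-/

namespace LCS.Fifth

open MeasureTheory ProbabilityTheory Set Filter InformationTheory
open scoped ENNReal NNReal Topology RealInnerProductSpace BigOperators ContDiff

namespace NKL

theorem klFun_le0 {r K : ℝ} (hr : 0 ≤ r) (hK : 0 < K) :
    klFun r ≤ r ^ 2 / K - 2 * r + 1 + r * Real.log K := by
  rcases hr.eq_or_lt with h | h
  · rw [← h, klFun_apply]; simp
  · exact GKL.klFun_le h hK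

/-- chi-square bound for the relative entropy -/
lemma kl_withDensity {Y : Type*} [MeasurableSpace Y] (ρ : Measure Y) [IsProbabilityMeasure ρ]
    (h : Y → ℝ≥0∞) (hm : Measurable h) (h1 : ∫⁻ y, h y ∂ρ = 1) (K : ℝ) (hK : 0 < K)
    (h2 : ∫⁻ y, h y ^ 2 ∂ρ ≤ ENNReal.ofReal K) :
    klDiv (ρ.withDensity h) ρ ≤ ENNReal.ofReal (Real.log K) := by
  set f : Y → ℝ := fun y => (h y).toReal with hf
  have hf0 : ∀ y, 0 ≤ f y := fun y => ENNReal.toReal_nonneg
  have hfin : ∀ᵐ y ∂ρ, h y < ⊤ := ae_lt_top hm (by rw [h1]; exact ENNReal.one_ne_top)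
  have hint : Integrable f ρ := integrable_toReal_of_lintegral_ne_top hm.aemeasurable
    (by rw [h1]; exact ENNReal.one_ne_top)
  have hf1 : ∫ y, f y ∂ρ = 1 := by
    rw [hf, integral_toReal hm.aemeasurable hfin, h1, ENNReal.toReal_one]
  have h2top : ∫⁻ y, h y ^ 2 ∂ρ ≠ ⊤ := ne_top_of_le_ne_top ENNReal.ofReal_ne_top h2
  have hsq : ∀ y, f y ^ 2 = (h y ^ 2).toReal := fun y => by
    rw [hf, ENNReal.toReal_pow]
  have hint2 : Integrable (fun y => f y ^ 2) ρ := by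
    have := integrable_toReal_of_lintegral_ne_top (hm.pow_const 2).aemeasurable h2top
    simpa only [hsq] using this
  have hf2 : ∫ y, f y ^ 2 ∂ρ ≤ K := by
    have hfin2 : ∀ᵐ y ∂ρ, h y ^ 2 < ⊤ := ae_lt_top (hm.pow_const 2) h2top
    simp only [hsq]
    rw [integral_toReal (hm.pow_const 2).aemeasurable hfin2]
    calc (∫⁻ y, h y ^ 2 ∂ρ).toReal ≤ (ENNReal.ofReal K).toReal :=
          ENNReal.toReal_mono ENNReal.ofReal_ne_top h2
      _ = K := ENNReal.toReal_ofReal hK.le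
  have hprob : IsProbabilityMeasure (ρ.withDensity h) := by
    refine ⟨?_⟩
    rw [withDensity_apply _ MeasurableSet.univ, Measure.restrict_univ, h1]
  have hac : ρ.withDensity h ≪ ρ := withDensity_absolutelyContinuous _ _
  rw [klDiv_eq_lintegral_klFun_of_ac hac]
  have hrn : (ρ.withDensity h).rnDeriv ρ =ᵐ[ρ] h := Measure.rnDeriv_withDensity _ hm
  have hB : Integrable (fun y => f y ^ 2 / K) ρ := hint2.div_const K
  have hC : Integrable (fun y => f y ^ 2 / K - 2 * f y + 1 + f y * Real.log K) ρ :=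
    ((hB.sub (hint.const_mul 2)).add (integrable_const 1)).add (hint.mul_const _)
  have hpt : ∀ y, klFun (f y) ≤ f y ^ 2 / K - 2 * f y + 1 + f y * Real.log K := fun y =>
    klFun_le0 (hf0 y) hK
  calc ∫⁻ x, ENNReal.ofReal (klFun ((ρ.withDensity h).rnDeriv ρ x).toReal) ∂ρ
      = ∫⁻ x, ENNReal.ofReal (klFun (f x)) ∂ρ := by
        refine lintegral_congr_ae ?_
        filter_upwards [hrn] with x hx
        rw [hx]
    _ ≤ ∫⁻ x, ENNReal.ofReal (f x ^ 2 / K - 2 * f x + 1 + f x * Real.log K) ∂ρ :=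
        lintegral_mono fun x => ENNReal.ofReal_le_ofReal (hpt x)
    _ = ENNReal.ofReal (∫ x, (f x ^ 2 / K - 2 * f x + 1 + f x * Real.log K) ∂ρ) := by
        rw [ofReal_integral_eq_lintegral_ofReal hC]
        exact Eventually.of_forall fun y => (klFun_nonneg (hf0 y)).trans (hpt y)
    _ ≤ ENNReal.ofReal (Real.log K) := by
        apply ENNReal.ofReal_le_ofReal
        have e2 : ∫ x, f x ^ 2 / K ∂ρ ≤ 1 := by
          rw [integral_div, div_le_one hK]
          exact hf2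
        have i1 := integral_add ((hB.sub (hint.const_mul 2)).add (integrable_const (μ := ρ) (1:ℝ)))
          (hint.mul_const (Real.log K))
        have i2 := integral_add (hB.sub (hint.const_mul 2)) (integrable_const (μ := ρ) (1:ℝ))
        have i3 := integral_sub hB (hint.const_mul 2)
        simp only [Pi.add_apply, Pi.sub_apply] at i1 i2 i3
        rw [i1, i2, i3, integral_const_mul, integral_mul_const, hf1]
        simp
        linarith

end NKL

theorem nkl : S_NKL := by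
  intro G _ _ _ _ _ d F L σ hd hF hL0 hL hσ hLσ
  have hMP : S_MP := LCS.mp
  set Γ := stdGaussian G with hΓ
  set mF := ∫ y, F y ∂Γ with hmF
  obtain ⟨κ, hκ⟩ : ∃ κ : G → E d, κ = fun x => σ⁻¹ • (F x - mF) := ⟨_, rfl⟩
  have hκm : Measurable κ := by
    have : Measurable F := hF.continuous.measurable
    rw [hκ]
    exact (this.sub_const mF).const_smul σ⁻¹
  set u : ℝ := L ^ 2 / σ ^ 2 with hu
  have hu0 : 0 ≤ u := by positivity
  have hu4 : u ≤ 1 / 4 := by
    rw [hu, div_le_iff₀ (by positivity)]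
    nlinarith
  have hpi : Real.pi ^ 2 ≤ 9.87 := by
    have := Real.pi_lt_d4
    have h0 := Real.pi_pos
    nlinarith
  set a : ℝ := Real.pi ^ 2 / 8 * (L / σ) ^ 2 with ha
  have ha0 : 0 ≤ a := by positivity
  have hau : a ≤ 9.87 / 8 * u := by
    rw [ha, div_pow, ← hu]
    exact mul_le_mul_of_nonneg_right (by linarith) hu0
  have ha2 : a ^ 2 ≤ (9.87 / 8) ^ 2 * u ^ 2 := by
    have := pow_le_pow_left₀ ha0 hau 2
    calc a ^ 2 ≤ (9.87 / 8 * u) ^ 2 := this
      _ = (9.87 / 8) ^ 2 * u ^ 2 := by ring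
  have hu16 : u ^ 2 ≤ 1 / 16 := by nlinarith
  have hθ : 4 * a ^ 2 ≤ 0.3806 := by nlinarith
  -- bound of the double integral
  have hI : ∫⁻ x, ∫⁻ x', ENNReal.ofReal (Real.exp ⟪κ x, κ x'⟫) ∂Γ ∂Γ
      ≤ ENNReal.ofReal ((1 - 2 * (2 * a ^ 2)) ^ (-(d : ℝ) / 2)) := by
    have s1 : ∀ x, ∫⁻ x', ENNReal.ofReal (Real.exp ⟪κ x, κ x'⟫) ∂Γ
        ≤ ∫⁻ g, ENNReal.ofReal (Real.exp ⟪κ x, √(2 * a) • g⟫) ∂(gam d) := by
      intro x
      have h1 := NOISE.inner_bound hMP F L σ hF hL hσ (κ x)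
      have h2 : ∀ x', ⟪κ x, κ x'⟫ = ⟪σ⁻¹ • (F x' - ∫ y, F y ∂(stdGaussian G)), κ x⟫ := by
        intro x'
        rw [real_inner_comm, hκ]
      simp only [h2]
      refine h1.trans (le_of_eq ?_)
      have h3 : ∀ g : E d, ⟪κ x, √(2 * a) • g⟫ = ⟪√(2 * a) • κ x, g⟫ := by
        intro g
        rw [real_inner_smul_left, real_inner_smul_right]
      simp only [h3]
      have h4 : √(2 * a) ^ 2 = 2 * a := Real.sq_sqrt (by positivity)
      rw [SHIFT.mgf_gam, norm_smul, Real.norm_of_nonneg (Real.sqrt_nonneg _)]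
      congr 2
      rw [mul_pow (√(2 * a)), h4, ha]
      ring
    have s2 : ∀ g : E d, ∫⁻ x, ENNReal.ofReal (Real.exp ⟪κ x, √(2 * a) • g⟫) ∂Γ
        ≤ ENNReal.ofReal (Real.exp (2 * a ^ 2 * ‖g‖ ^ 2)) := by
      intro g
      have h1 := NOISE.inner_bound hMP F L σ hF hL hσ (√(2 * a) • g)
      have h4 : √(2 * a) ^ 2 = 2 * a := Real.sq_sqrt (by positivity)
      have h5 : ∫⁻ x, ENNReal.ofReal (Real.exp ⟪κ x, √(2 * a) • g⟫) ∂Γ
          ≤ ENNReal.ofReal (Real.exp (Real.pi ^ 2 / 8 * (L / σ * ‖√(2 * a) • g‖) ^ 2)) := by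
        rw [hκ]
        exact h1
      refine h5.trans (le_of_eq ?_)
      rw [norm_smul, Real.norm_of_nonneg (Real.sqrt_nonneg _)]
      congr 2
      have h6 : (L / σ * (√(2 * a) * ‖g‖)) ^ 2 = (L / σ) ^ 2 * (2 * a) * ‖g‖ ^ 2 := by
        rw [mul_pow, mul_pow, h4]
        ring
      rw [h6, show Real.pi ^ 2 / 8 * ((L / σ) ^ 2 * (2 * a) * ‖g‖ ^ 2)
        = (Real.pi ^ 2 / 8 * (L / σ) ^ 2) * (2 * a) * ‖g‖ ^ 2 by ring, ← ha]
      ring
    have hsw : AEMeasurable (Function.uncurry fun (x : G) (g : E d) =>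
        ENNReal.ofReal (Real.exp ⟪κ x, √(2 * a) • g⟫)) (Γ.prod (gam d)) := by
      refine Measurable.aemeasurable ?_
      have h4 : Measurable fun q : G × E d => κ q.1 := hκm.comp measurable_fst
      unfold Function.uncurry
      fun_prop
    have hmom := (cm d).2.2 (2 * a ^ 2) (by linarith)
    calc ∫⁻ x, ∫⁻ x', ENNReal.ofReal (Real.exp ⟪κ x, κ x'⟫) ∂Γ ∂Γ
        ≤ ∫⁻ x, ∫⁻ g, ENNReal.ofReal (Real.exp ⟪κ x, √(2 * a) • g⟫) ∂(gam d) ∂Γ :=
          lintegral_mono s1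
      _ = ∫⁻ g, ∫⁻ x, ENNReal.ofReal (Real.exp ⟪κ x, √(2 * a) • g⟫) ∂Γ ∂(gam d) :=
          lintegral_lintegral_swap hsw
      _ ≤ ∫⁻ g, ENNReal.ofReal (Real.exp (2 * a ^ 2 * ‖g‖ ^ 2)) ∂(gam d) := lintegral_mono s2
      _ = ENNReal.ofReal (∫ g, Real.exp (2 * a ^ 2 * ‖g‖ ^ 2) ∂(gam d)) :=
          (ofReal_integral_eq_lintegral_ofReal hmom.1
            (ae_of_all _ fun g => (Real.exp_pos _).le)).symm
      _ = ENNReal.ofReal ((1 - 2 * (2 * a ^ 2)) ^ (-(d : ℝ) / 2)) := by rw [hmom.2]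
  have hpos : 0 < 1 - 2 * (2 * a ^ 2) := by linarith
  have hkl : klDiv ((Γ.prod (gam d)).map fun q : G × E d => κ q.1 + q.2) (gam d) ≤
      ENNReal.ofReal (Real.log ((1 - 2 * (2 * a ^ 2)) ^ (-(d : ℝ) / 2))) := by
    rw [SHIFT.law_eq Γ κ hκm]
    exact NKL.kl_withDensity _ _ (SHIFT.meas_hh Γ κ hκm) (SHIFT.hh_one Γ κ hκm) _
      (Real.rpow_pos_of_pos hpos _) (by rw [SHIFT.hh_sq Γ κ hκm]; exact hI)
  have hsum : Measurable fun q : G × E d => κ q.1 + q.2 :=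
    (hκm.comp measurable_fst).add measurable_snd
  have haff : Measurable fun z : E d => mF + σ • z := by fun_prop
  have hp1 : IsProbabilityMeasure ((Γ.prod (gam d)).map fun q : G × E d => κ q.1 + q.2) :=
    Measure.isProbabilityMeasure_map hsum.aemeasurable
  have e1 : ((Γ.prod (gam d)).map fun q : G × E d => F q.1 + σ • q.2)
      = ((Γ.prod (gam d)).map fun q : G × E d => κ q.1 + q.2).map (fun z => mF + σ • z) := by
    rw [Measure.map_map haff hsum]
    congr 1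
    funext q
    simp only [Function.comp_apply, hκ]
    rw [smul_add, smul_smul, mul_inv_cancel₀ hσ.ne', one_smul]
    abel
  rw [e1]
  refine (klDiv_map_le _ _ haff).trans (hkl.trans ?_)
  apply ENNReal.ofReal_le_ofReal
  rw [Real.log_rpow hpos]
  have hlog : - (4 * a ^ 2 * (1 / 0.6194)) ≤ Real.log (1 - 2 * (2 * a ^ 2)) := by
    have h2 := Real.one_sub_inv_le_log_of_pos hpos
    have h3 : (1 - 2 * (2 * a ^ 2))⁻¹ ≤ 1 + 4 * a ^ 2 * (1 / 0.6194) := by
      rw [inv_le_iff_one_le_mul₀ hpos]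
      nlinarith [sq_nonneg a, mul_nonneg (sq_nonneg a) (sq_nonneg a)]
    linarith
  have hd0 : (0 : ℝ) ≤ d := Nat.cast_nonneg d
  have hfin : 4 * a ^ 2 * (1 / 0.6194) ≤ 14 * u ^ 2 := by nlinarith [sq_nonneg u]
  have hu4' : 7 * (d : ℝ) * L ^ 4 / σ ^ 4 = 7 * d * u ^ 2 := by
    rw [hu]; field_simp
  rw [hu4']
  have : -(d : ℝ) / 2 * Real.log (1 - 2 * (2 * a ^ 2)) ≤ d / 2 * (14 * u ^ 2) := by
    have : -Real.log (1 - 2 * (2 * a ^ 2)) ≤ 14 * u ^ 2 := by linarith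
    have := mul_le_mul_of_nonneg_left this (by positivity : (0 : ℝ) ≤ d / 2)
    linarith
  linarith

end LCS.Fifth
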