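import Vale.Agent.P347.Path
import Vale.Agent.P347.Fifth.Defs5

/-! # P347 module PATH5: pathwise comparison with the free path, without restriction on `s A` -/

namespace LCS.Fifth

open MeasureTheory ProbabilityTheory Set Filter
open scoped ENNReal NNReal Topology RealInnerProductSpace BigOperators ContDiff

namespace PATH5

open PATH

variable {d : ℕ} {f : E d → ℝ} {τ : ℝ}

theorem orb_bound {s A : ℝ} (hs : 0 < s) (hs1 : s ≤ 1 / 20) (hdA : √d ≤ A) (hL : Loc d s A f)
    {J : ℕ} (hJ : 1 ≤ J) (hτ : τ = Real.pi / J) (y z : E d) : ∀ j ≤ J,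
    ‖(orb f τ (y, z) j).1‖ ≤ 2 * (‖y‖ + ‖z‖) + A := by
  have hJ0 : (0 : ℝ) < J := by exact_mod_cast hJ
  have hτ0 : 0 ≤ τ := by rw [hτ]; positivity
  have hA : 0 ≤ A := (Real.sqrt_nonneg _).trans hdA
  intro j
  induction j using Nat.strong_induction_on with
  | _ j ih =>
    intro hj
    have hK : ∀ i < j, ‖gradient f (orb f τ (y, z) i).1‖ ≤
        s * A + 2 * s * (2 * (‖y‖ + ‖z‖) + A) := by
      intro i hi
      refine (hL.grad_le hs.le _).trans ?_
      have := ih i hi (by omega)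
      gcongr
    rw [(formula f τ y z j).1]
    have h1 := norm_trig (Real.cos (j * τ)) (Real.sin (j * τ)) (Real.abs_cos_le_one _)
      (Real.abs_sin_le_one _) y z
    have h2 := sum_bound hτ0 j (fun i => Real.sin ((j - i) * τ)) (fun i => Real.abs_sin_le_one _)
      (fun i => gradient f (orb f τ (y, z) i).1) _ hK
    have h3 : (j : ℝ) * τ ≤ Real.pi := by
      rw [hτ]
      have : (j : ℝ) ≤ J := by exact_mod_cast hj
      calc (j : ℝ) * (Real.pi / J) ≤ J * (Real.pi / J) := by gcongr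
        _ = Real.pi := by field_simp
    have h4 : (j : ℝ) * τ * (s * A + 2 * s * (2 * (‖y‖ + ‖z‖) + A)) ≤
        3.15 * (s * A + 2 * s * (2 * (‖y‖ + ‖z‖) + A)) := by
      have : (j : ℝ) * τ ≤ 3.15 := h3.trans Real.pi_lt_d2.le
      gcongr
    have h5 : s * (3.15 * (A + 2 * (2 * (‖y‖ + ‖z‖) + A))) ≤
        (1 / 20) * (3.15 * (A + 2 * (2 * (‖y‖ + ‖z‖) + A))) := by
      gcongr
    have h6 : ‖y‖ + ‖z‖ ≥ 0 := by positivity
    refine (norm_sub_le _ _).trans ?_
    nlinarith

theorem part1 {s A : ℝ} (hs : 0 < s) (hs1 : s ≤ 1 / 20) (hdA : √d ≤ A) (hL : Loc d s A f)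
    {J : ℕ} (hJ : 1 ≤ J) (y z : E d) :
    ‖turn f J y z - (-y - freeD f J y z)‖ ≤ 80 * s ^ 2 * (A + ‖y‖ + ‖z‖) := by
  have hJ0 : (0 : ℝ) < J := by exact_mod_cast hJ
  unfold turn
  set τ := Real.pi / J with hτ
  have hτ0 : 0 ≤ τ := by positivity
  have hA : 0 ≤ A := (Real.sqrt_nonneg _).trans hdA
  have hJτ : (J : ℝ) * τ = Real.pi := by rw [hτ]; field_simp
  set G := s * A + 2 * s * (2 * (‖y‖ + ‖z‖) + A) with hG
  have hG0 : 0 ≤ G := by positivity
  have hg : ∀ i ≤ J, ‖gradient f (orb f τ (y, z) i).1‖ ≤ G := by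
    intro i hi
    refine (hL.grad_le hs.le _).trans ?_
    have := orb_bound hs hs1 hdA hL hJ hτ y z i hi
    rw [hG]
    gcongr
  have hdist : ∀ i < J, ‖gradient f (orb f τ (y, z) i).1 -
      gradient f (Real.cos (i * τ) • y + Real.sin (i * τ) • z)‖ ≤ 2 * s * (Real.pi * G) := by
    intro i hi
    refine (hL.grad_lip hs.le _ _).trans ?_
    gcongr
    rw [(formula f τ y z i).1, sub_right_comm, sub_self, zero_sub, norm_neg]
    refine (sum_bound hτ0 i (fun k => Real.sin ((i - k) * τ)) (fun k => Real.abs_sin_le_one _)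
      (fun k => gradient f (orb f τ (y, z) k).1) G (fun k hk => hg k (by omega))).trans ?_
    have h3 : (i : ℝ) * τ ≤ Real.pi := by
      rw [← hJτ]
      have : (i : ℝ) ≤ J := by exact_mod_cast hi.le
      gcongr
    gcongr
  have hmain : ((kick f τ)^[J] (y, z)).1 - (-y - freeD f J y z) =
      -(τ • ∑ i ∈ Finset.range J, Real.sin (i * τ) •
        (gradient f (orb f τ (y, z) i).1 -
          gradient f (Real.cos (i * τ) • y + Real.sin (i * τ) • z))) := by
    have h1 := (formula f τ y z J).1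
    have h2 : ∑ i ∈ Finset.range J, Real.sin ((J - i) * τ) • gradient f (orb f τ (y, z) i).1 =
        ∑ i ∈ Finset.range J, Real.sin (i * τ) • gradient f (orb f τ (y, z) i).1 := by
      refine Finset.sum_congr rfl fun i _ => ?_
      rw [sub_mul, hJτ, Real.sin_pi_sub]
    rw [h2, hJτ, Real.cos_pi, Real.sin_pi] at h1
    change (orb f τ (y, z) J).1 - _ = _
    rw [h1, freeD, ← hτ]
    simp only [smul_sub, Finset.sum_sub_distrib]
    module
  rw [hmain, norm_neg]
  refine (sum_bound hτ0 J (fun i => Real.sin (i * τ)) (fun i => Real.abs_sin_le_one _)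
    _ _ hdist).trans ?_
  rw [hJτ]
  have hG1 : G ≤ 4 * s * (A + ‖y‖ + ‖z‖) := by
    rw [hG]
    nlinarith [norm_nonneg y, norm_nonneg z]
  have hpi : Real.pi ^ 2 ≤ 10 := by
    have h1 := Real.pi_lt_d2
    have h2 := Real.pi_pos
    nlinarith
  calc Real.pi * (2 * s * (Real.pi * G)) = Real.pi ^ 2 * (2 * s * G) := by ring
    _ ≤ 10 * (2 * s * (4 * s * (A + ‖y‖ + ‖z‖))) := by gcongr
    _ = 80 * s ^ 2 * (A + ‖y‖ + ‖z‖) := by ring

theorem part2 {s A : ℝ} (hL : Loc d s A f) (n : ℕ) :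
    ContDiff ℝ 1 (fun q : E d × E d => freeD f n q.1 q.2) := by
  unfold freeD
  apply ContDiff.const_smul
  apply ContDiff.sum
  intro i _
  apply ContDiff.const_smul
  exact hL.contDiff_grad.comp ((contDiff_fst.const_smul _).add (contDiff_snd.const_smul _))

theorem lip {s A : ℝ} (hs : 0 < s) (hL : Loc d s A f) {n : ℕ} (hn : 1 ≤ n) (y z z' : E d) :
    ‖freeD f n y z - freeD f n y z'‖ ≤ 8 * s * ‖z - z'‖ := by
  have hn0 : (0 : ℝ) < n := by exact_mod_cast hn
  have hτ0 : 0 ≤ Real.pi / n := by positivity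
  have e : freeD f n y z - freeD f n y z' = (Real.pi / n) • ∑ i ∈ Finset.range n,
      Real.sin (i * (Real.pi / n)) • (gradient f (Real.cos (i * (Real.pi / n)) • y +
        Real.sin (i * (Real.pi / n)) • z) - gradient f (Real.cos (i * (Real.pi / n)) • y +
        Real.sin (i * (Real.pi / n)) • z')) := by
    unfold freeD
    simp only [smul_sub, Finset.sum_sub_distrib]
  rw [e]
  refine (sum_bound hτ0 n (fun i => Real.sin (i * (Real.pi / n)))
    (fun i => Real.abs_sin_le_one _) _ (2 * s * ‖z - z'‖) ?_).trans ?_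
  · intro i _
    refine (hL.grad_lip hs.le _ _).trans ?_
    rw [add_sub_add_left_eq_sub, ← smul_sub, norm_smul, Real.norm_eq_abs]
    have h1 : |Real.sin (i * (Real.pi / n))| * ‖z - z'‖ ≤ 1 * ‖z - z'‖ :=
      mul_le_mul_of_nonneg_right (Real.abs_sin_le_one _) (norm_nonneg _)
    rw [one_mul] at h1
    exact mul_le_mul_of_nonneg_left h1 (by positivity)
  · have h1 : (n : ℝ) * (Real.pi / n) = Real.pi := by field_simp
    rw [h1]
    have h2 := Real.pi_lt_d2
    have h3 : 0 ≤ s * ‖z - z'‖ := by positivity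
    nlinarith

theorem part4 {s A : ℝ} (hs : 0 < s) (hdA : √d ≤ A) (hL : Loc d s A f) {n : ℕ} (hn : 1 ≤ n)
    (y z : E d) : ‖freeD f n y z‖ ≤ 8 * s * (A + ‖y‖ + ‖z‖) := by
  have hA : 0 ≤ A := (Real.sqrt_nonneg _).trans hdA
  have hn0 : (0 : ℝ) < n := by exact_mod_cast hn
  have hτ0 : 0 ≤ Real.pi / n := by positivity
  unfold freeD
  refine (sum_bound hτ0 n (fun i => Real.sin (i * (Real.pi / n)))
    (fun i => Real.abs_sin_le_one _) _ (s * A + 2 * s * (‖y‖ + ‖z‖)) ?_).trans ?_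
  · intro i _
    refine (hL.grad_le hs.le _).trans ?_
    have := norm_trig (Real.cos (i * (Real.pi / n))) (Real.sin (i * (Real.pi / n)))
      (Real.abs_cos_le_one _) (Real.abs_sin_le_one _) y z
    gcongr
  · have h1 : (n : ℝ) * (Real.pi / n) = Real.pi := by field_simp
    rw [h1]
    have h2 := Real.pi_lt_d2
    have h3 : 0 ≤ s * A := by positivity
    have h4 : 0 ≤ s * (‖y‖ + ‖z‖) := by positivity
    nlinarith

end PATH5

open PATH5 in
theorem path5 : S_PATH5 := by
  refine ⟨80, by norm_num, ?_⟩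
  intro d s A f hs hs1 hdA hL n hn
  refine ⟨part1 hs hs1 hdA hL hn, part2 hL n, fun y z => ?_, part4 hs hdA hL hn⟩
  have h := norm_fderiv_le_of_lipschitz ℝ (f := fun z => freeD f n y z) (x₀ := z)
    (C := (8 * s).toNNReal) (LipschitzWith.of_dist_le_mul fun a b => by
      rw [dist_eq_norm, dist_eq_norm, Real.coe_toNNReal _ (by positivity)]
      exact lip hs hL hn y a b)
  rwa [Real.coe_toNNReal _ (by positivity)] at h

end LCS.Fifth
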