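import Mathlib
import Vale.Agent.P347.Fifth.Defs5
import Vale.Agent.P347.Phat
import Vale.Agent.P347.MeanBasic

/-! # P347 (1/5): PHAT5, one step of the algorithm against the ideal step in relative entropy -/

namespace LCS.Fifth

open MeasureTheory ProbabilityTheory Set Filter InformationTheory LCS.PHAT
open scoped ENNReal NNReal Topology RealInnerProductSpace BigOperators ContDiff

namespace PHAT5

variable {d J : ℕ} (V : E d → ℝ) (s β : ℝ) (c w : Fin J → ℝ) (q : E d × E d)

/-- the noise map -/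
noncomputable def nz5 : Gj d J → E d := fun ξ => rmean5 V s β c w q (fun j => ξ j)

theorem contDiff_nz5 (hV : Pot d V) : ContDiff ℝ 1 (nz5 V s β c w q) := by
  unfold nz5 rmean5
  have h : ∀ j : Fin J, ContDiff ℝ 1 (fun ξ : Gj d J => gradient V (node V s (c j) q.1 q.2 (ξ j))) := by
    intro j
    have h1 : ContDiff ℝ 1 (fun ξ : Gj d J => ξ j) := by fun_prop
    exact (contDiff_gradient hV.smooth).comp ((contDiff_node V s (c j) q.1 q.2).comp h1)
  have h2 : ContDiff ℝ 1 (fun ξ : Gj d J => ∑ j, w j • gradient V (node V s (c j) q.1 q.2 (ξ j))) :=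
    ContDiff.sum fun j _ => (h j).const_smul (w j)
  exact (contDiff_const.sub (h2.const_smul (√s))).const_smul β

theorem nz5_lip (hV : Pot d V) (hs : 0 < s) (hβ : 0 ≤ β) (hβ1 : β ≤ 1) (hw : ∀ j, 0 < w j)
    (hw2 : β * ∑ j, w j = 1 + β) (ξ ξ' : Gj d J) :
    ‖nz5 V s β c w q ξ - nz5 V s β c w q ξ'‖ ≤ 4 * s * ‖ξ - ξ'‖ := by
  have e : nz5 V s β c w q ξ - nz5 V s β c w q ξ' =
      -((√s * β) • ∑ j, w j • (gradient V (node V s (c j) q.1 q.2 (ξ j)) -
        gradient V (node V s (c j) q.1 q.2 (ξ' j)))) := by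
    unfold nz5 rmean5
    simp only [smul_sub, Finset.sum_sub_distrib]
    module
  rw [e, norm_neg, norm_smul, Real.norm_eq_abs, abs_of_nonneg (by positivity)]
  have h1 : ‖∑ j, w j • (gradient V (node V s (c j) q.1 q.2 (ξ j)) -
        gradient V (node V s (c j) q.1 q.2 (ξ' j)))‖ ≤ ∑ j, w j * (2 * (√s * ‖ξ - ξ'‖)) := by
    refine norm_sum_le_of_le _ fun j _ => ?_
    rw [norm_smul, Real.norm_eq_abs, abs_of_pos (hw j)]
    refine mul_le_mul_of_nonneg_left ?_ (hw j).le
    refine (pot_lip hV _ _).trans ?_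
    refine mul_le_mul_of_nonneg_left ?_ (by norm_num)
    refine (node_lip V s _ _ _ _).trans ?_
    refine mul_le_mul_of_nonneg_left ?_ (Real.sqrt_nonneg _)
    have := PiLp.norm_apply_le (ξ - ξ') j
    simpa using this
  rw [← Finset.sum_mul] at h1
  have h2 := Real.mul_self_sqrt hs.le
  have h3 := norm_nonneg (ξ - ξ')
  calc √s * β * ‖∑ j, w j • (gradient V (node V s (c j) q.1 q.2 (ξ j)) -
        gradient V (node V s (c j) q.1 q.2 (ξ' j)))‖
      ≤ √s * β * ((∑ j, w j) * (2 * (√s * ‖ξ - ξ'‖))) := by gcongr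
    _ = (β * ∑ j, w j) * (2 * (√s * √s) * ‖ξ - ξ'‖) := by ring
    _ = (1 + β) * (2 * s * ‖ξ - ξ'‖) := by rw [hw2, h2]
    _ ≤ 2 * (2 * s * ‖ξ - ξ'‖) := by gcongr; linarith
    _ = _ := by ring

theorem integral_nz5 (hV : Pot d V) (hs : 0 < s) :
    ∫ ξ, nz5 V s β c w q ξ ∂(stdGaussian (Gj d J)) = mean5 V s β c w q := by
  have hcont : Continuous (nz5 V s β c w q) := (contDiff_nz5 V s β c w q hV).continuous
  rw [← map_pi_gam, integral_map (by fun_prop) hcont.aestronglyMeasurable]
  have hint : ∀ j : Fin J, Integrable (fun ξ : Fin J → E d =>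
      gradient V (node V s (c j) q.1 q.2 (ξ j))) (Measure.pi fun _ : Fin J => gam d) := by
    intro j
    exact integrable_comp_eval (μ := fun _ : Fin J => gam d) (i := j)
      (PHAT.integrable_grad_node V s hV hs (c j) q.1 q.2)
  have hint6 : ∀ j : Fin J, Integrable (fun ξ : Fin J → E d =>
      w j • gradient V (node V s (c j) q.1 q.2 (ξ j))) (Measure.pi fun _ : Fin J => gam d) :=
    fun j => (hint j).smul (w j)
  have hint2 : Integrable (fun ξ : Fin J → E d =>
      ∑ j, w j • gradient V (node V s (c j) q.1 q.2 (ξ j))) (Measure.pi fun _ : Fin J => gam d) :=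
    integrable_finsetSum _ fun j _ => hint6 j
  have hint5 : Integrable (fun ξ : Fin J → E d => √s •
      ∑ j, w j • gradient V (node V s (c j) q.1 q.2 (ξ j))) (Measure.pi fun _ : Fin J => gam d) :=
    hint2.smul (√s)
  unfold nz5 rmean5 mean5
  simp only
  rw [integral_smul, integral_sub (integrable_const _) hint5, integral_const, integral_smul,
    integral_finsetSum _ fun j _ => hint6 j]
  simp only [probReal_univ, one_smul, integral_smul]
  congr 3
  refine Finset.sum_congr rfl fun j _ => ?_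
  congr 1
  exact integral_comp_eval (μ := fun _ : Fin J => gam d) (i := j)
      (PHAT.integrable_grad_node V s hV hs (c j) q.1 q.2).aestronglyMeasurable

theorem measurable_pstep5 (hV : Pot d V) : Measurable (pstep5 V s β c w) := by
  have hg : Measurable (gradient V) := (contDiff_gradient hV.smooth).continuous.measurable
  have hm : Measurable (fun q : (E d × E d) × ((Fin J → E d) × E d) =>
      rmean5 V s β c w q.1 q.2.1) := by
    unfold rmean5 node
    fun_prop
  unfold pstep5
  fun_prop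

end PHAT5

open PHAT5 in
theorem phat5 (hN : S_NKL) : S_PHAT5 := by
  refine ⟨7 * 4 ^ 4, by norm_num, ?_⟩
  intro d J V s β c w q hd hV hs _ hβ hβ1 hsσ _ hw hw2
  refine ⟨measurable_pstep5 V s β c w hV, ?_⟩
  have hβ0 : 0 ≤ β := by linarith
  set σ := √(1 - β ^ 2) with hσ
  have hσ2 : 0 < 1 - β ^ 2 := by nlinarith
  have hσ0 : 0 < σ := Real.sqrt_pos.mpr hσ2
  have hσs : σ ^ 2 = 1 - β ^ 2 := Real.sq_sqrt hσ2.le
  have hcont : Continuous (nz5 V s β c w q) := (contDiff_nz5 V s β c w q hV).continuous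
  have hL : ∀ x, ‖fderiv ℝ (nz5 V s β c w q) x‖ ≤ 4 * s := by
    intro x
    have hl : LipschitzWith (Real.toNNReal (4 * s)) (nz5 V s β c w q) := by
      refine LipschitzWith.of_dist_le_mul fun a b => ?_
      rw [dist_eq_norm, dist_eq_norm, Real.coe_toNNReal _ (by positivity)]
      exact nz5_lip V s β c w q hV hs hβ0 hβ1.le hw hw2 a b
    have := norm_fderiv_le_of_lipschitz ℝ hl (x₀ := x)
    rwa [Real.coe_toNNReal _ (by positivity)] at this
  have key := hN (Gj d J) d (nz5 V s β c w q) (4 * s) σ hd (contDiff_nz5 V s β c w q hV)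
    (by positivity) hL hσ0 (by linarith)
  rw [integral_nz5 V s β c w q hV hs] at key
  -- post-composition
  have hK : Measurable (fun u : E d => (q.1 + (2 * √s) • u, u)) := by fun_prop
  have hm1 : Measurable (fun r : Gj d J × E d => nz5 V s β c w q r.1 + σ • r.2) := by
    have := hcont.measurable
    fun_prop
  have e1 : (((gam d).map fun z => mean5 V s β c w q + σ • z).map
      (fun u : E d => (q.1 + (2 * √s) • u, u))) = (gam d).map fun z => nstep5 V s β c w (q, z) := by
    rw [Measure.map_map hK (by fun_prop)]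
    rfl
  have hpm : (aux d J).map (Prod.map (WithLp.toLp 2) id) = (stdGaussian (Gj d J)).prod (gam d) := by
    rw [aux, ← Measure.map_prod_map _ _ (by fun_prop) measurable_id, map_pi_gam, Measure.map_id]
  have e2 : ((((stdGaussian (Gj d J)).prod (gam d)).map fun r => nz5 V s β c w q r.1 + σ • r.2).map
      (fun u : E d => (q.1 + (2 * √s) • u, u))) = (aux d J).map fun r => pstep5 V s β c w (q, r) := by
    rw [Measure.map_map hK hm1, ← hpm, Measure.map_map (hK.comp hm1) (by fun_prop)]
    rfl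
  rw [← e1, ← e2]
  haveI : IsProbabilityMeasure (((stdGaussian (Gj d J)).prod (gam d)).map
      fun r => nz5 V s β c w q r.1 + σ • r.2) := Measure.isProbabilityMeasure_map hm1.aemeasurable
  haveI : IsProbabilityMeasure ((gam d).map fun z => mean5 V s β c w q + σ • z) :=
    Measure.isProbabilityMeasure_map (by fun_prop)
  refine (klDiv_map_le _ _ hK).trans (key.trans (ENNReal.ofReal_le_ofReal (le_of_eq ?_)))
  have : σ ^ 4 = (1 - β ^ 2) ^ 2 := by rw [← hσs]; ring
  rw [this]
  ring

end LCS.Fifth
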