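import Vale.Agent.P347.REG
import Vale.Agent.P347.Fifth.Defs5

/-! # P347 REG5: two ideal steps regularise (helper28) -/

namespace LCS.Fifth.REG5

open MeasureTheory ProbabilityTheory Set Filter
open scoped ENNReal NNReal Topology RealInnerProductSpace BigOperators ContDiff

open LCS LCS.Fifth

section

variable {d : ℕ} {V : E d → ℝ}

theorem mean5_sub_le {J : ℕ} {s β : ℝ} {c w : Fin J → ℝ} (hV : Pot d V)
    (hL : ∀ x y, ‖gradient V x - gradient V y‖ ≤ 2 * ‖x - y‖) (hs : 0 < s) (hβ : 0 ≤ β)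
    (hβ1 : β ≤ 1) (hc : ∀ j, c j ∈ Ioo (-1 : ℝ) 1) (hw : ∀ j, 0 < w j) (hw2 : β * ∑ j, w j ≤ 2)
    (q q' : E d × E d) :
    ‖mean5 V s β c w q - mean5 V s β c w q'‖ ≤
      √s * (6 + 16 * s) * ‖q.1 - q'.1‖ + (1 + 4 * s) * ‖q.2 - q'.2‖ := by
  have hss : √s * √s = s := Real.mul_self_sqrt hs.le
  have hs0 : 0 ≤ √s := Real.sqrt_nonneg s
  set D : Fin J → E d := fun j => (∫ z, gradient V (node V s (c j) q.1 q.2 z) ∂(gam d))
    - ∫ z, gradient V (node V s (c j) q'.1 q'.2 z) ∂(gam d) with hD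
  set B : ℝ := (1 + 4 * s) * ‖q.1 - q'.1‖ + √s * ‖q.2 - q'.2‖ with hB
  have hB0 : 0 ≤ B := by positivity
  have hDj : ∀ j, ‖D j‖ ≤ 2 * B := by
    intro j
    rw [hD]
    simp only
    rw [← integral_sub (integrable_grad_node hV hL _ _) (integrable_grad_node hV hL _ _)]
    refine (norm_integral_le_of_norm_le_const (C := 2 * B)
      (Filter.Eventually.of_forall fun z => ?_)).trans ?_
    · exact (hL _ _).trans (mul_le_mul_of_nonneg_left (node_sub_le hs (hc j) hL _ _ _ _ z)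
        (by norm_num))
    · simp
  have e : mean5 V s β c w q - mean5 V s β c w q' = β • (q.2 - q'.2)
      - √s • (β • ∑ j, w j • D j) := by
    unfold mean5
    have : ∑ j, w j • D j = (∑ j, w j • ∫ z, gradient V (node V s (c j) q.1 q.2 z) ∂(gam d))
        - ∑ j, w j • ∫ z, gradient V (node V s (c j) q'.1 q'.2 z) ∂(gam d) := by
      rw [← Finset.sum_sub_distrib]
      exact Finset.sum_congr rfl fun j _ => by rw [hD]; simp only [smul_sub]
    rw [this]
    module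
  have hsum : ‖∑ j, w j • D j‖ ≤ (∑ j, w j) * (2 * B) := by
    calc ‖∑ j, w j • D j‖ ≤ ∑ j, ‖w j • D j‖ := norm_sum_le _ _
      _ ≤ ∑ j, w j * (2 * B) := by
        apply Finset.sum_le_sum
        intro j _
        rw [norm_smul, Real.norm_of_nonneg (hw j).le]
        exact mul_le_mul_of_nonneg_left (hDj j) (hw j).le
      _ = (∑ j, w j) * (2 * B) := by rw [← Finset.sum_mul]
  have h1 : ‖β • (q.2 - q'.2)‖ ≤ ‖q.2 - q'.2‖ := by
    rw [norm_smul, Real.norm_of_nonneg hβ]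
    exact mul_le_of_le_one_left (norm_nonneg _) hβ1
  have h3 : ‖β • ∑ j, w j • D j‖ ≤ 4 * B := by
    rw [norm_smul, Real.norm_of_nonneg hβ]
    calc β * ‖∑ j, w j • D j‖ ≤ β * ((∑ j, w j) * (2 * B)) := by gcongr
      _ = (β * ∑ j, w j) * (2 * B) := by ring
      _ ≤ 2 * (2 * B) := by gcongr
      _ = 4 * B := by ring
  rw [e]
  calc ‖β • (q.2 - q'.2) - √s • (β • ∑ j, w j • D j)‖
      ≤ ‖β • (q.2 - q'.2)‖ + ‖√s • (β • ∑ j, w j • D j)‖ := norm_sub_le _ _
    _ ≤ ‖q.2 - q'.2‖ + √s * (2 * ‖q.1 - q'.1‖ + 4 * B) := by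
        rw [norm_smul √s, Real.norm_of_nonneg hs0]
        gcongr
        have := norm_nonneg (q.1 - q'.1)
        linarith
    _ = √s * (6 + 16 * s) * ‖q.1 - q'.1‖ + (1 + 4 * s) * ‖q.2 - q'.2‖ := by
        rw [hB]
        linear_combination 4 * ‖q.2 - q'.2‖ * hss

theorem continuous_mean5 {J : ℕ} {s β : ℝ} {c w : Fin J → ℝ} (hV : Pot d V)
    (hL : ∀ x y, ‖gradient V x - gradient V y‖ ≤ 2 * ‖x - y‖) (hs : 0 < s) (hβ : 0 ≤ β)
    (hβ1 : β ≤ 1) (hc : ∀ j, c j ∈ Ioo (-1 : ℝ) 1) (hw : ∀ j, 0 < w j)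
    (hw2 : β * ∑ j, w j ≤ 2) :
    Continuous (mean5 V s β c w) := by
  have hl : LipschitzWith (Real.toNNReal (√s * (6 + 16 * s) + (1 + 4 * s)))
      (mean5 V s β c w) := by
    apply LipschitzWith.of_dist_le_mul
    intro q q'
    rw [dist_eq_norm, Real.coe_toNNReal _ (by positivity)]
    refine (mean5_sub_le hV hL hs hβ hβ1 hc hw hw2 q q').trans ?_
    have h1 : ‖q.1 - q'.1‖ ≤ dist q q' := by
      rw [← dist_eq_norm]; exact le_max_left _ _
    have h2 : ‖q.2 - q'.2‖ ≤ dist q q' := by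
      rw [← dist_eq_norm]; exact le_max_right _ _
    calc √s * (6 + 16 * s) * ‖q.1 - q'.1‖ + (1 + 4 * s) * ‖q.2 - q'.2‖
        ≤ √s * (6 + 16 * s) * dist q q' + (1 + 4 * s) * dist q q' := by gcongr
      _ = (√s * (6 + 16 * s) + (1 + 4 * s)) * dist q q' := by ring
  exact hl.continuous

end

/-- the second step as a function of `y = a₁ + p / h` and `z₂` -/
noncomputable def G2 {d J : ℕ} (V : E d → ℝ) (s β : ℝ) (c w : Fin J → ℝ) (h : ℝ) (p : E d)
    (x : E d × E d) : E d × E d :=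
  (h • (x.1 + (mean5 V s β c w (h • x.1, x.1 - h⁻¹ • p) + √(1 - β ^ 2) • x.2)),
    mean5 V s β c w (h • x.1, x.1 - h⁻¹ • p) + √(1 - β ^ 2) • x.2)

theorem two_steps {d J : ℕ} (V : E d → ℝ) (β : ℝ) (c w : Fin J → ℝ) {h : ℝ} (hh : 0 < h)
    (q : E d × E d) (z : E d × E d) :
    nstep5 V (h ^ 2 / 4) β c w (nstep5 V (h ^ 2 / 4) β c w (q, z.1), z.2)
      = G2 V (h ^ 2 / 4) β c w h q.1
        ((mean5 V (h ^ 2 / 4) β c w q + h⁻¹ • q.1) + √(1 - β ^ 2) • z.1, z.2) := by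
  have hs : 2 * √(h ^ 2 / 4) = h := by
    have : h ^ 2 / 4 = (h / 2) ^ 2 := by ring
    rw [this, Real.sqrt_sq (by positivity)]
    ring
  have e1 : h • ((mean5 V (h ^ 2 / 4) β c w q + h⁻¹ • q.1) + √(1 - β ^ 2) • z.1)
      = q.1 + h • (mean5 V (h ^ 2 / 4) β c w q + √(1 - β ^ 2) • z.1) := by
    have : q.1 = h • (h⁻¹ • q.1) := by rw [smul_smul, mul_inv_cancel₀ hh.ne', one_smul]
    conv_rhs => rw [this]
    module
  have e2 : ((mean5 V (h ^ 2 / 4) β c w q + h⁻¹ • q.1) + √(1 - β ^ 2) • z.1) - h⁻¹ • q.1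
      = mean5 V (h ^ 2 / 4) β c w q + √(1 - β ^ 2) • z.1 := by abel
  unfold G2
  simp only
  rw [e1, e2]
  unfold nstep5
  simp only
  rw [hs]
  ext1
  · simp only
    conv_rhs => rw [smul_add, e1]
  · rfl

theorem main (hLIP : S_LIP) (hSH : S_SHIFT) (hTVP : S_TVP) (hTVL : S_TVL) : S_REG5 := by
  refine ⟨4, by norm_num, ?_⟩
  intro d J V h c w hV hh hh1 hc hw hw3 q q'
  have hw2 : (1 - 2 * h) * ∑ j, w j ≤ 2 := by rw [hw3]; linarith
  have hL := (hLIP d V hV).1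
  set s : ℝ := h ^ 2 / 4 with hs
  set β : ℝ := 1 - 2 * h with hβ
  have hs0 : 0 < s := by positivity
  have hβ0 : 0 ≤ β := by rw [hβ]; linarith
  have hβ1 : β ≤ 1 := by rw [hβ]; linarith
  have hsq : √s = h / 2 := by
    have : s = (h / 2) ^ 2 := by rw [hs]; ring
    rw [this, Real.sqrt_sq (by positivity)]
  set σ : ℝ := √(1 - β ^ 2) with hσ
  have hσh : h ≤ σ := by
    rw [hσ]
    apply Real.le_sqrt_of_sq_le
    rw [hβ]
    nlinarith
  have hσ0 : 0 < σ := lt_of_lt_of_le hh hσh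
  have hlip : ∀ a b : E d × E d, ‖mean5 V s β c w a - mean5 V s β c w b‖ ≤
      4 * h * ‖a.1 - b.1‖ + 2 * ‖a.2 - b.2‖ := by
    intro a b
    refine (mean5_sub_le hV hL hs0 hβ0 hβ1 hc hw hw2 a b).trans ?_
    rw [hsq]
    have h1 : h / 2 * (6 + 16 * s) ≤ 4 * h := by
      rw [hs]; nlinarith
    have h2 : 1 + 4 * s ≤ 2 := by rw [hs]; nlinarith
    gcongr
  have hcm : Continuous (mean5 V s β c w) := continuous_mean5 hV hL hs0 hβ0 hβ1 hc hw hw2
  have hG : ∀ p : E d, Measurable (G2 V s β c w h p) := by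
    intro p
    have : Continuous (G2 V s β c w h p) := by
      unfold G2
      have h1 : Continuous fun x : E d × E d => mean5 V s β c w (h • x.1, x.1 - h⁻¹ • p) :=
        hcm.comp (by fun_prop)
      fun_prop
    exact this.measurable
  -- the law as a mixture
  have hmap : ∀ a : E d × E d, ((gam d).prod (gam d)).map (fun z => nstep5 V s β c w
      (nstep5 V s β c w (a, z.1), z.2))
      = ((gam d).prod (gam d)).map (fun z : E d × E d => G2 V s β c w h a.1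
        ((mean5 V s β c w a + h⁻¹ • a.1) + σ • z.1, z.2)) := by
    intro a
    congr 1
    funext z
    exact two_steps V β c w hh a z
  rw [hmap, hmap]
  have hY : ∀ (m : E d) (p : E d), ((gam d).prod (gam d)).map
      (fun z : E d × E d => G2 V s β c w h p (m + σ • z.1, z.2))
      = (((gam d).map fun z => m + σ • z).prod (gam d)).map (G2 V s β c w h p) := by
    intro m p
    have hm : Measurable (fun z : E d => m + σ • z) := by fun_prop
    have h1 : ((gam d).map fun z => m + σ • z).prod (gam d)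
        = ((gam d).prod (gam d)).map (Prod.map (fun z => m + σ • z) id) := by
      rw [← Measure.map_prod_map _ _ hm measurable_id, Measure.map_id]
    rw [h1, Measure.map_map (hG p) (hm.prodMap measurable_id)]
    rfl
  -- step 1
  have step1 : TV (((gam d).prod (gam d)).map (fun z : E d × E d => G2 V s β c w h q.1
        ((mean5 V s β c w q + h⁻¹ • q.1) + σ • z.1, z.2)))
      (((gam d).prod (gam d)).map (fun z : E d × E d => G2 V s β c w h q'.1
        ((mean5 V s β c w q + h⁻¹ • q.1) + σ • z.1, z.2)))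
      (2 * ‖q.1 - q'.1‖ / h / σ) := by
    have hmeas : ∀ p : E d, Measurable (fun z : E d × E d => G2 V s β c w h p
        ((mean5 V s β c w q + h⁻¹ • q.1) + σ • z.1, z.2)) := by
      intro p
      exact (hG p).comp (by fun_prop)
    have h1 := hTVP (E d) (E d) (E d) (E d × E d) (gam d) (gam d) (gam d)
      (fun z : E d × E d => G2 V s β c w h q.1
        ((mean5 V s β c w q + h⁻¹ • q.1) + σ • z.1, z.2))
      (fun z : E d × E d => G2 V s β c w h q'.1
        ((mean5 V s β c w q + h⁻¹ • q.1) + σ • z.1, z.2))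
      (fun _ => 2 * ‖q.1 - q'.1‖ / h / σ) (hmeas _) (hmeas _) (integrable_const _) ?_
    · simpa using h1
    · intro z1
      set y : E d := (mean5 V s β c w q + h⁻¹ • q.1) + σ • z1 with hy
      have h2 := LCS.REG.tv_shift hSH (mean5 V s β c w (h • y, y - h⁻¹ • q.1))
        (mean5 V s β c w (h • y, y - h⁻¹ • q'.1)) hσ0
      have h3 := h2.map (f := fun x : E d => (h • (y + x), x)) (by fun_prop)
      rw [Measure.map_map (by fun_prop) (by fun_prop),
        Measure.map_map (by fun_prop) (by fun_prop)] at h3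
      refine TV.mono (h3) ?_
      have h4 := hlip (h • y, y - h⁻¹ • q.1) (h • y, y - h⁻¹ • q'.1)
      simp only [sub_self, norm_zero, mul_zero, zero_add] at h4
      have h5 : (y - h⁻¹ • q.1) - (y - h⁻¹ • q'.1) = -(h⁻¹ • (q.1 - q'.1)) := by module
      rw [h5, norm_neg, norm_smul, Real.norm_of_nonneg (by positivity : (0 : ℝ) ≤ h⁻¹)] at h4
      apply div_le_div_of_nonneg_right _ hσ0.le
      calc _ ≤ 2 * (h⁻¹ * ‖q.1 - q'.1‖) := h4
        _ = 2 * ‖q.1 - q'.1‖ / h := by field_simp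
  -- step 2
  have step2 : TV (((gam d).prod (gam d)).map (fun z : E d × E d => G2 V s β c w h q'.1
        ((mean5 V s β c w q + h⁻¹ • q.1) + σ • z.1, z.2)))
      (((gam d).prod (gam d)).map (fun z : E d × E d => G2 V s β c w h q'.1
        ((mean5 V s β c w q' + h⁻¹ • q'.1) + σ • z.1, z.2)))
      (((4 * h + 1 / h) * ‖q.1 - q'.1‖ + 2 * ‖q.2 - q'.2‖) / σ) := by
    rw [hY, hY]
    have hm : ∀ m : E d, Measurable (fun z : E d => m + σ • z) := fun m => by fun_prop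
    have hp : ∀ m : E d, IsProbabilityMeasure ((gam d).map fun z => m + σ • z) := fun m =>
      Measure.isProbabilityMeasure_map (hm m).aemeasurable
    have := hp (mean5 V s β c w q + h⁻¹ • q.1)
    have := hp (mean5 V s β c w q' + h⁻¹ • q'.1)
    apply hTVL (E d) (E d) (E d × E d) _ _ (gam d) _ _ (hG _)
    refine TV.mono (LCS.REG.tv_shift hSH _ _ hσ0) ?_
    apply div_le_div_of_nonneg_right _ hσ0.le
    have e : (mean5 V s β c w q + h⁻¹ • q.1) - (mean5 V s β c w q' + h⁻¹ • q'.1)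
        = (mean5 V s β c w q - mean5 V s β c w q') + h⁻¹ • (q.1 - q'.1) := by module
    rw [e]
    refine (norm_add_le _ _).trans ?_
    rw [norm_smul, Real.norm_of_nonneg (by positivity : (0 : ℝ) ≤ h⁻¹)]
    have := hlip q q'
    calc _ ≤ (4 * h * ‖q.1 - q'.1‖ + 2 * ‖q.2 - q'.2‖) + h⁻¹ * ‖q.1 - q'.1‖ := by gcongr
      _ = (4 * h + 1 / h) * ‖q.1 - q'.1‖ + 2 * ‖q.2 - q'.2‖ := by rw [one_div]; ring
  refine TV.mono (step1.trans step2) ?_
  have hp0 : 0 ≤ ‖q.1 - q'.1‖ := norm_nonneg _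
  have ha0 : 0 ≤ ‖q.2 - q'.2‖ := norm_nonneg _
  have h6 : 2 * ‖q.1 - q'.1‖ / h / σ ≤ 2 * ‖q.1 - q'.1‖ / h / h := by gcongr
  have h7 : ((4 * h + 1 / h) * ‖q.1 - q'.1‖ + 2 * ‖q.2 - q'.2‖) / σ
      ≤ ((4 * h + 1 / h) * ‖q.1 - q'.1‖ + 2 * ‖q.2 - q'.2‖) / h := by gcongr
  refine (add_le_add h6 h7).trans ?_
  rw [div_div, ← pow_two]
  have h8 : ((4 * h + 1 / h) * ‖q.1 - q'.1‖ + 2 * ‖q.2 - q'.2‖) / h
      = ((4 * h ^ 2 + 1) * ‖q.1 - q'.1‖ + 2 * h * ‖q.2 - q'.2‖) / h ^ 2 := by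
    field_simp
  rw [h8, ← add_div]
  apply div_le_div_of_nonneg_right _ (by positivity)
  have h9 : 4 * h ^ 2 ≤ 1 := by nlinarith
  have h10 : 2 * h ≤ 4 := by linarith
  nlinarith [mul_le_mul_of_nonneg_right h9 hp0, mul_le_mul_of_nonneg_right h10 ha0]

end LCS.Fifth.REG5

/-- REG5 -/
theorem LCS.Fifth.reg5 (hLIP : LCS.S_LIP) (hSHIFT : LCS.S_SHIFT) (hTVP : LCS.S_TVP)
    (hTVL : LCS.S_TVL) : LCS.Fifth.S_REG5 :=
  LCS.Fifth.REG5.main hLIP hSHIFT hTVP hTVL
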