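import Mathlib
import Vale.Agent.P347.Fifth.Defs5
import Vale.Agent.P347.Rot
import Vale.Agent.P347.CM
import Vale.Agent.P347.LocBasic

/-!
# P347 (1/5), module ROT5: asymptotic invariance of the half turn, uniformly in the potential
-/

namespace LCS.Fifth

namespace ROT5

open MeasureTheory ProbabilityTheory Set Filter
open scoped ENNReal NNReal Topology RealInnerProductSpace BigOperators ContDiff

variable {d : ℕ}

theorem real_bound {n m g t s x R I K : ℝ} (hn : 0 ≤ n) (hm : 0 ≤ m) (hg : 0 ≤ g) (hK : 0 ≤ K)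
    (hg1 : g ≤ K + n) (ht : 0 ≤ t) (_hs0 : 0 ≤ s) (hs1 : s ≤ 1 / 20) (hx0 : 0 ≤ x)
    (hx : x ≤ t * (n + m) ^ 2) (hR0 : 0 ≤ R) (hR : R ≤ s * x) (hI : |I| ≤ g * (t * (n + m))) :
    |R + I - t * g ^ 2 / 2| ≤ t * (8 * (1 + K) ^ 2 * (1 + n ^ 2 + m ^ 2)) := by
  have i3 := abs_le.mp hI
  have k1 : g * (n + m) ≤ (K + n) * (n + m) := mul_le_mul_of_nonneg_right hg1 (by linarith)
  have k2 : g ^ 2 ≤ (K + n) ^ 2 := pow_le_pow_left₀ hg hg1 2
  have k3 : (n + m) ^ 2 / 20 + (K + n) * (n + m) + (K + n) ^ 2 / 2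
      ≤ 8 * (1 + K) ^ 2 * (1 + n ^ 2 + m ^ 2) := by
    have e1 : (n + m) ^ 2 ≤ 2 * (1 + n ^ 2 + m ^ 2) := by nlinarith [sq_nonneg (n - m)]
    have e2 : (K + n) ^ 2 ≤ 2 * K ^ 2 + 2 * n ^ 2 := by nlinarith [sq_nonneg (K - n)]
    have e3 : (K + n) * (n + m) ≤ (K + n) ^ 2 / 2 + (n + m) ^ 2 / 2 := by
      nlinarith [sq_nonneg (K + n - (n + m))]
    have e4 : 2 * K ^ 2 + 2 * n ^ 2 + 3 / 2 * (1 + n ^ 2 + m ^ 2) ≤
        8 * (1 + K) ^ 2 * (1 + n ^ 2 + m ^ 2) := by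
      have p1 : 0 ≤ K ^ 2 * (n ^ 2 + m ^ 2) := by positivity
      have p2 : 0 ≤ K * (1 + n ^ 2 + m ^ 2) := by positivity
      nlinarith [sq_nonneg n, sq_nonneg m, sq_nonneg K]
    have p4 : 0 ≤ n ^ 2 + m ^ 2 := by positivity
    linarith
  have k4 : s * x ≤ t * ((n + m) ^ 2 / 20) := by
    have : s * x ≤ 1 / 20 * (t * (n + m) ^ 2) := mul_le_mul hs1 hx hx0 (by norm_num)
    linarith
  have k5 : t * ((n + m) ^ 2 / 20 + (K + n) * (n + m) + (K + n) ^ 2 / 2)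
      ≤ t * (8 * (1 + K) ^ 2 * (1 + n ^ 2 + m ^ 2)) := mul_le_mul_of_nonneg_left k3 ht
  have k6 : g * (t * (n + m)) ≤ t * ((K + n) * (n + m)) := by
    have := mul_le_mul_of_nonneg_left k1 ht
    have e : g * (t * (n + m)) = t * (g * (n + m)) := by ring
    rw [e]; exact this
  have k7 : t * g ^ 2 ≤ t * (K + n) ^ 2 := mul_le_mul_of_nonneg_left k2 ht
  have p1 : 0 ≤ t * g ^ 2 := by positivity
  have p2 : 0 ≤ t * ((n + m) ^ 2 / 20) := by positivity
  have p3 : 0 ≤ t * ((K + n) * (n + m)) := by positivity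
  have e5 : t * ((n + m) ^ 2 / 20 + (K + n) * (n + m) + (K + n) ^ 2 / 2)
      = t * ((n + m) ^ 2 / 20) + t * ((K + n) * (n + m)) + t * (K + n) ^ 2 / 2 := by ring
  rw [e5] at k5
  rw [abs_le]
  constructor
  · linarith
  · linarith

theorem D_bound {s A : ℝ} {f : E d → ℝ} (hs0 : 0 < s) (hs1 : s ≤ 1 / 20) (hA : 0 ≤ A)
    (hf : Loc d s A f) {τ : ℝ} (h0 : 0 < τ) (h1 : τ ≤ 1) (q : E d × E d) :
    |ROT.D f τ q| ≤ 8 * (1 + s * A) ^ 2 * τ ^ 2 * (1 + ‖q.1‖ ^ 2 + ‖q.2‖ ^ 2) := by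
  obtain ⟨a, b⟩ := q
  set y := Real.cos τ • a - Real.sin τ • b with hy
  set z := Real.sin τ • a + Real.cos τ • b with hz
  have hcs := Real.cos_sq_add_sin_sq τ
  have ha : a = Real.cos τ • y + Real.sin τ • z := by
    have : Real.cos τ • y + Real.sin τ • z = (Real.cos τ ^ 2 + Real.sin τ ^ 2) • a := by
      rw [hy, hz]; module
    rw [this, hcs, one_smul]
  have hn : ‖y‖ ^ 2 + ‖z‖ ^ 2 = ‖a‖ ^ 2 + ‖b‖ ^ 2 := by
    rw [hy, hz, @norm_sub_sq_real, @norm_add_sq_real, norm_smul, norm_smul, norm_smul, norm_smul,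
      real_inner_smul_left, real_inner_smul_left, real_inner_smul_right, real_inner_smul_right]
    simp only [mul_pow, Real.norm_eq_abs, sq_abs]
    have : Real.cos τ ^ 2 * ‖a‖ ^ 2 - 2 * (Real.cos τ * (Real.sin τ * ⟪a, b⟫))
        + Real.sin τ ^ 2 * ‖b‖ ^ 2
        + (Real.sin τ ^ 2 * ‖a‖ ^ 2 + 2 * (Real.sin τ * (Real.cos τ * ⟪a, b⟫))
        + Real.cos τ ^ 2 * ‖b‖ ^ 2) = (Real.cos τ ^ 2 + Real.sin τ ^ 2) * (‖a‖ ^ 2 + ‖b‖ ^ 2) := by
      ring
    rw [this, hcs, one_mul]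
  -- trigonometric bounds
  obtain ⟨c1, c2, c3⟩ := ROT.trig_bounds h0 h1
  set n := ‖y‖ with hnn
  set m := ‖z‖ with hmm
  have hn0 : 0 ≤ n := norm_nonneg _
  have hm0 : 0 ≤ m := norm_nonneg _
  set g := ‖gradient f y‖ with hg
  have hg0 : 0 ≤ g := norm_nonneg _
  have hg1 : g ≤ s * A + n := by
    have := hf.grad_le hs0.le y
    nlinarith
  have e1 : a - y = (Real.cos τ - 1) • y + Real.sin τ • z := by
    nth_rewrite 1 [ha]; module
  have e2 : a - y - τ • z = (Real.cos τ - 1) • y + (Real.sin τ - τ) • z := by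
    rw [e1]; module
  have b1 : ‖a - y‖ ≤ τ * (n + m) := by
    rw [e1]
    refine (norm_add_le _ _).trans ?_
    rw [norm_smul, norm_smul, Real.norm_eq_abs, Real.norm_eq_abs]
    have h3 : |Real.cos τ - 1| * ‖y‖ ≤ τ ^ 2 / 2 * n := mul_le_mul_of_nonneg_right c1 hn0
    have h4 : |Real.sin τ| * ‖z‖ ≤ τ * m := mul_le_mul_of_nonneg_right c3 hm0
    have h5 : τ ^ 2 / 2 * n ≤ τ * n := by
      refine mul_le_mul_of_nonneg_right ?_ hn0
      nlinarith
    linarith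
  have b2 : ‖a - y - τ • z‖ ≤ τ ^ 2 * (n + m) := by
    rw [e2]
    refine (norm_add_le _ _).trans ?_
    rw [norm_smul, norm_smul, Real.norm_eq_abs, Real.norm_eq_abs]
    have h3 : |Real.cos τ - 1| * ‖y‖ ≤ τ ^ 2 / 2 * n := mul_le_mul_of_nonneg_right c1 hn0
    have h4 : |Real.sin τ - τ| * ‖z‖ ≤ τ ^ 2 / 2 * m := mul_le_mul_of_nonneg_right c2 hm0
    have h5 : τ ^ 2 / 2 * n + τ ^ 2 / 2 * m = τ ^ 2 * (n + m) / 2 := by ring
    have h6 : 0 ≤ τ ^ 2 * (n + m) := by positivity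
    linarith
  have t1 := taylor_lower hf.smooth (m := 0) (fun x v => by rw [zero_mul]; exact hf.lower x v) y a
  have t2 := taylor_upper hf.smooth (m := 2 * s) hf.upper y a
  have hD : ROT.D f τ (a, b) = (f a - f y - ⟪gradient f y, a - y⟫) + ⟪gradient f y, a - y - τ • z⟫
      - τ ^ 2 * g ^ 2 / 2 := by
    rw [ROT.D]
    simp only
    rw [← hy, ← hz, inner_sub_right (gradient f y) (a - y) (τ • z), real_inner_smul_right]
    ring
  have i1 : |⟪gradient f y, a - y - τ • z⟫| ≤ g * (τ ^ 2 * (n + m)) :=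
    (abs_real_inner_le_norm _ _).trans (mul_le_mul_of_nonneg_left b2 hg0)
  have i2 : ‖a - y‖ ^ 2 ≤ τ ^ 2 * (n + m) ^ 2 := by
    have := pow_le_pow_left₀ (norm_nonneg (a - y)) b1 2
    rw [mul_pow] at this
    exact this
  have hR0 : 0 ≤ f a - f y - ⟪gradient f y, a - y⟫ := by
    rw [zero_div, zero_mul] at t1; linarith
  have hR1 : f a - f y - ⟪gradient f y, a - y⟫ ≤ s * ‖a - y‖ ^ 2 := by
    have : 2 * s / 2 * ‖a - y‖ ^ 2 = s * ‖a - y‖ ^ 2 := by ring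
    rw [this] at t2; linarith
  rw [hD]
  have k8 : 1 + ‖a‖ ^ 2 + ‖b‖ ^ 2 = 1 + n ^ 2 + m ^ 2 := by linarith
  have k9 : 8 * (1 + s * A) ^ 2 * τ ^ 2 * (1 + ‖(a, b).1‖ ^ 2 + ‖(a, b).2‖ ^ 2)
      = τ ^ 2 * (8 * (1 + s * A) ^ 2 * (1 + n ^ 2 + m ^ 2)) := by
    simp only
    rw [k8]; ring
  rw [k9]
  exact real_bound hn0 hm0 hg0 (mul_nonneg hs0.le hA) hg1 (sq_nonneg τ) hs0.le hs1 (sq_nonneg _) i2
    hR0 hR1 i1

/-- the uniform majorant (without the factor `exp (-f 0)`) -/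
noncomputable def W (K : ℝ) (q : E d × E d) : ℝ :=
  Real.exp (K * ‖q.1‖) * Real.exp ((1 + ‖q.1‖ ^ 2 + ‖q.2‖ ^ 2) / 8)

theorem W_int (K : ℝ) : Integrable (W (d := d) K) ((gam d).prod (gam d)) := by
  have i1 := ((cm d).2.2 (1 / 4) (by norm_num)).1
  have i2 := ((cm d).2.2 (1 / 8) (by norm_num)).1
  have i3 := (i1.mul_prod i2).const_mul (Real.exp (2 * K ^ 2 + 1 / 8))
  refine i3.mono' ?_ (Eventually.of_forall fun q => ?_)
  · refine Continuous.aestronglyMeasurable ?_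
    unfold W
    fun_prop
  · rw [W, Real.norm_eq_abs, abs_of_nonneg (by positivity), ← Real.exp_add, ← Real.exp_add,
      ← Real.exp_add]
    rw [Real.exp_le_exp]
    nlinarith [sq_nonneg (‖q.1‖ - 4 * K)]

theorem exp_le {s A : ℝ} {f : E d → ℝ} (hf : Loc d s A f) (y : E d) :
    Real.exp (-f y) ≤ Real.exp (-f 0) * Real.exp (s * A * ‖y‖) := by
  rw [← Real.exp_add, Real.exp_le_exp]
  have h3 := hf.lower_le y
  linarith

theorem diff_bound {s A : ℝ} {f : E d → ℝ} (hs0 : 0 < s) (hs1 : s ≤ 1 / 20) (hA : 0 ≤ A)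
    (hf : Loc d s A f) {τ : ℝ} (h0 : 0 < τ)
    (h1 : τ ≤ 1 / (12 * (1 + s * A))) (q : E d × E d) :
    |Real.exp (-f q.1 + ROT.D f τ q) - Real.exp (-f q.1)|
      ≤ (128 * (1 + s * A) ^ 2 * Real.exp (-f 0)) * τ ^ 2 * W (s * A) q := by
  have hK : 0 ≤ s * A := mul_nonneg hs0.le hA
  have h1' : τ * (1 + s * A) ≤ 1 / 12 := by
    rw [le_div_iff₀ (by positivity)] at h1
    linarith
  have hτ1 : τ ≤ 1 := by nlinarith
  have hb := D_bound hs0 hs1 hA hf h0 hτ1 q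
  set Q := 1 + ‖q.1‖ ^ 2 + ‖q.2‖ ^ 2 with hQ
  have hQ0 : 0 ≤ Q := by positivity
  have e : Real.exp (-f q.1 + ROT.D f τ q) - Real.exp (-f q.1)
      = Real.exp (-f q.1) * (Real.exp (ROT.D f τ q) - 1) := by rw [Real.exp_add]; ring
  rw [e, abs_mul, abs_of_pos (Real.exp_pos _), W, ← hQ]
  have h2 := ROT.exp_sub_one_bound (ROT.D f τ q)
  have h3 : |ROT.D f τ q| ≤ Q / 16 := by
    refine hb.trans ?_
    have h12 : (τ * (1 + s * A)) ^ 2 ≤ (1 / 12) ^ 2 := pow_le_pow_left₀ (by positivity) h1' 2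
    have : 8 * (1 + s * A) ^ 2 * τ ^ 2 ≤ 1 / 16 := by nlinarith
    nlinarith
  have h4 : Real.exp |ROT.D f τ q| ≤ Real.exp (Q / 16) := Real.exp_le_exp.mpr h3
  have h5 : Q ≤ 16 * Real.exp (Q / 16) := by
    have := Real.add_one_le_exp (Q / 16)
    linarith
  have h6 : |ROT.D f τ q| * Real.exp |ROT.D f τ q|
      ≤ (8 * (1 + s * A) ^ 2 * τ ^ 2 * Q) * Real.exp (Q / 16) :=
    mul_le_mul hb h4 (Real.exp_pos _).le (by positivity)
  have h7 : (8 * (1 + s * A) ^ 2 * τ ^ 2 * Q) * Real.exp (Q / 16)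
      ≤ (8 * (1 + s * A) ^ 2 * τ ^ 2 * (16 * Real.exp (Q / 16))) * Real.exp (Q / 16) := by
    refine mul_le_mul_of_nonneg_right ?_ (Real.exp_pos _).le
    exact mul_le_mul_of_nonneg_left h5 (by positivity)
  have h8 : (8 * (1 + s * A) ^ 2 * τ ^ 2 * (16 * Real.exp (Q / 16))) * Real.exp (Q / 16)
      = 128 * (1 + s * A) ^ 2 * τ ^ 2 * Real.exp (Q / 8) := by
    have : Real.exp (Q / 8) = Real.exp (Q / 16) * Real.exp (Q / 16) := by
      rw [← Real.exp_add]; congr 1; ring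
    rw [this]; ring
  calc Real.exp (-f q.1) * |Real.exp (ROT.D f τ q) - 1|
      ≤ (Real.exp (-f 0) * Real.exp (s * A * ‖q.1‖)) *
          (128 * (1 + s * A) ^ 2 * τ ^ 2 * Real.exp (Q / 8)) :=
        mul_le_mul (exp_le hf q.1) (by linarith) (abs_nonneg _) (by positivity)
    _ = (128 * (1 + s * A) ^ 2 * Real.exp (-f 0)) * τ ^ 2 *
          (Real.exp (s * A * ‖q.1‖) * Real.exp (Q / 8)) := by ring

theorem int_exp {s A : ℝ} {f : E d → ℝ} (hf : Loc d s A f) :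
    Integrable (fun q : E d × E d => Real.exp (-f q.1)) ((gam d).prod (gam d)) := by
  have h1 : Continuous f := hf.smooth.continuous
  refine ((W_int (s * A)).const_mul (Real.exp (-f 0))).mono'
    (Continuous.aestronglyMeasurable (by fun_prop)) (Eventually.of_forall fun q => ?_)
  rw [Real.norm_eq_abs, abs_of_pos (Real.exp_pos _), W]
  have : (1 : ℝ) ≤ Real.exp ((1 + ‖q.1‖ ^ 2 + ‖q.2‖ ^ 2) / 8) := Real.one_le_exp (by positivity)
  have h2 := exp_le hf q.1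
  have h3 : Real.exp (s * A * ‖q.1‖) ≤ Real.exp (s * A * ‖q.1‖) *
      Real.exp ((1 + ‖q.1‖ ^ 2 + ‖q.2‖ ^ 2) / 8) := le_mul_of_one_le_right (Real.exp_pos _).le this
  exact h2.trans (mul_le_mul_of_nonneg_left h3 (Real.exp_pos _).le)

theorem int_exp1 {s A : ℝ} {f : E d → ℝ} (hf : Loc d s A f) :
    Integrable (fun y : E d => Real.exp (-f y)) (gam d) := by
  have h1 : Continuous f := hf.smooth.continuous
  have i1 := ((cm d).2.2 (1 / 4) (by norm_num)).1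
  refine (i1.const_mul (Real.exp (-f 0 + (s * A) ^ 2))).mono'
    (Continuous.aestronglyMeasurable (by fun_prop)) (Eventually.of_forall fun y => ?_)
  rw [Real.norm_eq_abs, abs_of_pos (Real.exp_pos _), ← Real.exp_add, Real.exp_le_exp]
  have h3 := hf.lower_le y
  nlinarith [sq_nonneg (‖y‖ / 2 - s * A)]

theorem int_exp' {s A : ℝ} {f : E d → ℝ} (hs0 : 0 < s) (hs1 : s ≤ 1 / 20) (hA : 0 ≤ A)
    (hf : Loc d s A f) {τ : ℝ} (h0 : 0 < τ) (h1 : τ ≤ 1 / (12 * (1 + s * A))) :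
    Integrable (fun q : E d × E d => Real.exp (-f q.1 + ROT.D f τ q))
      ((gam d).prod (gam d)) := by
  have h2 : Continuous f := hf.smooth.continuous
  have h3 := ROT.continuous_D hf.smooth τ
  have i1 : Integrable (fun q : E d × E d => Real.exp (-f q.1 + ROT.D f τ q) - Real.exp (-f q.1))
      ((gam d).prod (gam d)) := by
    refine ((W_int (s * A)).const_mul ((128 * (1 + s * A) ^ 2 * Real.exp (-f 0)) * τ ^ 2)).mono'
      (Continuous.aestronglyMeasurable (by fun_prop)) (Eventually.of_forall fun q => ?_)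
    exact diff_bound hs0 hs1 hA hf h0 h1 q
  have := i1.add (int_exp hf)
  refine this.congr (Eventually.of_forall fun q => ?_)
  simp

/-- the constant in the lower bound of the normalisation -/
noncomputable def Z0 (d : ℕ) (s A : ℝ) : ℝ :=
  ∫ y : E d, Real.exp (-(s * A * ‖y‖ + s * ‖y‖ ^ 2)) ∂(gam d)

theorem int_Z0 {s A : ℝ} (hs0 : 0 < s) (hA : 0 ≤ A) :
    Integrable (fun y : E d => Real.exp (-(s * A * ‖y‖ + s * ‖y‖ ^ 2))) (gam d) := by
  refine (integrable_const (1 : ℝ)).mono'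
    (Continuous.aestronglyMeasurable (by fun_prop)) (Eventually.of_forall fun y => ?_)
  rw [Real.norm_eq_abs, abs_of_pos (Real.exp_pos _), Real.exp_le_one_iff]
  have : 0 ≤ s * A * ‖y‖ + s * ‖y‖ ^ 2 := by positivity
  linarith

theorem Z0_pos {s A : ℝ} (hs0 : 0 < s) (hA : 0 ≤ A) : 0 < Z0 d s A := by
  rw [Z0]
  exact integral_exp_pos (int_Z0 hs0 hA)

theorem Z_lower {s A : ℝ} {f : E d → ℝ} (hs0 : 0 < s) (hA : 0 ≤ A) (hf : Loc d s A f) :
    Real.exp (-f 0) * Z0 d s A ≤ Zf f := by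
  rw [Z0, Zf, ← integral_const_mul]
  refine integral_mono ((int_Z0 hs0 hA).const_mul _) (int_exp1 hf) fun y => ?_
  simp only
  rw [← Real.exp_add, Real.exp_le_exp]
  have := hf.le_upper y
  linarith

/-- one step -/
theorem one_step {s A : ℝ} (hs0 : 0 < s) (hs1 : s ≤ 1 / 20) (hA : 0 ≤ A) :
    ∃ C : ℝ, 0 ≤ C ∧ ∀ f : E d → ℝ, Loc d s A f → ∀ τ : ℝ, 0 < τ → τ ≤ 1 / (12 * (1 + s * A)) →
      TV (((loc f).prod (gam d)).map (kick f τ)) ((loc f).prod (gam d)) (C * τ ^ 2) := by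
  refine ⟨(128 * (1 + s * A) ^ 2 * ∫ q, W (d := d) (s * A) q ∂((gam d).prod (gam d))) /
    Z0 d s A, ?_, ?_⟩
  · refine div_nonneg (mul_nonneg (by positivity) (integral_nonneg fun q => ?_)) (Z0_pos hs0 hA).le
    unfold W; positivity
  intro f hf τ h0 h1 B hB
  have i1 := int_exp hf
  have i2 := int_exp' hs0 hs1 hA hf h0 h1
  have hZ := Zf_pos (int_exp1 hf)
  have hZ0 := Z0_pos (d := d) hs0 hA
  have hZl := Z_lower hs0 hA hf
  have hZe : (∫⁻ y, ENNReal.ofReal (Real.exp (-f y)) ∂(gam d))⁻¹.toReal = (Zf f)⁻¹ := by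
    rw [lintegral_Zf (int_exp1 hf), ENNReal.toReal_inv, ENNReal.toReal_ofReal hZ.le]
  have hW0 : 0 ≤ ∫ q, W (d := d) (s * A) q ∂((gam d).prod (gam d)) :=
    integral_nonneg fun q => by unfold W; positivity
  rw [Measure.real, Measure.real, ROT.kick_apply cm hf.smooth τ hB, ROT.joint_apply hf.smooth hB,
    ENNReal.toReal_mul, ENNReal.toReal_mul, ROT.lint_real i1 (fun q => (Real.exp_pos _).le),
    ROT.lint_real i2 (fun q => (Real.exp_pos _).le), ← mul_sub, abs_mul,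
    abs_of_nonneg ENNReal.toReal_nonneg, ← integral_sub i2.integrableOn i1.integrableOn, hZe]
  have key : |∫ q in B, (Real.exp (-f q.1 + ROT.D f τ q) - Real.exp (-f q.1))
      ∂((gam d).prod (gam d))| ≤ (128 * (1 + s * A) ^ 2 * Real.exp (-f 0)) * τ ^ 2 *
        ∫ q, W (d := d) (s * A) q ∂((gam d).prod (gam d)) := by
    refine (abs_integral_le_integral_abs).trans ?_
    refine (setIntegral_le_integral (i2.sub i1).abs
      (Eventually.of_forall fun q => abs_nonneg _)).trans ?_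
    rw [← integral_const_mul]
    refine integral_mono (i2.sub i1).abs ((W_int (s * A)).const_mul _) fun q => ?_
    exact diff_bound hs0 hs1 hA hf h0 h1 q
  refine (mul_le_mul_of_nonneg_left key (inv_nonneg.mpr hZ.le)).trans ?_
  set I := ∫ q, W (d := d) (s * A) q ∂((gam d).prod (gam d)) with hI
  have h3 : (Zf f)⁻¹ * Real.exp (-f 0) ≤ (Z0 d s A)⁻¹ := by
    rw [inv_mul_eq_div, div_le_iff₀ hZ, inv_mul_eq_div, le_div_iff₀ hZ0]
    exact hZl
  have h4 : (Zf f)⁻¹ * ((128 * (1 + s * A) ^ 2 * Real.exp (-f 0)) * τ ^ 2 * I)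
      = ((Zf f)⁻¹ * Real.exp (-f 0)) * (128 * (1 + s * A) ^ 2 * τ ^ 2 * I) := by ring
  have h5 : (128 * (1 + s * A) ^ 2 * I) / Z0 d s A * τ ^ 2
      = (Z0 d s A)⁻¹ * (128 * (1 + s * A) ^ 2 * τ ^ 2 * I) := by
    rw [div_eq_mul_inv]; ring
  rw [h4, h5]
  exact mul_le_mul_of_nonneg_right h3 (by positivity)

end ROT5

open MeasureTheory ProbabilityTheory Set Filter
open scoped ENNReal NNReal Topology RealInnerProductSpace BigOperators ContDiff

/-- **module ROT5** -/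
theorem rot5 : S_ROT5 := by
  intro d s A _ hs0 hs1 hdA δ hδ
  have hA : 0 ≤ A := (Real.sqrt_nonneg _).trans hdA
  obtain ⟨C, hC, hstep⟩ := ROT5.one_step (d := d) hs0 hs1 hA
  have hlim : Tendsto (fun J : ℕ => C * Real.pi ^ 2 / (J : ℝ)) atTop (𝓝 0) :=
    tendsto_const_div_atTop_nhds_zero_nat _
  have hlim2 : Tendsto (fun J : ℕ => Real.pi / (J : ℝ)) atTop (𝓝 0) :=
    tendsto_const_div_atTop_nhds_zero_nat _
  have hpos : (0 : ℝ) < 1 / (12 * (1 + s * A)) := by positivity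
  filter_upwards [hlim.eventually (gt_mem_nhds hδ), hlim2.eventually (gt_mem_nhds hpos),
    eventually_ge_atTop 1] with J h1 h2 h3 f hf
  have hprob : IsProbabilityMeasure (loc f) := loc_prob (ROT5.int_exp1 hf)
  have hJ : (0 : ℝ) < J := by exact_mod_cast h3
  have hτ : 0 < Real.pi / J := div_pos Real.pi_pos hJ
  have hk : Measurable (kick f (Real.pi / J)) := (ROT.continuous_kick hf.smooth _).measurable
  have ht := ROT.tv_iter hk (hstep f hf _ hτ h2.le) J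
  have e1 : (((loc f).prod (gam d)).map fun q => turn f J q.1 q.2)
      = (((loc f).prod (gam d)).map ((kick f (Real.pi / J))^[J])).map Prod.fst := by
    rw [Measure.map_map measurable_fst (hk.iterate J)]; rfl
  have e2 : loc f = ((loc f).prod (gam d)).map Prod.fst := by
    rw [Measure.map_fst_prod, measure_univ, one_smul]
  intro B hB
  have e4 : (loc f).real B = ((loc f).prod (gam d)).real (Prod.fst ⁻¹' B) := by
    conv_lhs => rw [e2]
    rw [Measure.real, Measure.real, Measure.map_apply measurable_fst hB]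
  have := ht (Prod.fst ⁻¹' B) (measurable_fst hB)
  rw [e1, e4, Measure.real, Measure.map_apply measurable_fst hB]
  refine this.trans ?_
  have e3 : (J : ℝ) * (C * (Real.pi / J) ^ 2) = C * Real.pi ^ 2 / J := by
    field_simp
  rw [e3]; exact h1.le

end LCS.Fifth
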