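import Vale.Agent.P347.Sum
import Vale.Agent.P347.Fifth.Ker

/-!
# P347, module SUM5: the law of the output of the chain
-/

namespace LCS.Fifth

open MeasureTheory ProbabilityTheory Set Filter InformationTheory
open scoped ENNReal NNReal Topology RealInnerProductSpace BigOperators

namespace SUM5

set_option linter.unusedSectionVars false

noncomputable section

variable {d J : ℕ} {V : E d → ℝ} {s β : ℝ} {c w : Fin J → ℝ}

lemma pstep5_measurable (hg : Measurable (gradient V)) : Measurable (pstep5 V s β c w) := by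
  have hn : ∀ j : Fin J, Measurable fun q : (E d × E d) × ((Fin J → E d) × E d) =>
      node V s (c j) q.1.1 q.1.2 (q.2.1 j) := by
    intro j
    unfold node
    apply measurable_fst.fst.fun_sub
    apply Measurable.fun_const_smul
    apply Measurable.fun_add
    · apply Measurable.fun_add
      · exact ((hg.comp measurable_fst.fst).fun_const_smul _).fun_const_smul _
      · exact measurable_fst.snd.fun_const_smul _
    · apply Measurable.fun_const_smul
      exact (measurable_pi_apply j).comp measurable_snd.fst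
  have h1 : Measurable fun q : (E d × E d) × ((Fin J → E d) × E d) =>
      rmean5 V s β c w q.1 q.2.1 + √(1 - β ^ 2) • q.2.2 := by
    unfold rmean5
    apply Measurable.fun_add
    · apply Measurable.fun_const_smul
      apply Measurable.fun_sub
      · exact measurable_fst.snd
      · apply Measurable.fun_const_smul
        apply Finset.measurable_fun_sum
        intro j _
        exact (hg.comp (hn j)).fun_const_smul _
    · exact measurable_snd.snd.fun_const_smul _
  exact (measurable_fst.fst.fun_add (h1.fun_const_smul _)).prodMk h1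

lemma mean5_measurable (hg : Measurable (gradient V)) : Measurable (mean5 V s β c w) := by
  unfold mean5
  apply Measurable.fun_const_smul
  apply Measurable.fun_sub
  · exact measurable_snd
  · apply Measurable.fun_const_smul
    apply Finset.measurable_fun_sum
    intro j _
    apply Measurable.fun_const_smul
    have hn : Measurable fun q : (E d × E d) × E d =>
        gradient V (node V s (c j) q.1.1 q.1.2 q.2) := by
      apply hg.comp
      unfold node
      apply measurable_fst.fst.fun_sub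
      apply Measurable.fun_const_smul
      apply Measurable.fun_add
      · apply Measurable.fun_add
        · exact ((hg.comp measurable_fst.fst).fun_const_smul _).fun_const_smul _
        · exact measurable_fst.snd.fun_const_smul _
      · exact measurable_snd.fun_const_smul _
    exact (hn.stronglyMeasurable.integral_prod_right').measurable

lemma nstep5_measurable (hg : Measurable (gradient V)) : Measurable (nstep5 V s β c w) := by
  have h1 : Measurable fun q : (E d × E d) × E d =>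
      mean5 V s β c w q.1 + √(1 - β ^ 2) • q.2 :=
    ((mean5_measurable hg).comp measurable_fst).fun_add (measurable_snd.fun_const_smul _)
  exact (measurable_fst.fst.fun_add (h1.fun_const_smul _)).prodMk h1

variable (V s β c w)

/-- the ideal kernel acting on measures -/
def K (μ : Measure (E d × E d)) : Measure (E d × E d) := (μ.prod (gam d)).map (nstep5 V s β c w)

variable {V s β c w}

instance (d J : ℕ) : IsProbabilityMeasure (aux d J) := by
  unfold aux
  infer_instance

lemma K_map (hg : Measurable (gradient V)) {X : Type} [MeasurableSpace X] (μ : Measure X)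
    [IsProbabilityMeasure μ] (a : X → E d × E d) (ha : Measurable a) :
    K V s β c w (μ.map a) = (μ.prod (gam d)).map fun p => nstep5 V s β c w (a p.1, p.2) := by
  unfold K
  have e1 : (μ.map a).prod (gam d) = (μ.prod (gam d)).map (Prod.map a id) := by
    rw [← Measure.map_prod_map _ _ ha measurable_id, Measure.map_id]
  rw [e1, Measure.map_map (nstep5_measurable hg) (ha.prodMap measurable_id)]
  rfl

/-- the coupling -/
lemma couple (hTVP : S_TVP) (hg : Measurable (gradient V)) {r C : ℝ}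
    (hr : ∀ (q q' : E d × E d) (z : E d),
      √(Phi ((nstep5 V s β c w (q, z)).1 - (nstep5 V s β c w (q', z)).1)
        ((nstep5 V s β c w (q, z)).2 - (nstep5 V s β c w (q', z)).2))
        ≤ r * √(Phi (q.1 - q'.1) (q.2 - q'.2))) (hr0 : 0 ≤ r) (hC : 0 ≤ C)
    (hreg : ∀ (q q' : E d × E d),
      TV (((gam d).prod (gam d)).map fun z => nstep5 V s β c w (nstep5 V s β c w (q, z.1), z.2))
        (((gam d).prod (gam d)).map fun z => nstep5 V s β c w (nstep5 V s β c w (q', z.1), z.2))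
        (C * √(Phi (q.1 - q'.1) (q.2 - q'.2)))) (n : ℕ) :
    ∀ (X : Type) [MeasurableSpace X] (μ : Measure X) [IsProbabilityMeasure μ]
      (a b : X → E d × E d) (ε : X → ℝ), Measurable a → Measurable b → Integrable ε μ →
      (∀ x, √(Phi ((a x).1 - (b x).1) ((a x).2 - (b x).2)) ≤ ε x) →
      TV ((K V s β c w)^[n + 2] (μ.map a)) ((K V s β c w)^[n + 2] (μ.map b))
        (C * (r ^ n * ∫ x, ε x ∂μ)) := by
  induction n with
  | zero =>
    intro X _ μ _ a b ε ha hb hε hab
    have e : ∀ (a : X → E d × E d), Measurable a → (K V s β c w)^[0 + 2] (μ.map a)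
        = (μ.prod ((gam d).prod (gam d))).map
          fun p => nstep5 V s β c w (nstep5 V s β c w (a p.1, p.2.1), p.2.2) := by
      intro a ha
      show K V s β c w (K V s β c w (μ.map a)) = _
      rw [K_map hg μ a ha, K_map hg (μ.prod (gam d)) (fun p => nstep5 V s β c w (a p.1, p.2))
        ((nstep5_measurable hg).comp ((ha.comp measurable_fst).prodMk measurable_snd))]
      rw [← Measure.prodAssoc_prod, Measure.map_map _ MeasurableEquiv.prodAssoc.measurable]
      · rfl
      · exact (nstep5_measurable hg).comp (((nstep5_measurable hg).comp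
          ((ha.comp measurable_fst).prodMk measurable_snd.fst)).prodMk measurable_snd.snd)
    rw [e a ha, e b hb, pow_zero, one_mul, ← integral_const_mul]
    have hF : ∀ a : X → E d × E d, Measurable a → Measurable
        fun p : X × (E d × E d) => nstep5 V s β c w (nstep5 V s β c w (a p.1, p.2.1), p.2.2) := by
      intro a ha
      exact (nstep5_measurable hg).comp (((nstep5_measurable hg).comp
          ((ha.comp measurable_fst).prodMk measurable_snd.fst)).prodMk measurable_snd.snd)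
    exact hTVP _ _ _ _ μ ((gam d).prod (gam d)) ((gam d).prod (gam d)) _ _ (fun x => C * ε x)
      (hF a ha) (hF b hb) (hε.const_mul C)
      (fun x => (hreg (a x) (b x)).mono (mul_le_mul_of_nonneg_left (hab x) hC))
  | succ n ih =>
    intro X _ μ _ a b ε ha hb hε hab
    have e : ∀ (a : X → E d × E d), (K V s β c w)^[n + 1 + 2] (μ.map a)
        = (K V s β c w)^[n + 2] (K V s β c w (μ.map a)) := by
      intro a
      rw [← Function.iterate_succ_apply]
    rw [e a, e b, K_map hg μ a ha, K_map hg μ b hb]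
    have hm : ∀ a : X → E d × E d, Measurable a → Measurable
        fun p : X × E d => nstep5 V s β c w (a p.1, p.2) := by
      intro a ha
      exact (nstep5_measurable hg).comp ((ha.comp measurable_fst).prodMk measurable_snd)
    have h := ih (X × E d) (μ.prod (gam d)) (fun p => nstep5 V s β c w (a p.1, p.2))
      (fun p => nstep5 V s β c w (b p.1, p.2)) (fun p => r * ε p.1) (hm a ha) (hm b hb)
      ((hε.comp_fst (gam d)).const_mul r)
      (fun p => (hr (a p.1) (b p.1) p.2).trans (mul_le_mul_of_nonneg_left (hab p.1) hr0))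
    refine h.mono (le_of_eq ?_)
    rw [integral_const_mul]
    have e2 : ∫ p : X × E d, ε p.1 ∂(μ.prod (gam d)) = ∫ x, ε x ∂μ := by
      rw [integral_fun_fst]
      simp
    rw [e2, pow_succ]
    ring

/-- the iterates of the kernel -/
lemma itm_K (hg : Measurable (gradient V)) (μ : Measure (E d × E d)) [IsProbabilityMeasure μ]
    (n : ℕ) : itm (mk (nstep5 V s β c w) (gam d)) μ n = (K V s β c w)^[n] μ := by
  induction n with
  | zero => rfl
  | succ n ih =>
    have := mk_markov (nstep5 V s β c w) (gam d) (nstep5_measurable hg)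
    have := itm_prob (mk (nstep5 V s β c w) (gam d)) μ n
    rw [Function.iterate_succ_apply', ← ih]
    show (itm (mk (nstep5 V s β c w) (gam d)) μ n).bind (mk (nstep5 V s β c w) (gam d)) = _
    rw [bind_mk (nstep5_measurable hg)]
    rfl

lemma itm_chain (hg : Measurable (gradient V)) (n : ℕ) :
    itm (mk (pstep5 V s β c w) (aux d J)) (Measure.dirac ((0 : E d), (0 : E d))) n
      = chain5 V s β c w n := by
  induction n with
  | zero => rfl
  | succ n ih =>
    have := mk_markov (pstep5 V s β c w) (aux d J) (pstep5_measurable hg)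
    have := itm_prob (mk (pstep5 V s β c w) (aux d J)) (Measure.dirac ((0 : E d), (0 : E d))) n
    show (itm (mk (pstep5 V s β c w) (aux d J)) _ n).bind (mk (pstep5 V s β c w) (aux d J))
      = ((chain5 V s β c w n).prod (aux d J)).map (pstep5 V s β c w)
    rw [bind_mk (pstep5_measurable hg), ih]

/-- chain against ideal chain -/
lemma chain_ideal (hCHN : S_CHN) (hPIN : S_PIN) (hg : Measurable (gradient V)) {e : ℝ}
    (he : 0 ≤ e)
    (h : ∀ q : E d × E d, klDiv ((aux d J).map fun r => pstep5 V s β c w (q, r))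
      ((gam d).map fun z => nstep5 V s β c w (q, z)) ≤ ENNReal.ofReal e) (n : ℕ) :
    TV (chain5 V s β c w n) ((K V s β c w)^[n] (Measure.dirac (0, 0))) (2 * √(n * e)) := by
  have := mk_markov (nstep5 V s β c w) (gam d) (nstep5_measurable hg)
  have := mk_markov (pstep5 V s β c w) (aux d J) (pstep5_measurable hg)
  rw [← itm_K hg, ← itm_chain hg]
  have := itm_prob (mk (nstep5 V s β c w) (gam d)) (Measure.dirac ((0 : E d), (0 : E d))) n
  have := itm_prob (mk (pstep5 V s β c w) (aux d J)) (Measure.dirac ((0 : E d), (0 : E d))) n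
  apply hPIN _ _ _ _ (by positivity)
  refine (hCHN (E d × E d) (Measure.dirac ((0 : E d), (0 : E d)))
    (mk (pstep5 V s β c w) (aux d J)) (mk (nstep5 V s β c w) (gam d))
    (fun _ => ENNReal.ofReal e) measurable_const ?_ n).trans ?_
  · intro q
    rw [mk_apply (pstep5_measurable hg), mk_apply (nstep5_measurable hg)]
    exact h q
  · have : ∀ i ∈ Finset.range n, ∫⁻ _, ENNReal.ofReal e
        ∂(itm (mk (pstep5 V s β c w) (aux d J)) (Measure.dirac ((0 : E d), (0 : E d))) i)
        = ENNReal.ofReal e := by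
      intro i _
      have := itm_prob (mk (pstep5 V s β c w) (aux d J)) (Measure.dirac ((0 : E d), (0 : E d))) i
      rw [lintegral_const, measure_univ, mul_one]
    rw [Finset.sum_congr rfl this, Finset.sum_const, Finset.card_range, nsmul_eq_mul,
      ENNReal.ofReal_mul (by positivity), ENNReal.ofReal_natCast]

lemma cx_mem {β : ℝ} (hβ : 0 < β) (hβ1 : β < 1) {c : Fin J → ℝ} (hc : ∀ j, c j ∈ Ioo (-1 : ℝ) 1) :
    ∀ j, cx β c j ∈ Ioo (-1 : ℝ) 1 := by
  intro j
  unfold cx
  refine Fin.lastCases ?_ (fun i => ?_) j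
  · rw [Fin.snoc_last]
    constructor <;> linarith
  · rw [Fin.snoc_castSucc]
    exact hc i

lemma wx_pos {β : ℝ} (hβ : 0 < β) (hβ1 : β < 1) {w : Fin J → ℝ} (hw : ∀ j, 0 < w j) :
    ∀ j, 0 < wx β w j := by
  intro j
  unfold wx
  refine Fin.lastCases ?_ (fun i => ?_) j
  · rw [Fin.snoc_last]
    have : 0 < 1 - β := by linarith
    positivity
  · rw [Fin.snoc_castSucc]
    exact hw i

lemma wx_sum {β : ℝ} (hβ : 0 < β) {w : Fin J → ℝ} (hw : ∑ j, w j = 2) :
    β * ∑ j, wx β w j = 1 + β := by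
  unfold wx
  rw [Fin.sum_univ_castSucc]
  simp only [Fin.snoc_castSucc, Fin.snoc_last]
  rw [hw]
  field_simp
  ring

lemma real_a {h D : ℝ} (hh : 0 < h) (hh1 : h ≤ 1 / 1000) (hD : 0 ≤ D) :
    D * (h ^ 2 / 4) ^ 4 / (1 - (1 - 2 * h) ^ 2) ^ 2 ≤ h ^ 6 * D := by
  have e : 1 - (1 - 2 * h) ^ 2 = 4 * h * (1 - h) := by ring
  have h1 : 0 < 4 * h * (1 - h) := by nlinarith
  rw [e, div_le_iff₀ (by positivity)]
  have : h ^ 6 * D * (4 * h * (1 - h)) ^ 2 - D * (h ^ 2 / 4) ^ 4
      = D * h ^ 8 * (16 * (1 - h) ^ 2 - 1 / 256) := by ring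
  have h2 : 0 ≤ D * h ^ 8 * (16 * (1 - h) ^ 2 - 1 / 256) := by
    apply mul_nonneg (by positivity)
    nlinarith
  linarith

lemma real_b {h η D : ℝ} (hh : 0 < h) (hh1 : h ≤ 1 / 1000) (hD : 0 ≤ D) :
    (1 - (1 - 2 * h)) ^ 2 * (h ^ 2 / 4) ^ 2 * D + ((h ^ 2 / 4) ^ 4 * D
      + η ^ 2 * (h ^ 2 / 4) ^ 2 * D + (h ^ 2 / 4) ^ 2) / (1 - (1 - 2 * h))
      + D * (h ^ 2 / 4) ^ 4 / (1 - (1 - 2 * h) ^ 2) ^ 2
      ≤ 4 * (h ^ 6 * D + η ^ 2 * h ^ 3 * D + h ^ 3) := by
  have h1 := real_a hh hh1 hD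
  have e1 : (1 - (1 - 2 * h)) ^ 2 * (h ^ 2 / 4) ^ 2 * D = h ^ 6 * D / 4 := by ring
  have e2 : ((h ^ 2 / 4) ^ 4 * D + η ^ 2 * (h ^ 2 / 4) ^ 2 * D + (h ^ 2 / 4) ^ 2) / (1 - (1 - 2 * h))
      = (h ^ 6 * D) * h / 512 + η ^ 2 * h ^ 3 * D / 32 + h ^ 3 / 32 := by
    have : 1 - (1 - 2 * h) = 2 * h := by ring
    rw [this]
    field_simp
    ring
  have h2 : (h ^ 6 * D) * h ≤ (h ^ 6 * D) * 1 :=
    mul_le_mul_of_nonneg_left (by linarith) (by positivity)
  have h3 : 0 ≤ h ^ 6 * D := by positivity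
  have h4 : 0 ≤ η ^ 2 * h ^ 3 * D := by positivity
  have h5 : 0 ≤ h ^ 3 := by positivity
  rw [e1, e2]
  linarith

end

end SUM5

open SUM5 in
theorem sum5 (hINV : S_INV5) (hPHAT : S_PHAT5) (hCONTR : S_CONTR5) (hREG : S_REG5) (hCHN : S_CHN)
    (hPIN : S_PIN) (hMOM : S_MOM) (hLIP : S_LIP) (hTVP : S_TVP) : S_SUM5 := by
  obtain ⟨C1, hC1, hinv⟩ := hINV
  obtain ⟨C2, hC2, hreg⟩ := hREG
  obtain ⟨C3, hC3, hphat⟩ := hPHAT
  refine ⟨2 * √C3 + 2 * C1 + 24 * C2, by positivity, ?_⟩
  intro d J N V h η c w hd hV hh hh1 hη hR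
  have hg := SUM.measurable_grad hV
  have hπ : IsProbabilityMeasure (gibbs V) := (hLIP d V hV).2.2.2.2
  obtain ⟨hm1, hm2, -, -⟩ := hMOM d V hd hV
  have hsq : √(h ^ 2 / 4) = h / 2 := by
    rw [show h ^ 2 / 4 = (h / 2) ^ 2 by ring]
    exact Real.sqrt_sq (by positivity)
  have hs0 : 0 < h ^ 2 / 4 := by positivity
  have hs1 : h ^ 2 / 4 ≤ 1 / 1000 := by nlinarith
  have hβ1 : 1 / 2 ≤ 1 - 2 * h := by linarith
  have hβ0 : 0 < 1 - 2 * h := by linarith
  have hβ2 : 1 - 2 * h < 1 := by linarith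
  have hPt := SUM.Pt_prob (V := V) (s := h ^ 2 / 4) hπ
  have hD : 0 ≤ √(d : ℝ) := Real.sqrt_nonneg _
  have h16 : 16 * (h ^ 2 / 4) ≤ √(1 - (1 - 2 * h) ^ 2) := by
    apply Real.le_sqrt_of_sq_le
    have e : 1 - (1 - 2 * h) ^ 2 = 4 * h * (1 - h) := by ring
    rw [e]
    have : h ^ 3 ≤ h ^ 0 := pow_le_pow_of_le_one hh.le (by linarith) (by norm_num)
    have h3 : h ^ 3 ≤ 1 / 1000 := by
      have : h ^ 3 = h * (h * h) := by ring
      rw [this]
      nlinarith
    nlinarith
  have hcm := cx_mem hβ0 hβ2 hR.mem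
  have hwp := wx_pos hβ0 hβ2 hR.pos
  have hws := wx_sum hβ0 hR.sum
  have hws' : (1 - 2 * h) * ∑ j, wx (1 - 2 * h) w j = 2 - 2 * h := by
    rw [hws]; ring
  set T : ℝ := h ^ 6 * d + η ^ 2 * h ^ 3 * d + h ^ 3 with hT
  have hT0 : 0 ≤ T := by positivity
  have hdd : (0 : ℝ) ≤ d := by positivity
  -- comparison of the two chains
  have ha : ∀ q : E d × E d, klDiv ((aux d (J + 1)).map fun r => pstep5 V (h ^ 2 / 4) (1 - 2 * h)
      (cx (1 - 2 * h) c) (wx (1 - 2 * h) w) (q, r))
      ((gam d).map fun z => nstep5 V (h ^ 2 / 4) (1 - 2 * h)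
      (cx (1 - 2 * h) c) (wx (1 - 2 * h) w) (q, z)) ≤ ENNReal.ofReal (C3 * T) := by
    intro q
    refine (hphat d (J + 1) V (h ^ 2 / 4) (1 - 2 * h) (cx (1 - 2 * h) c) (wx (1 - 2 * h) w) q hd hV
      hs0 hs1 hβ1 hβ2 h16 hcm hwp hws).2.trans (ENNReal.ofReal_le_ofReal ?_)
    have h1 := real_a hh hh1 hdd
    have h2 : C3 * d * (h ^ 2 / 4) ^ 4 / (1 - (1 - 2 * h) ^ 2) ^ 2
        = C3 * (d * (h ^ 2 / 4) ^ 4 / (1 - (1 - 2 * h) ^ 2) ^ 2) := by ring
    rw [h2]
    apply mul_le_mul_of_nonneg_left _ hC3.le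
    refine h1.trans ?_
    rw [hT]
    have h4 : 0 ≤ η ^ 2 * h ^ 3 * d := by positivity
    have h5 : 0 ≤ h ^ 3 := by positivity
    linarith
  have hA := chain_ideal hCHN hPIN hg (mul_nonneg hC3.le hT0) ha (N + 2)
  -- invariance
  have hB := hinv d J (N + 2) V (h ^ 2 / 4) (1 - 2 * h) η c w hd hV hs0 hs1 hβ1 hβ2 h16 hη hR
  rw [itm_K hg] at hB
  -- coupling
  have hr : ∀ (q q' : E d × E d) (z : E d),
      √(Phi ((nstep5 V (h ^ 2 / 4) (1 - 2 * h) (cx (1 - 2 * h) c) (wx (1 - 2 * h) w) (q, z)).1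
          - (nstep5 V (h ^ 2 / 4) (1 - 2 * h) (cx (1 - 2 * h) c) (wx (1 - 2 * h) w) (q', z)).1)
        ((nstep5 V (h ^ 2 / 4) (1 - 2 * h) (cx (1 - 2 * h) c) (wx (1 - 2 * h) w) (q, z)).2
          - (nstep5 V (h ^ 2 / 4) (1 - 2 * h) (cx (1 - 2 * h) c) (wx (1 - 2 * h) w) (q', z)).2))
        ≤ (1 - h / 4) * √(Phi (q.1 - q'.1) (q.2 - q'.2)) := by
    intro q q' z
    have h1 := hCONTR d (J + 1) V h _ _ hV hh hh1 hcm hwp hws' q q' z
    have h2 : (1 - h / 2) * Phi (q.1 - q'.1) (q.2 - q'.2)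
        ≤ (1 - h / 4) ^ 2 * Phi (q.1 - q'.1) (q.2 - q'.2) := by
      apply mul_le_mul_of_nonneg_right
      · nlinarith [sq_nonneg h]
      · unfold Phi; positivity
    have h3 := Real.sqrt_le_sqrt (h1.trans h2)
    rwa [Real.sqrt_mul (by positivity), Real.sqrt_sq (by linarith)] at h3
  have hreg' : ∀ (q q' : E d × E d),
      TV (((gam d).prod (gam d)).map fun z => nstep5 V (h ^ 2 / 4) (1 - 2 * h)
          (cx (1 - 2 * h) c) (wx (1 - 2 * h) w) (nstep5 V (h ^ 2 / 4) (1 - 2 * h)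
          (cx (1 - 2 * h) c) (wx (1 - 2 * h) w) (q, z.1), z.2))
        (((gam d).prod (gam d)).map fun z => nstep5 V (h ^ 2 / 4) (1 - 2 * h)
          (cx (1 - 2 * h) c) (wx (1 - 2 * h) w) (nstep5 V (h ^ 2 / 4) (1 - 2 * h)
          (cx (1 - 2 * h) c) (wx (1 - 2 * h) w) (q', z.1), z.2))
        ((3 * C2 / h ^ 2) * √(Phi (q.1 - q'.1) (q.2 - q'.2))) := by
    intro q q'
    refine (hreg d (J + 1) V h _ _ hV hh hh1 hcm hwp hws' q q').mono ?_
    have h1 := SUM.Phi_sqrt_bound (q.1 - q'.1) (q.2 - q'.2)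
    rw [div_mul_eq_mul_div]
    apply div_le_div_of_nonneg_right _ (by positivity)
    have := mul_le_mul_of_nonneg_left h1 hC2.le
    linarith
  obtain ⟨hi1, hi2⟩ := SUM.Pt_int (V := V) (s := h ^ 2 / 4) hπ hd (by rw [hsq]; linarith) hm1 hm2
  have hC := couple hTVP hg hr (by linarith) (by positivity) hreg' N (E d × E d) (Pt V (h ^ 2 / 4))
    (fun _ => (0, 0)) id (fun q => 2 * ‖q.1‖ + ‖q.2‖) measurable_const measurable_id hi1
    (by
      intro q
      have := SUM.sqrt_Phi_le (0 - q.1) (0 - q.2)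
      simpa using this)
  rw [Measure.map_id, Measure.map_const, measure_univ, one_smul] at hC
  -- conclusion
  have hTT := (hA.trans (hC.trans hB)).map (f := fun q : E d × E d => q.1 - (h / 2) • q.2)
    (by fun_prop)
  have hP : (Pt V (h ^ 2 / 4)).map (fun q => q.1 - (h / 2) • q.2) = gibbs V := by
    have := SUM.Pt_fst (V := V) (s := h ^ 2 / 4) hπ
    rwa [hsq] at this
  rw [hP] at hTT
  refine hTT.mono ?_
  have hr0 : 0 ≤ (1 - h / 4) ^ N := pow_nonneg (by linarith) N
  have k1 : 3 * C2 / h ^ 2 * ((1 - h / 4) ^ N * ∫ q, (2 * ‖q.1‖ + ‖q.2‖) ∂(Pt V (h ^ 2 / 4)))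
      ≤ 24 * C2 * (√d * (1 - h / 4) ^ N / h ^ 2) := by
    have := mul_le_mul_of_nonneg_left (mul_le_mul_of_nonneg_left hi2 hr0)
      (show 0 ≤ 3 * C2 / h ^ 2 by positivity)
    refine this.trans (le_of_eq ?_)
    ring
  have k2 : 0 ≤ √d * (1 - h / 4) ^ N / h ^ 2 := by positivity
  have k3 : 2 * √(((N + 2 : ℕ) : ℝ) * (C3 * T)) = 2 * √C3 * √(((N : ℝ) + 2) * T) := by
    push_cast
    rw [show ((N : ℝ) + 2) * (C3 * T) = C3 * (((N : ℝ) + 2) * T) by ring, Real.sqrt_mul hC3.le]
    ring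
  have k4 := real_b (η := η) hh hh1 hdd
  rw [← hT] at k4
  have k5 : √(((N + 2 : ℕ) : ℝ) * ((1 - (1 - 2 * h)) ^ 2 * (h ^ 2 / 4) ^ 2 * d
      + ((h ^ 2 / 4) ^ 4 * d + η ^ 2 * (h ^ 2 / 4) ^ 2 * d + (h ^ 2 / 4) ^ 2) / (1 - (1 - 2 * h))
      + d * (h ^ 2 / 4) ^ 4 / (1 - (1 - 2 * h) ^ 2) ^ 2)) ≤ 2 * √(((N : ℝ) + 2) * T) := by
    have e : 2 * √(((N : ℝ) + 2) * T) = √(4 * (((N : ℝ) + 2) * T)) := by
      rw [show (4 : ℝ) = 2 ^ 2 by norm_num, Real.sqrt_mul (by norm_num : (0 : ℝ) ≤ 2 ^ 2),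
        Real.sqrt_sq (by norm_num)]
    rw [e]
    apply Real.sqrt_le_sqrt
    push_cast
    have := mul_le_mul_of_nonneg_left k4 (show (0 : ℝ) ≤ (N : ℝ) + 2 by positivity)
    linarith
  have k6 := mul_le_mul_of_nonneg_left k5 hC1.le
  rw [k3]
  set X1 := √(((N : ℝ) + 2) * T)
  set X4 := √d * (1 - h / 4) ^ N / h ^ 2
  have hX1 : 0 ≤ X1 := Real.sqrt_nonneg _
  have k7 : 0 ≤ √C3 * X4 := by positivity
  have k8 : 0 ≤ C1 * X4 := by positivity
  have k9 : 0 ≤ C2 * X1 := by positivity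
  nlinarith

end LCS.Fifth
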