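import Mathlib
import Vale.Agent.P347.Fifth.Defs5
import Vale.Agent.P347.LocBasic
import Vale.Agent.P347.Moll
import Vale.Agent.P347.Mp
import Vale.Agent.P347.CM

/-!
# P347 `1/5`, module TRA (helper20): transfer of a second moment from `γ` to the local measure
-/

namespace LCS.Fifth

namespace TRA

open MeasureTheory ProbabilityTheory Set Filter
open scoped ENNReal NNReal Topology RealInnerProductSpace BigOperators ContDiff Convolution

variable {d : ℕ}

/-- smooth approximation of a Lipschitz function -/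
theorem approx {φ : E d → ℝ} {ℓ : ℝ} (hℓ : 0 ≤ ℓ) (hφ : ∀ x y, |φ x - φ y| ≤ ℓ * ‖x - y‖)
    {r : ℝ} (hr : 0 < r) : ∃ g : E d → ℝ, ContDiff ℝ 1 g ∧ (∀ x, |g x - φ x| ≤ ℓ * r) ∧
      ∀ x, ‖fderiv ℝ g x‖ ≤ ℓ := by
  have hc : Continuous φ := by
    have : LipschitzWith (Real.toNNReal ℓ) φ := by
      refine LipschitzWith.of_dist_le_mul fun x y => ?_
      rw [Real.dist_eq, dist_eq_norm, Real.coe_toNNReal _ hℓ]
      exact hφ x y
    exact this.continuous
  let bump : ContDiffBump (0 : E d) := ⟨r / 2, r, by positivity, by linarith⟩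
  set ρ : E d → ℝ := bump.normed volume with hρdef
  have hρ : ContDiff ℝ ∞ ρ := bump.contDiff_normed
  have hρs : HasCompactSupport ρ := bump.hasCompactSupport_normed
  have hρ0 : ∀ t, 0 ≤ ρ t := fun t => bump.nonneg_normed t
  have hρ1 : ∫ t, ρ t = 1 := bump.integral_normed
  have hρr : ∀ t, ρ t ≠ 0 → ‖t‖ < r := by
    intro t ht
    have : t ∈ Function.support ρ := ht
    rw [hρdef, bump.support_normed_eq] at this
    simpa using this
  set g : E d → ℝ := MOLL.mo ρ φ with hg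
  have hgc : g = (ρ ⋆[ContinuousLinearMap.lsmul ℝ ℝ, volume] φ) := rfl
  have hgs : ContDiff ℝ ∞ g := by
    rw [hgc]
    exact hρs.contDiff_convolution_left _ hρ hc.locallyIntegrable
  have hlip : ∀ x y, |g x - g y| ≤ ℓ * ‖x - y‖ := by
    intro x y
    have i1 := MOLL.integrable_mo hρ.continuous hρs hc x
    have i2 := MOLL.integrable_mo hρ.continuous hρs hc y
    have e1 : g x - g y = ∫ t, (ρ t • φ (x - t) - ρ t • φ (y - t)) := by
      rw [integral_sub i1 i2]; rfl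
    rw [e1]
    have hρi : Integrable ρ volume := hρ.continuous.integrable_of_hasCompactSupport hρs
    have e2 : ℓ * ‖x - y‖ = ∫ t, ρ t * (ℓ * ‖x - y‖) := by rw [integral_mul_const, hρ1, one_mul]
    rw [e2, ← Real.norm_eq_abs]
    refine norm_integral_le_of_norm_le (hρi.mul_const _) (Eventually.of_forall fun t => ?_)
    rw [← smul_sub, norm_smul, Real.norm_eq_abs, abs_of_nonneg (hρ0 t)]
    refine mul_le_mul_of_nonneg_left ?_ (hρ0 t)
    have := hφ (x - t) (y - t)
    rwa [sub_sub_sub_cancel_right] at this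
  refine ⟨g, contDiff_infty.1 hgs 1, ?_, ?_⟩
  · intro x
    rw [← Real.norm_eq_abs, hg]
    apply MOLL.mo_sub_le hρ.continuous hρs hρ0 hρ1 hρr hc
    intro t ht
    refine (hφ _ _).trans ?_
    rw [sub_sub_cancel_left, norm_neg]
    exact mul_le_mul_of_nonneg_left ht.le hℓ
  · intro x
    have hL : LipschitzWith (Real.toNNReal ℓ) g := by
      refine LipschitzWith.of_dist_le_mul fun x y => ?_
      rw [Real.dist_eq, dist_eq_norm, Real.coe_toNNReal _ hℓ]
      exact hlip x y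
    have := norm_fderiv_le_of_lipschitz ℝ hL (x₀ := x)
    rwa [Real.coe_toNNReal _ hℓ] at this

/-- Maurey-Pisier for Lipschitz functions (with an extra constant) -/
theorem mpLip {φ : E d → ℝ} {ℓ : ℝ} (hℓ : 0 ≤ ℓ) (hφ : ∀ x y, |φ x - φ y| ≤ ℓ * ‖x - y‖)
    (t : ℝ) : ∫⁻ y, ∫⁻ z, ENNReal.ofReal (Real.exp (t * (φ y - φ z))) ∂(gam d) ∂(gam d) ≤
      ENNReal.ofReal (Real.exp (1 + Real.pi ^ 2 / 8 * (t ^ 2 * ℓ ^ 2))) := by
  set r : ℝ := 1 / (2 * |t| * ℓ + 1) with hr
  have hden : 0 < 2 * |t| * ℓ + 1 := by positivity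
  have hr0 : 0 < r := by positivity
  have hr1 : 2 * |t| * (ℓ * r) ≤ 1 := by
    rw [hr]
    have : 2 * |t| * (ℓ * (1 / (2 * |t| * ℓ + 1))) = (2 * |t| * ℓ) / (2 * |t| * ℓ + 1) := by
      ring
    rw [this, div_le_one hden]
    linarith
  obtain ⟨g, hg1, hg2, hg3⟩ := approx hℓ hφ hr0
  have h1 := LCS.mp (E d) (fun y => t * g y) (contDiff_const.mul hg1)
  have h2 : ∫⁻ y, ENNReal.ofReal (Real.exp (Real.pi ^ 2 / 8 * ‖fderiv ℝ (fun y => t * g y) y‖ ^ 2))
      ∂(stdGaussian (E d)) ≤ ENNReal.ofReal (Real.exp (Real.pi ^ 2 / 8 * (t ^ 2 * ℓ ^ 2))) := by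
    calc _ ≤ ∫⁻ _, ENNReal.ofReal (Real.exp (Real.pi ^ 2 / 8 * (t ^ 2 * ℓ ^ 2)))
          ∂(stdGaussian (E d)) := by
          refine lintegral_mono fun y => ?_
          apply ENNReal.ofReal_le_ofReal
          apply Real.exp_le_exp.mpr
          refine mul_le_mul_of_nonneg_left ?_ (by positivity)
          rw [fderiv_const_mul (hg1.differentiable (by norm_num) y), norm_smul, mul_pow,
            Real.norm_eq_abs, sq_abs]
          refine mul_le_mul_of_nonneg_left ?_ (sq_nonneg _)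
          exact pow_le_pow_left₀ (norm_nonneg _) (hg3 y) 2
      _ = _ := by simp
  have h3 : ∫⁻ y, ∫⁻ z, ENNReal.ofReal (Real.exp (t * (φ y - φ z))) ∂(gam d) ∂(gam d) ≤
      ∫⁻ y, ∫⁻ z, ENNReal.ofReal (Real.exp 1) * ENNReal.ofReal (Real.exp (t * g y - t * g z))
        ∂(gam d) ∂(gam d) := by
    refine lintegral_mono fun y => lintegral_mono fun z => ?_
    simp only
    rw [← ENNReal.ofReal_mul (Real.exp_pos _).le, ← Real.exp_add]
    apply ENNReal.ofReal_le_ofReal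
    apply Real.exp_le_exp.mpr
    have a1 : t * (φ y - φ z) = t * (g y - g z) - t * (g y - φ y) + t * (g z - φ z) := by ring
    have a2 : -(t * (g y - φ y)) ≤ |t| * (ℓ * r) := by
      calc _ ≤ |t * (g y - φ y)| := neg_le_abs _
        _ = |t| * |g y - φ y| := abs_mul _ _
        _ ≤ _ := mul_le_mul_of_nonneg_left (hg2 y) (abs_nonneg _)
    have a3 : t * (g z - φ z) ≤ |t| * (ℓ * r) := by
      calc _ ≤ |t * (g z - φ z)| := le_abs_self _
        _ = |t| * |g z - φ z| := abs_mul _ _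
        _ ≤ _ := mul_le_mul_of_nonneg_left (hg2 z) (abs_nonneg _)
    rw [a1]
    have a4 : t * (g y - g z) = t * g y - t * g z := by ring
    rw [a4]
    linarith
  refine h3.trans ?_
  have hgc : Continuous g := hg1.continuous
  have h4 : ∀ y, ∫⁻ z, ENNReal.ofReal (Real.exp 1) * ENNReal.ofReal (Real.exp (t * g y - t * g z))
        ∂(gam d) = ENNReal.ofReal (Real.exp 1) *
          ∫⁻ z, ENNReal.ofReal (Real.exp (t * g y - t * g z)) ∂(gam d) := by
    intro y
    rw [lintegral_const_mul]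
    fun_prop
  simp only [h4]
  rw [lintegral_const_mul' _ _ ENNReal.ofReal_ne_top, Real.exp_add,
    ENNReal.ofReal_mul (Real.exp_pos _).le]
  gcongr
  exact h1.trans h2

/-- linearisation of a square -/
theorem lin (c : ℝ) : ∫⁻ x : E 1, ENNReal.ofReal (Real.exp (c * x 0)) ∂(gam 1) =
    ENNReal.ofReal (Real.exp (c ^ 2 / 2)) := by
  have h := MP.mgf_std (G := E 1) (EuclideanSpace.proj 0 : E 1 →L[ℝ] ℝ) c
  have hn : ‖(EuclideanSpace.proj 0 : E 1 →L[ℝ] ℝ)‖ = 1 := by
    apply le_antisymm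
    · refine ContinuousLinearMap.opNorm_le_bound _ zero_le_one fun x => ?_
      rw [one_mul]
      exact PiLp.norm_apply_le x 0
    · have := (EuclideanSpace.proj 0 : E 1 →L[ℝ] ℝ).le_opNorm (EuclideanSpace.single 0 1)
      simpa using this
  rw [hn] at h
  simpa using h

theorem sq_norm_one (x : E 1) : ‖x‖ ^ 2 = (x 0) ^ 2 := by
  rw [EuclideanSpace.norm_sq_eq]
  simp

/-- exponential moment of the square of a difference -/
theorem expSq {φ : E d → ℝ} {ℓ : ℝ} (hℓ : 0 < ℓ) (hφ : ∀ x y, |φ x - φ y| ≤ ℓ * ‖x - y‖) :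
    ∫⁻ y, ∫⁻ z, ENNReal.ofReal (Real.exp ((φ y - φ z) ^ 2 / (10 * ℓ ^ 2))) ∂(gam d) ∂(gam d) ≤
      ENNReal.ofReal 6 := by
  have hc : Continuous φ := by
    have : LipschitzWith (Real.toNNReal ℓ) φ := by
      refine LipschitzWith.of_dist_le_mul fun x y => ?_
      rw [Real.dist_eq, dist_eq_norm, Real.coe_toNNReal _ hℓ.le]
      exact hφ x y
    exact this.continuous
  set v : ℝ := 1 / (5 * ℓ ^ 2) with hv
  have hv0 : 0 < v := by positivity
  have hsv : √v ^ 2 = v := Real.sq_sqrt hv0.le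
  have h1 : ∀ y z : E d, ENNReal.ofReal (Real.exp ((φ y - φ z) ^ 2 / (10 * ℓ ^ 2))) =
      ∫⁻ x : E 1, ENNReal.ofReal (Real.exp ((√v * x 0) * (φ y - φ z))) ∂(gam 1) := by
    intro y z
    have := lin (√v * (φ y - φ z))
    have e1 : (√v * (φ y - φ z)) ^ 2 / 2 = (φ y - φ z) ^ 2 / (10 * ℓ ^ 2) := by
      rw [mul_pow, hsv, hv]; field_simp; ring
    rw [e1] at this
    rw [← this]
    refine lintegral_congr fun x => ?_
    congr 2; ring
  simp only [h1]
  have hswap1 : ∀ y, ∫⁻ z, ∫⁻ x : E 1, ENNReal.ofReal (Real.exp ((√v * x 0) * (φ y - φ z)))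
      ∂(gam 1) ∂(gam d) = ∫⁻ x : E 1, ∫⁻ z, ENNReal.ofReal (Real.exp ((√v * x 0) * (φ y - φ z)))
      ∂(gam d) ∂(gam 1) := by
    intro y
    rw [lintegral_lintegral_swap]
    apply Measurable.aemeasurable
    apply Measurable.ennreal_ofReal
    apply Continuous.measurable
    fun_prop
  simp only [hswap1]
  rw [lintegral_lintegral_swap]
  swap
  · apply Measurable.aemeasurable
    unfold Function.uncurry
    have : Measurable fun q : (E d × E 1) × E d =>
        ENNReal.ofReal (Real.exp ((√v * q.1.2 0) * (φ q.1.1 - φ q.2))) := by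
      apply Measurable.ennreal_ofReal
      apply Continuous.measurable
      fun_prop
    exact this.lintegral_prod_right'
  have h2 : ∀ x : E 1, ∫⁻ y, ∫⁻ z, ENNReal.ofReal (Real.exp ((√v * x 0) * (φ y - φ z)))
      ∂(gam d) ∂(gam d) ≤ ENNReal.ofReal (Real.exp 1) *
        ENNReal.ofReal (Real.exp (Real.pi ^ 2 / 40 * ‖x‖ ^ 2)) := by
    intro x
    refine (mpLip hℓ.le hφ (√v * x 0)).trans ?_
    rw [← ENNReal.ofReal_mul (Real.exp_pos _).le, ← Real.exp_add]
    apply ENNReal.ofReal_le_ofReal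
    apply Real.exp_le_exp.mpr
    rw [sq_norm_one, mul_pow, hsv, hv]
    apply le_of_eq
    field_simp
    ring
  refine (lintegral_mono h2).trans ?_
  rw [lintegral_const_mul' _ _ ENNReal.ofReal_ne_top]
  obtain ⟨-, -, hexp⟩ := LCS.cm 1
  have hpi : Real.pi ^ 2 < 10 := by
    have := Real.pi_lt_d2
    have h0 := Real.pi_pos
    nlinarith
  obtain ⟨hi, he⟩ := hexp (Real.pi ^ 2 / 40) (by linarith)
  rw [← ofReal_integral_eq_lintegral_ofReal hi (ae_of_all _ fun x => (Real.exp_pos _).le), he,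
    ← ENNReal.ofReal_mul (Real.exp_pos _).le]
  apply ENNReal.ofReal_le_ofReal
  have hx0 : (1 / 2 : ℝ) ≤ 1 - 2 * (Real.pi ^ 2 / 40) := by linarith
  have hb : (1 - 2 * (Real.pi ^ 2 / 40)) ^ (-((1 : ℕ) : ℝ) / 2) ≤ 2 := by
    calc (1 - 2 * (Real.pi ^ 2 / 40)) ^ (-((1 : ℕ) : ℝ) / 2)
        ≤ (1 / 2 : ℝ) ^ (-((1 : ℕ) : ℝ) / 2) :=
          Real.rpow_le_rpow_of_nonpos (by norm_num) hx0 (by norm_num)
      _ ≤ (1 / 2 : ℝ) ^ (-1 : ℝ) :=
          Real.rpow_le_rpow_of_exponent_ge (by norm_num) (by norm_num) (by norm_num)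
      _ = 2 := by rw [Real.rpow_neg_one]; norm_num
  have hee : Real.exp 1 ≤ 3 := by
    have := Real.exp_one_lt_d9
    linarith
  have hpos : 0 ≤ (1 - 2 * (Real.pi ^ 2 / 40)) ^ (-((1 : ℕ) : ℝ) / 2) :=
    Real.rpow_nonneg (by linarith) _
  nlinarith [Real.exp_pos 1]

/-- exponential moment of the square -/
theorem expMom {φ : E d → ℝ} {ℓ e : ℝ} (hℓ : 0 < ℓ) (hφ : ∀ x y, |φ x - φ y| ≤ ℓ * ‖x - y‖)
    (he : ∫⁻ y, ENNReal.ofReal (φ y ^ 2) ∂(gam d) ≤ ENNReal.ofReal (e ^ 2)) :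
    ∫⁻ y, ENNReal.ofReal (Real.exp (φ y ^ 2 / (20 * ℓ ^ 2))) ∂(gam d) ≤
      ENNReal.ofReal (12 * Real.exp (2 * e ^ 2 / (10 * ℓ ^ 2) + 1 / 10)) := by
  have hc : Continuous φ := by
    have : LipschitzWith (Real.toNNReal ℓ) φ := by
      refine LipschitzWith.of_dist_le_mul fun x y => ?_
      rw [Real.dist_eq, dist_eq_norm, Real.coe_toNNReal _ hℓ.le]
      exact hφ x y
    exact this.continuous
  set b : ℝ := 2 * e ^ 2 + ℓ ^ 2 with hb
  have hb0 : 0 < b := by positivity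
  set G : Set (E d) := {z | φ z ^ 2 < b} with hG
  have hGm : MeasurableSet G := measurableSet_lt (by fun_prop) (by fun_prop)
  have hGc : (gam d) Gᶜ ≤ ENNReal.ofReal (1 / 2) := by
    have h1 := mul_meas_ge_le_lintegral₀ (μ := gam d) (f := fun y => ENNReal.ofReal (φ y ^ 2))
      (by fun_prop) (ENNReal.ofReal b)
    have h2 : Gᶜ = {x | ENNReal.ofReal b ≤ ENNReal.ofReal (φ x ^ 2)} := by
      ext x
      simp only [hG, mem_compl_iff, mem_ofPred_eq, not_lt]
      rw [ENNReal.ofReal_le_ofReal_iff (sq_nonneg _)]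
    rw [← h2] at h1
    have h3 : ENNReal.ofReal b * (gam d) Gᶜ ≤ ENNReal.ofReal b * ENNReal.ofReal (1 / 2) := by
      refine (h1.trans he).trans ?_
      rw [← ENNReal.ofReal_mul hb0.le]
      apply ENNReal.ofReal_le_ofReal
      nlinarith [sq_nonneg ℓ]
    exact (ENNReal.mul_le_mul_iff_right (by simpa using hb0) ENNReal.ofReal_ne_top).1 h3
  have hGh : ENNReal.ofReal (1 / 2) ≤ (gam d) G := by
    have h1 := prob_add_prob_compl (μ := gam d) hGm
    by_contra hcon
    push Not at hcon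
    have h2 : (gam d) G + (gam d) Gᶜ < ENNReal.ofReal (1 / 2) + ENNReal.ofReal (1 / 2) :=
      ENNReal.add_lt_add_of_lt_of_le ((hGc.trans_lt ENNReal.ofReal_lt_top).ne) hcon hGc
    rw [h1, ← ENNReal.ofReal_add (by norm_num) (by norm_num)] at h2
    norm_num at h2
  set I : ℝ≥0∞ := ∫⁻ y, ENNReal.ofReal (Real.exp (φ y ^ 2 / (20 * ℓ ^ 2))) ∂(gam d) with hI
  have h4 : I * ENNReal.ofReal (1 / 2) ≤
      ENNReal.ofReal (Real.exp (2 * e ^ 2 / (10 * ℓ ^ 2) + 1 / 10)) * ENNReal.ofReal 6 := by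
    calc I * ENNReal.ofReal (1 / 2) ≤ I * (gam d) G := by gcongr
      _ = ∫⁻ y, ∫⁻ z, G.indicator (fun _ => ENNReal.ofReal (Real.exp (φ y ^ 2 / (20 * ℓ ^ 2)))) z
          ∂(gam d) ∂(gam d) := by
          have : ∀ y, ∫⁻ z, G.indicator
              (fun _ => ENNReal.ofReal (Real.exp (φ y ^ 2 / (20 * ℓ ^ 2)))) z ∂(gam d) =
              ENNReal.ofReal (Real.exp (φ y ^ 2 / (20 * ℓ ^ 2))) * (gam d) G := by
            intro y
            rw [lintegral_indicator hGm, setLIntegral_const]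
          simp only [this]
          rw [lintegral_mul_const]
          fun_prop
      _ ≤ ∫⁻ y, ∫⁻ z, ENNReal.ofReal (Real.exp (2 * e ^ 2 / (10 * ℓ ^ 2) + 1 / 10)) *
          ENNReal.ofReal (Real.exp ((φ y - φ z) ^ 2 / (10 * ℓ ^ 2))) ∂(gam d) ∂(gam d) := by
          refine lintegral_mono fun y => lintegral_mono fun z => ?_
          by_cases hz : z ∈ G
          · simp only [indicator_of_mem hz]
            rw [← ENNReal.ofReal_mul (Real.exp_pos _).le, ← Real.exp_add]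
            apply ENNReal.ofReal_le_ofReal
            apply Real.exp_le_exp.mpr
            have hz' : φ z ^ 2 < b := hz
            have e1 : 2 * e ^ 2 / (10 * ℓ ^ 2) + 1 / 10 = b / (10 * ℓ ^ 2) := by
              rw [hb]; field_simp
            rw [e1, ← add_div, div_le_div_iff₀ (by positivity) (by positivity)]
            have h5 : φ y ^ 2 ≤ 2 * (b + (φ y - φ z) ^ 2) := by
              nlinarith [sq_nonneg (φ y - 2 * φ z)]
            have h6 : (0 : ℝ) < 10 * ℓ ^ 2 := by positivity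
            nlinarith
          · simp only [indicator_of_notMem hz]
            exact zero_le
      _ ≤ _ := by
          have : ∀ y, ∫⁻ z, ENNReal.ofReal (Real.exp (2 * e ^ 2 / (10 * ℓ ^ 2) + 1 / 10)) *
              ENNReal.ofReal (Real.exp ((φ y - φ z) ^ 2 / (10 * ℓ ^ 2))) ∂(gam d) =
              ENNReal.ofReal (Real.exp (2 * e ^ 2 / (10 * ℓ ^ 2) + 1 / 10)) *
              ∫⁻ z, ENNReal.ofReal (Real.exp ((φ y - φ z) ^ 2 / (10 * ℓ ^ 2))) ∂(gam d) := by
            intro y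
            rw [lintegral_const_mul' _ _ ENNReal.ofReal_ne_top]
          simp only [this]
          rw [lintegral_const_mul' _ _ ENNReal.ofReal_ne_top]
          gcongr
          exact expSq hℓ hφ
  have h7 : I = I * ENNReal.ofReal (1 / 2) * ENNReal.ofReal 2 := by
    rw [mul_assoc, ← ENNReal.ofReal_mul (by norm_num)]
    norm_num
  rw [h7]
  calc I * ENNReal.ofReal (1 / 2) * ENNReal.ofReal 2 ≤
      (ENNReal.ofReal (Real.exp (2 * e ^ 2 / (10 * ℓ ^ 2) + 1 / 10)) * ENNReal.ofReal 6) *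
        ENNReal.ofReal 2 := by gcongr
    _ = _ := by
      rw [mul_assoc, ← ENNReal.ofReal_mul (by norm_num), ← ENNReal.ofReal_mul (Real.exp_pos _).le]
      congr 1; ring

/-- the exponential moment under the local measure -/
theorem locMom {f : E d → ℝ} (hf : Continuous f) (hi : Integrable (fun y => Real.exp (-f y)) (gam d))
    (hi2 : Integrable (fun y => Real.exp (-2 * f y)) (gam d)) {R K : ℝ} (hK : 0 ≤ K)
    (hR : ∫ y, Real.exp (-2 * f y) ∂(gam d) ≤
      Real.exp R * (∫ y, Real.exp (-f y) ∂(gam d)) ^ 2) {ψ : E d → ℝ} (hψ : Continuous ψ)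
    (hm : ∫⁻ y, ENNReal.ofReal (Real.exp (2 * ψ y)) ∂(gam d) ≤ ENNReal.ofReal K) :
    ∫⁻ y, ENNReal.ofReal (Real.exp (ψ y)) ∂(loc f) ≤ ENNReal.ofReal (√(Real.exp R * K)) := by
  have hZ := Zf_pos hi
  rw [loc, lintegral_smul_measure, lintegral_withDensity_eq_lintegral_mul₀ (by fun_prop) (by fun_prop),
    lintegral_Zf hi, smul_eq_mul]
  have h1 := ENNReal.lintegral_mul_le_Lp_mul_Lq (gam d) Real.HolderConjugate.two_two
      (f := fun y => ENNReal.ofReal (Real.exp (-f y)))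
      (g := fun y => ENNReal.ofReal (Real.exp (ψ y))) (by fun_prop) (by fun_prop)
  have e2 : ∫⁻ y, ENNReal.ofReal (Real.exp (-f y)) ^ (2 : ℝ) ∂(gam d) =
      ENNReal.ofReal (∫ y, Real.exp (-2 * f y) ∂(gam d)) := by
    rw [ofReal_integral_eq_lintegral_ofReal hi2 (ae_of_all _ fun y => (Real.exp_pos _).le)]
    refine lintegral_congr fun y => ?_
    rw [ENNReal.ofReal_rpow_of_pos (Real.exp_pos _), ← Real.exp_mul]
    congr 2; ring
  have e3 : ∫⁻ y, ENNReal.ofReal (Real.exp (ψ y)) ^ (2 : ℝ) ∂(gam d) =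
      ∫⁻ y, ENNReal.ofReal (Real.exp (2 * ψ y)) ∂(gam d) := by
    refine lintegral_congr fun y => ?_
    rw [ENNReal.ofReal_rpow_of_pos (Real.exp_pos _), ← Real.exp_mul]
    congr 2; ring
  rw [e2, e3] at h1
  have h2 : ∫⁻ y, ((fun y => ENNReal.ofReal (Real.exp (-f y))) *
      fun y => ENNReal.ofReal (Real.exp (ψ y))) y ∂(gam d) ≤
      ENNReal.ofReal (√(Real.exp R * Zf f ^ 2) * √K) := by
    refine h1.trans ?_
    rw [ENNReal.ofReal_mul (Real.sqrt_nonneg _)]
    gcongr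
    · rw [ENNReal.ofReal_rpow_of_nonneg (integral_nonneg fun y => (Real.exp_pos _).le)
        (by norm_num), ← Real.sqrt_eq_rpow]
      apply ENNReal.ofReal_le_ofReal
      exact Real.sqrt_le_sqrt hR
    · calc _ ≤ (ENNReal.ofReal K) ^ (1 / 2 : ℝ) := by gcongr
        _ = _ := by
          rw [ENNReal.ofReal_rpow_of_nonneg hK (by norm_num), ← Real.sqrt_eq_rpow]
  calc (ENNReal.ofReal (Zf f))⁻¹ * ∫⁻ y, ((fun y => ENNReal.ofReal (Real.exp (-f y))) *
      fun y => ENNReal.ofReal (Real.exp (ψ y))) y ∂(gam d)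
      ≤ (ENNReal.ofReal (Zf f))⁻¹ * ENNReal.ofReal (√(Real.exp R * Zf f ^ 2) * √K) := by gcongr
    _ = ENNReal.ofReal (√(Real.exp R * K)) := by
      rw [← ENNReal.ofReal_inv_of_pos hZ, ← ENNReal.ofReal_mul (inv_nonneg.mpr hZ.le)]
      congr 1
      rw [Real.sqrt_mul (Real.exp_pos _).le, Real.sqrt_mul (Real.exp_pos _).le,
        Real.sqrt_sq hZ.le]
      field_simp

end TRA

open MeasureTheory ProbabilityTheory Set Filter
open scoped ENNReal NNReal Topology RealInnerProductSpace BigOperators ContDiff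

open TRA in
theorem tra (hREN : S_REN) : S_TRA := by
  obtain ⟨C, hC, hren⟩ := hREN
  refine ⟨20 * C + 160, by positivity, ?_⟩
  intro d s A ℓ e f X hs hs' hA hf hℓ he0 hX hLip he
  obtain ⟨hi, hi2, hR⟩ := hren d s A f hs hs' hA hf
  have hfc : Continuous f := hf.smooth.continuous
  have := loc_prob hi
  set φ : E d → ℝ := fun y => ‖X y‖ with hφdef
  have hφ : ∀ x y, |φ x - φ y| ≤ ℓ * ‖x - y‖ := fun x y =>
    (abs_norm_sub_norm_le _ _).trans (hLip x y)
  have hφc : Continuous φ := hX.norm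
  have hmom := expMom hℓ hφ he
  set R : ℝ := C * (s * A) ^ 2 with hRdef
  set q : ℝ := 2 * e ^ 2 / (10 * ℓ ^ 2) with hq
  have hq0 : 0 ≤ q := by positivity
  have hR0 : 0 ≤ R := by positivity
  have hloc := locMom hfc hi hi2 (K := 12 * Real.exp (q + 1 / 10)) (by positivity) hR
    (ψ := fun y => φ y ^ 2 / (40 * ℓ ^ 2)) (by fun_prop) (by
      refine le_trans (le_of_eq ?_) hmom
      refine lintegral_congr fun y => ?_
      congr 2
      field_simp
      ring)
  set T : ℝ := R / 2 + q / 2 with hT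
  have hT0 : 0 ≤ T := by positivity
  have hroot : √(Real.exp R * (12 * Real.exp (q + 1 / 10))) ≤ 4 * Real.exp T := by
    rw [Real.sqrt_le_left (by positivity)]
    have e1 : (4 * Real.exp T) ^ 2 = 16 * Real.exp (R + q) := by
      rw [mul_pow, ← Real.exp_nat_mul, hT]
      norm_num
      ring
    have e2 : Real.exp R * (12 * Real.exp (q + 1 / 10)) =
        12 * Real.exp (1 / 10) * Real.exp (R + q) := by
      rw [Real.exp_add, Real.exp_add]; ring
    rw [e1, e2]
    have h3 : Real.exp (1 / 10) ≤ 4 / 3 := by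
      have h4 := Real.exp_one_lt_d9
      have h5 : Real.exp (1 / 10) ^ 10 = Real.exp 1 := by
        rw [← Real.exp_nat_mul]; norm_num
      by_contra hcon
      push Not at hcon
      have h6 : (4 / 3 : ℝ) ^ 10 < Real.exp (1 / 10) ^ 10 :=
        pow_lt_pow_left₀ hcon (by norm_num) (by norm_num)
      rw [h5] at h6
      norm_num at h6
      linarith
    nlinarith [Real.exp_pos (R + q)]
  have hpt : ∀ y, ‖X y‖ ^ 2 ≤ 40 * ℓ ^ 2 * T +
      40 * ℓ ^ 2 * Real.exp (-T) * Real.exp (φ y ^ 2 / (40 * ℓ ^ 2)) := by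
    intro y
    have h1 := Real.add_one_le_exp (φ y ^ 2 / (40 * ℓ ^ 2) - T)
    have h2 : φ y ^ 2 / (40 * ℓ ^ 2) ≤ T + Real.exp (-T) * Real.exp (φ y ^ 2 / (40 * ℓ ^ 2)) := by
      rw [← Real.exp_add]
      have : -T + φ y ^ 2 / (40 * ℓ ^ 2) = φ y ^ 2 / (40 * ℓ ^ 2) - T := by ring
      rw [this]
      linarith
    rw [div_le_iff₀ (by positivity)] at h2
    calc ‖X y‖ ^ 2 = φ y ^ 2 := rfl
      _ ≤ _ := h2
      _ = _ := by ring
  calc ∫⁻ y, ENNReal.ofReal (‖X y‖ ^ 2) ∂(loc f)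
      ≤ ∫⁻ y, (ENNReal.ofReal (40 * ℓ ^ 2 * T) + ENNReal.ofReal (40 * ℓ ^ 2 * Real.exp (-T)) *
          ENNReal.ofReal (Real.exp (φ y ^ 2 / (40 * ℓ ^ 2)))) ∂(loc f) := by
        refine lintegral_mono fun y => ?_
        simp only
        rw [← ENNReal.ofReal_mul (by positivity), ← ENNReal.ofReal_add (by positivity)
          (by positivity)]
        exact ENNReal.ofReal_le_ofReal (hpt y)
    _ = ENNReal.ofReal (40 * ℓ ^ 2 * T) + ENNReal.ofReal (40 * ℓ ^ 2 * Real.exp (-T)) *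
          ∫⁻ y, ENNReal.ofReal (Real.exp (φ y ^ 2 / (40 * ℓ ^ 2))) ∂(loc f) := by
        rw [lintegral_add_left (by fun_prop), lintegral_const_mul' _ _ ENNReal.ofReal_ne_top]
        simp
    _ ≤ ENNReal.ofReal (40 * ℓ ^ 2 * T) + ENNReal.ofReal (40 * ℓ ^ 2 * Real.exp (-T)) *
          ENNReal.ofReal (4 * Real.exp T) := by
        gcongr
        exact hloc.trans (ENNReal.ofReal_le_ofReal hroot)
    _ ≤ _ := by
        rw [← ENNReal.ofReal_mul (by positivity), ← ENNReal.ofReal_add (by positivity)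
          (by positivity)]
        apply ENNReal.ofReal_le_ofReal
        have e1 : 40 * ℓ ^ 2 * Real.exp (-T) * (4 * Real.exp T) = 160 * ℓ ^ 2 := by
          have : Real.exp (-T) * Real.exp T = 1 := by rw [← Real.exp_add]; simp
          linear_combination 160 * ℓ ^ 2 * this
        have e2 : 40 * ℓ ^ 2 * (q / 2) = 4 * e ^ 2 := by
          rw [hq]; field_simp; ring
        have e3 : 40 * ℓ ^ 2 * T = 20 * ℓ ^ 2 * R + 4 * e ^ 2 := by
          rw [hT, mul_add, e2]; ring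
        rw [e1, e3, hRdef]
        have p1 : 0 ≤ e ^ 2 := sq_nonneg _
        have p2 : 0 ≤ ℓ ^ 2 := sq_nonneg _
        have p3 : 0 ≤ (s * A) ^ 2 := sq_nonneg _
        nlinarith [mul_nonneg hC.le p1, mul_nonneg hC.le p2, mul_nonneg p2 p3]

end LCS.Fifth
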