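import Vale.Agent.P347.Alg
import Vale.Agent.P347.CM
import Vale.Agent.P347.SHIFT
import Vale.Agent.P347.Mom
import Vale.Agent.P347.Lip
import Vale.Agent.P347.TV3
import Vale.Agent.P347.TVBasic
import Vale.Agent.P347.Quad
import Vale.Agent.P347.Pin
import Vale.Agent.P347.Fifth.KLI
import Vale.Agent.P347.Fifth.HYB
import Vale.Agent.P347.Fifth.Gkl
import Vale.Agent.P347.Fifth.Nkl
import Vale.Agent.P347.Fifth.Tra
import Vale.Agent.P347.Fifth.Ql
import Vale.Agent.P347.Fifth.Path5
import Vale.Agent.P347.Fifth.LKL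
import Vale.Agent.P347.Fifth.Exk
import Vale.Agent.P347.Fifth.Fib
import Vale.Agent.P347.Fifth.Gin
import Vale.Agent.P347.Fifth.Phat5
import Vale.Agent.P347.Fifth.Contr5
import Vale.Agent.P347.Fifth.REG5
import Vale.Agent.P347.Fifth.Sum5
import Vale.Agent.P347.Fifth.Alg5
import Vale.Agent.P347.Fifth.Final5
import Vale.Agent.P347.Fifth.INV5
import Vale.Agent.P347.Fifth.Gib
import Vale.Agent.P347.Fifth.Gst
import Vale.Agent.P347.Fifth.Mea
import Vale.Agent.P347.Fifth.Rot5

/-! # P347: assembly of the modules for `1/5` -/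

namespace LCS.Fifth

/-- Pinsker, in the form of the module statement -/
theorem pin5 : S_PIN := fun _ _ μ ν _ _ ε hε h => LCS.pin μ ν ε hε h

/-- the assembly -/
theorem all5 : S_FINAL5 := by
  have hCHN : S_CHN := chn kli
  have hHYB : S_HYB := hyb hCHN pin5
  have hLKL : S_LKL := lkl gkl gib path5
  have hGIN : S_GIN := gin rot5 gib
  have hGST : S_GST := gst_ql_fib (ql (tra ren)) fib
  have hMEA : S_MEA := mea nkl path5 fib
  have hINV : S_INV5 := inv5 hHYB hLKL exk hGIN hGST hMEA hCHN pin5 kli fib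
  have hREG : S_REG5 := reg5 lip shift tvp tvl
  have hSUM : S_SUM5 := sum5 hINV (phat5 nkl) contr5 hREG hCHN pin5 (mom lip cm) lip tvp
  exact final5 hSUM alg5 quad

end LCS.Fifth
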