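import Mathlib
import Vale.Agent.P347.Bridge
import Vale.Agent.P347.Fifth.All5

/-! # P347: from `LCS.Fifth` to the final form of the statement, exponent `1/5` -/

namespace LogConcaveSampling.Fifth

open MeasureTheory Filter LCS

theorem eventually_le (hF : LCS.Fifth.S_FINAL5) (ε : ℝ) (hε : 0 < ε) : ∀ᶠ d : ℕ in atTop,
    QueriesSuffice (EuclideanSpace ℝ (Fin d)) (queryComplexity d) ∧
      (queryComplexity d : ℝ) ≤ (d : ℝ) ^ (1 / 5 + ε) := by
  filter_upwards [hF.1 ε hε] with d hd
  have h1 : QueriesSuffice (E d) (Q d) := suffices_of hd.1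
  have hne : {q | QueriesSuffice (E d) q}.Nonempty := ⟨_, h1⟩
  refine ⟨Nat.sInf_mem hne, ?_⟩
  have h2 : queryComplexity d ≤ Q d := Nat.sInf_le h1
  have h3 : (queryComplexity d : ℝ) ≤ (Q d : ℝ) := by exact_mod_cast h2
  exact h3.trans hd.2

theorem log_ratio_le (hF : LCS.Fifth.S_FINAL5) (ε : ℝ) (hε : 0 < ε) : ∀ᶠ d : ℕ in atTop,
    Real.log (queryComplexity d) / Real.log d ≤ 1 / 5 + ε := by
  filter_upwards [eventually_le hF ε hε, eventually_ge_atTop 2] with d hd hd2
  have hd1 : (1 : ℝ) < d := by exact_mod_cast hd2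
  have hl : 0 < Real.log d := Real.log_pos hd1
  rw [div_le_iff₀ hl]
  rcases Nat.eq_zero_or_pos (queryComplexity d) with h0 | h0
  · rw [h0]; simp only [Nat.cast_zero, Real.log_zero]; positivity
  · have h1 : (0 : ℝ) < queryComplexity d := by exact_mod_cast h0
    calc Real.log (queryComplexity d) ≤ Real.log ((d : ℝ) ^ (1 / 5 + ε)) :=
          Real.log_le_log h1 hd.2
      _ = (1 / 5 + ε) * Real.log d := Real.log_rpow (by linarith) _

theorem limsup_le (hF : LCS.Fifth.S_FINAL5) :
    limsup (fun d : ℕ => Real.log (queryComplexity d) / Real.log d) atTop ≤ 1 / 5 := by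
  refine le_of_forall_pos_le_add fun ε hε => ?_
  refine limsup_le_of_le ?_ (log_ratio_le hF ε hε)
  exact IsCoboundedUnder.of_frequently_ge (a := 0)
    (Frequently.of_forall fun d => log_ratio_nonneg d)

end LogConcaveSampling.Fifth
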