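import Mathlib
import Vale.Agent.P347.Fifth.Defs5
import Vale.Agent.P347.Base
import Vale.Agent.P347.LocBasic
import Vale.Agent.P347.MeanBasic

/-! # P347 (exponent `1/5`), module LKL -/

namespace LCS.Fifth

open MeasureTheory ProbabilityTheory Set Filter InformationTheory
open scoped ENNReal NNReal Topology RealInnerProductSpace BigOperators ContDiff

namespace LKL

variable {d : ℕ} {s A : ℝ} {f : E d → ℝ}

theorem intn : Integrable (fun z : E d => ‖z‖) (gam d) := LCS.integrable_norm_gam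

theorem integrable_grad_aff (h : Loc d s A f) (hs : 0 ≤ s) (a : E d) (t : ℝ) :
    Integrable (fun z : E d => gradient f (a + t • z)) (gam d) := by
  have h2 : Integrable (fun z : E d => s * A + 2 * s * (‖a‖ + |t| * ‖z‖)) (gam d) :=
    (integrable_const _).add (((integrable_const _).add (intn.const_mul _)).const_mul _)
  refine h2.mono' ((h.continuous_grad.comp (by fun_prop)).aestronglyMeasurable)
    (ae_of_all _ fun z => ?_)
  refine (h.grad_le hs _).trans ?_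
  have h3 : ‖a + t • z‖ ≤ ‖a‖ + |t| * ‖z‖ := by
    refine (norm_add_le _ _).trans ?_
    rw [norm_smul, Real.norm_eq_abs]
  have := mul_le_mul_of_nonneg_left h3 (by positivity : 0 ≤ 2 * s)
  linarith

theorem norm_sub_Mh (h : Loc d s A f) (hs : 0 ≤ s) (x : ℝ) (y v : E d) :
    ‖gradient f v - Mh x (gradient f) y‖ ≤ 2 * s * (‖v - x • y‖ + √(1 - x ^ 2) * √d) := by
  have hi := integrable_grad_aff h hs (x • y) (√(1 - x ^ 2))
  have e : gradient f v - Mh x (gradient f) y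
      = ∫ z, (gradient f v - gradient f (x • y + √(1 - x ^ 2) • z)) ∂(gam d) := by
    rw [integral_sub (integrable_const _) hi]
    simp [Mh]
  rw [e]
  have hb : Integrable (fun z : E d => 2 * s * (‖v - x • y‖ + √(1 - x ^ 2) * ‖z‖)) (gam d) :=
    ((integrable_const _).add (intn.const_mul _)).const_mul _
  refine (norm_integral_le_of_norm_le hb (ae_of_all _ fun z => ?_)).trans ?_
  · refine (h.grad_lip hs _ _).trans ?_
    refine mul_le_mul_of_nonneg_left ?_ (by positivity)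
    have : v - (x • y + √(1 - x ^ 2) • z) = (v - x • y) - √(1 - x ^ 2) • z := by abel
    rw [this]
    refine (norm_sub_le _ _).trans ?_
    rw [norm_smul, Real.norm_eq_abs, abs_of_nonneg (Real.sqrt_nonneg _)]
  · have h1 : Integrable (fun z : E d => √(1 - x ^ 2) * ‖z‖) (gam d) := intn.const_mul _
    rw [integral_const_mul, integral_add (integrable_const _) h1, integral_const_mul]
    simp only [integral_const, probReal_univ, smul_eq_mul, one_mul]
    have := integral_norm_gam_le (d := d)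
    gcongr

theorem norm_Mh (h : Loc d s A f) (hs : 0 ≤ s) (hA : √d ≤ A) {x : ℝ} (hx : |x| ≤ 1) (y : E d) :
    ‖Mh x (gradient f) y‖ ≤ 3 * s * (A + ‖y‖) := by
  have h1 := norm_sub_Mh h hs x y 0
  have h2 : ‖Mh x (gradient f) y‖ ≤ ‖gradient f 0‖ + ‖gradient f 0 - Mh x (gradient f) y‖ := by
    have : Mh x (gradient f) y = gradient f 0 - (gradient f 0 - Mh x (gradient f) y) := by abel
    conv_lhs => rw [this]
    exact norm_sub_le _ _
  have h3 : ‖(0 : E d) - x • y‖ ≤ ‖y‖ := by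
    rw [zero_sub, norm_neg, norm_smul, Real.norm_eq_abs]
    exact mul_le_of_le_one_left (norm_nonneg _) hx
  have h4 : √(1 - x ^ 2) ≤ 1 := by
    rw [Real.sqrt_le_one]; nlinarith [sq_nonneg x]
  have h5 : √(1 - x ^ 2) * √d ≤ A :=
    (mul_le_of_le_one_left (Real.sqrt_nonneg _) h4).trans hA
  have h6 : 2 * s * (‖(0 : E d) - x • y‖ + √(1 - x ^ 2) * √d) ≤ 2 * s * (‖y‖ + A) :=
    mul_le_mul_of_nonneg_left (add_le_add h3 h5) (by positivity)
  have h7 := h.grad0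
  have h8 : 0 ≤ s * ‖y‖ := by positivity
  nlinarith

theorem hasGradient (h : Loc d s A f) (b u : E d) (t : ℝ) (ζ : E d) :
    HasGradientAt (fun ζ => f (b + t • ζ) + ⟪u, ζ⟫) (t • gradient f (b + t • ζ) + u) ζ := by
  have h1 : HasGradientAt f (gradient f (b + t • ζ)) (b + t • ζ) :=
    (h.smooth.differentiable (by norm_num) _).hasGradientAt
  rw [hasGradientAt_iff_hasFDerivAt] at h1 ⊢
  have h2 : HasFDerivAt (fun ζ : E d => b + t • ζ) (t • ContinuousLinearMap.id ℝ (E d)) ζ :=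
    ((hasFDerivAt_id ζ).const_smul t).const_add b
  have h3 := h1.comp ζ h2
  have h4 : HasFDerivAt (fun ζ : E d => ⟪u, ζ⟫) (innerSL ℝ u) ζ := (innerSL ℝ u).hasFDerivAt
  refine (h3.add h4).congr_fderiv ?_
  ext v
  simp [InnerProductSpace.toDual_apply_apply]

theorem norm_fbar {C0 : ℝ} (hs : 0 ≤ s) (hA : √d ≤ A) {n : ℕ} {y : E d}
    (hF : ∀ z : E d, ‖freeD f n y z‖ ≤ 8 * s * (A + ‖y‖ + ‖z‖)) (_ : 0 < C0) :
    ‖fbar f n y‖ ≤ 16 * s * (A + ‖y‖) := by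
  have h1 : Integrable (fun z : E d => A + ‖y‖ + ‖z‖) (gam d) := (integrable_const _).add intn
  have hb : Integrable (fun z : E d => 8 * s * (A + ‖y‖ + ‖z‖)) (gam d) := h1.const_mul _
  refine (norm_integral_le_of_norm_le hb (ae_of_all _ hF)).trans ?_
  rw [integral_const_mul, integral_add (integrable_const _) intn]
  simp only [integral_const, probReal_univ, smul_eq_mul, one_mul]
  have h2 := integral_norm_gam_le (d := d)
  have h3 : A + ‖y‖ + ∫ z : E d, ‖z‖ ∂(gam d) ≤ 2 * (A + ‖y‖) := by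
    have := norm_nonneg y
    linarith
  calc 8 * s * (A + ‖y‖ + ∫ z : E d, ‖z‖ ∂(gam d)) ≤ 8 * s * (2 * (A + ‖y‖)) :=
        mul_le_mul_of_nonneg_left h3 (by positivity)
    _ = 16 * s * (A + ‖y‖) := by ring

theorem norm_sumMh (h : Loc d s A f) (hs : 0 ≤ s) (hA : √d ≤ A) {J : ℕ} {c w : Fin J → ℝ}
    (hc : ∀ j, c j ∈ Ioo (-1 : ℝ) 1) (hw : ∀ j, 0 < w j) (hw2 : ∑ j, w j = 2) (y : E d) :
    ‖∑ j, w j • Mh (c j) (gradient f) y‖ ≤ 6 * s * (A + ‖y‖) := by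
  refine (norm_sum_le _ _).trans ?_
  calc ∑ j, ‖w j • Mh (c j) (gradient f) y‖ ≤ ∑ j, w j * (3 * s * (A + ‖y‖)) := by
        refine Finset.sum_le_sum fun j _ => ?_
        rw [norm_smul, Real.norm_eq_abs, abs_of_pos (hw j)]
        exact mul_le_mul_of_nonneg_left
          (norm_Mh h hs hA (abs_le.mpr ⟨(hc j).1.le, (hc j).2.le⟩) y) (hw j).le
    _ = 6 * s * (A + ‖y‖) := by rw [← Finset.sum_mul, hw2]; ring

/-- the algebraic identities -/
theorem ident {J : ℕ} {β : ℝ} (hβ0 : 0 ≤ β) (hβ1 : β < 1) (c w : Fin J → ℝ) (f : E d → ℝ) (n : ℕ)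
    (y z z₁ ζ : E d) :
    √(1 - β) • gradient f (cen β c w f n y z z₁ + √(1 - β) • ζ) +
      (1 / √(1 - β)) • (cen β c w f n y z z₁ - √β • (√β • turn f n y z + √(1 - β) • z₁)) =
    √(1 - β) • (gradient f (cen β c w f n y z z₁ + √(1 - β) • ζ) - Mh (-β) (gradient f) y) +
      (β / √(1 - β)) • (-(turn f n y z - (-y - freeD f n y z)) +
        (fbar f n y - ∫ x in (-1 : ℝ)..1, Mh x (gradient f) y) + Tq c w f y) := by
  have hσ : 0 < √(1 - β) := Real.sqrt_pos.mpr (by linarith)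
  have h1 : √(1 - β) * √(1 - β) = 1 - β := Real.mul_self_sqrt (by linarith)
  have h2 : √β * √β = β := Real.mul_self_sqrt hβ0
  have e1 : cen β c w f n y z z₁ - √β • (√β • turn f n y z + √(1 - β) • z₁) =
      β • (-(turn f n y z - (-y - freeD f n y z)) +
        (fbar f n y - ∫ x in (-1 : ℝ)..1, Mh x (gradient f) y) + Tq c w f y)
      - (1 - β) • Mh (-β) (gradient f) y := by
    have hb' : ∀ X : E d, β • X = √β • (√β • X) := fun X => by rw [smul_smul, h2]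
    rw [hb' (-(turn f n y z - (-y - freeD f n y z)) +
        (fbar f n y - ∫ x in (-1 : ℝ)..1, Mh x (gradient f) y) + Tq c w f y)]
    unfold cen mY Tq
    module
  have h3 : 1 / √(1 - β) * β = β / √(1 - β) := by ring
  have h4 : 1 / √(1 - β) * (1 - β) = √(1 - β) := by
    rw [one_div, inv_mul_eq_div, div_eq_iff hσ.ne', h1]
  rw [e1, smul_sub, smul_smul, smul_smul, h3, h4, smul_sub]
  abel

theorem cen_near {C0 β : ℝ} (h : Loc d s A f) (hs : 0 ≤ s) (hA : √d ≤ A) (hβ0 : 0 ≤ β)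
    (hβ1 : β < 1) {J : ℕ} {c w : Fin J → ℝ} (hc : ∀ j, c j ∈ Ioo (-1 : ℝ) 1) (hw : ∀ j, 0 < w j)
    (hw2 : ∑ j, w j = 2) {n : ℕ} {y z : E d} (z₁ : E d)
    (hF : ∀ z : E d, ‖freeD f n y z‖ ≤ 8 * s * (A + ‖y‖ + ‖z‖)) (hC0 : 0 < C0) :
    ‖cen β c w f n y z z₁ - (-β) • y‖ ≤ 33 * s * (A + ‖y‖ + ‖z‖) + √(1 - β) * ‖z₁‖ := by
  have h2 : √β * √β = β := Real.mul_self_sqrt hβ0
  have e1 : cen β c w f n y z z₁ - (-β) • y =
      β • (-(∑ j, w j • Mh (c j) (gradient f) y) - freeD f n y z + fbar f n y)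
      + (√β * √(1 - β)) • z₁ - (1 - β) • Mh (-β) (gradient f) y := by
    have hb' : ∀ X : E d, β • X = √β • (√β • X) := fun X => by rw [smul_smul, h2]
    rw [hb' (-(∑ j, w j • Mh (c j) (gradient f) y) - freeD f n y z + fbar f n y), neg_smul, hb' y]
    unfold cen mY
    module
  have hA0 : 0 ≤ A := (Real.sqrt_nonneg _).trans hA
  have b1 := norm_sumMh h hs hA hc hw hw2 y
  have b2 := hF z
  have b3 := norm_fbar (C0 := C0) hs hA hF hC0
  have b4 := norm_Mh h hs hA (x := -β) (by rw [abs_neg, abs_of_nonneg hβ0]; exact hβ1.le) y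
  have hz := norm_nonneg z
  have hy := norm_nonneg y
  have hsz : 0 ≤ s * ‖z‖ := by positivity
  have hsy : 0 ≤ s * (A + ‖y‖) := by positivity
  have t1 : ‖-(∑ j, w j • Mh (c j) (gradient f) y) - freeD f n y z + fbar f n y‖
      ≤ 30 * s * (A + ‖y‖ + ‖z‖) := by
    refine (norm_add_le _ _).trans ?_
    refine (add_le_add_left (norm_sub_le _ _) _).trans ?_
    rw [norm_neg]
    nlinarith
  have t2 : ‖β • (-(∑ j, w j • Mh (c j) (gradient f) y) - freeD f n y z + fbar f n y)‖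
      ≤ 30 * s * (A + ‖y‖ + ‖z‖) := by
    rw [norm_smul, Real.norm_eq_abs, abs_of_nonneg hβ0]
    exact (mul_le_of_le_one_left (norm_nonneg _) hβ1.le).trans t1
  have t3 : ‖(√β * √(1 - β)) • z₁‖ ≤ √(1 - β) * ‖z₁‖ := by
    rw [norm_smul, Real.norm_eq_abs, abs_of_nonneg (by positivity)]
    have : √β ≤ 1 := by rw [Real.sqrt_le_one]; exact hβ1.le
    have h5 : √β * √(1 - β) ≤ √(1 - β) := mul_le_of_le_one_left (Real.sqrt_nonneg _) this
    exact mul_le_mul_of_nonneg_right h5 (norm_nonneg _)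
  have t4 : ‖(1 - β) • Mh (-β) (gradient f) y‖ ≤ 3 * s * (A + ‖y‖) := by
    rw [norm_smul, Real.norm_eq_abs, abs_of_nonneg (by linarith)]
    exact (mul_le_of_le_one_left (norm_nonneg _) (by linarith)).trans b4
  rw [e1]
  refine (norm_sub_le _ _).trans ?_
  refine (add_le_add_left (norm_add_le _ _) _).trans ?_
  nlinarith

theorem finish {S X Y W P Q K c2 : ℝ} (h6 : S ≤ 6 * (K + 4 * X + 16 * Y + c2 * W + P + Q))
    (hK : K ≤ 4356 * W) (hX : 0 ≤ X) (hY : 0 ≤ Y) (hW : 0 ≤ W) (hP : 0 ≤ P) (hQ : 0 ≤ Q)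
    (hc2 : 0 ≤ c2) :
    10 * S + 80 * Y ≤ (60 * (4356 + c2) + 1100) * ((Y + X) + W + (P + Q)) := by
  have a1 := mul_nonneg hc2 hX
  have a2 := mul_nonneg hc2 hY
  have a3 := mul_nonneg hc2 hW
  have a4 := mul_nonneg hc2 hP
  have a5 := mul_nonneg hc2 hQ
  have e : (60 * (4356 + c2) + 1100) * ((Y + X) + W + (P + Q)) =
    262460 * Y + 262460 * X + 262460 * W + 262460 * P + 262460 * Q + 60 * (c2 * Y) +
      60 * (c2 * X) + 60 * (c2 * W) + 60 * (c2 * P) + 60 * (c2 * Q) := by ring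
  rw [e]
  linarith

/-- elementary estimate of the constants -/
theorem numeric {C0 s A β D y z z₁ N1 N2 : ℝ} (hs : 0 < s) (hβ : 1 / 2 ≤ β) (hβ1 : β < 1)
    (hD : 0 ≤ D) (hR : 0 ≤ A + y + z) (hC0 : 0 < C0) :
    10 * (66 * √(1 - β) * s ^ 2 * (A + y + z) + 2 * s * (1 - β) * (z₁ + 2 * √D) +
      (C0 * s ^ 2 * (A + y + z) + N1 + N2) / √(1 - β)) ^ 2 + 20 * (2 * s * (1 - β)) ^ 2 * D ≤
    (60 * (4356 + C0 ^ 2) + 1100) * ((1 - β) ^ 2 * s ^ 2 * (D + z₁ ^ 2) +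
      (s ^ 2 * (A + y + z)) ^ 2 / (1 - β) + (N1 ^ 2 + N2 ^ 2) / (1 - β)) := by
  have hσ : 0 < √(1 - β) := Real.sqrt_pos.mpr (by linarith)
  have h1 : √(1 - β) ^ 2 = 1 - β := Real.sq_sqrt (by linarith)
  have h2 : √D ^ 2 = D := Real.sq_sqrt hD
  set R := A + y + z with hRdef
  set σ := √(1 - β) with hσdef
  have hb : 0 < 1 - β := by linarith
  have e0 : 66 * σ * s ^ 2 * R + 2 * s * (1 - β) * (z₁ + 2 * √D) +
      (C0 * s ^ 2 * R + N1 + N2) / σ = 66 * σ * s ^ 2 * R + 2 * s * (1 - β) * z₁ +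
      4 * s * (1 - β) * √D + C0 * s ^ 2 * R / σ + N1 / σ + N2 / σ := by
    field_simp
    ring
  have six : ∀ a b c d e f : ℝ, (a + b + c + d + e + f) ^ 2 ≤
      6 * (a ^ 2 + b ^ 2 + c ^ 2 + d ^ 2 + e ^ 2 + f ^ 2) := by
    intro a b c d e f
    have := sq_sum_le_card_mul_sum_sq (s := (Finset.univ : Finset (Fin 6)))
      (f := ![a, b, c, d, e, f])
    simpa [Fin.sum_univ_succ, add_assoc] using this
  have k1 : (66 * σ * s ^ 2 * R) ^ 2 ≤ 4356 * ((s ^ 2 * R) ^ 2 / (1 - β)) := by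
    have : (66 * σ * s ^ 2 * R) ^ 2 = 4356 * ((s ^ 2 * R) ^ 2 * (1 - β)) := by
      rw [← h1]; ring
    rw [this]
    have h5 : (s ^ 2 * R) ^ 2 * (1 - β) ≤ (s ^ 2 * R) ^ 2 / (1 - β) := by
      rw [le_div_iff₀ hb]
      have : (1 - β) * (1 - β) ≤ 1 := by nlinarith
      nlinarith [sq_nonneg (s ^ 2 * R)]
    linarith
  have k2 : (2 * s * (1 - β) * z₁) ^ 2 = 4 * ((1 - β) ^ 2 * s ^ 2 * z₁ ^ 2) := by ring
  have k3 : (4 * s * (1 - β) * √D) ^ 2 = 16 * ((1 - β) ^ 2 * s ^ 2 * D) := by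
    calc (4 * s * (1 - β) * √D) ^ 2 = 16 * ((1 - β) ^ 2 * s ^ 2 * √D ^ 2) := by ring
      _ = _ := by rw [h2]
  have k4 : (C0 * s ^ 2 * R / σ) ^ 2 = C0 ^ 2 * ((s ^ 2 * R) ^ 2 / (1 - β)) := by
    rw [div_pow, h1]; ring
  have k5 : (N1 / σ) ^ 2 = N1 ^ 2 / (1 - β) := by rw [div_pow, h1]
  have k6 : (N2 / σ) ^ 2 = N2 ^ 2 / (1 - β) := by rw [div_pow, h1]
  have hx : 0 ≤ (1 - β) ^ 2 * s ^ 2 * z₁ ^ 2 := by positivity
  have hx2 : 0 ≤ (1 - β) ^ 2 * s ^ 2 * D := by positivity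
  have hx3 : 0 ≤ (s ^ 2 * R) ^ 2 / (1 - β) := by positivity
  have hx4 : 0 ≤ N1 ^ 2 / (1 - β) := by positivity
  have hx5 : 0 ≤ N2 ^ 2 / (1 - β) := by positivity
  have k7 : 20 * (2 * s * (1 - β)) ^ 2 * D = 80 * ((1 - β) ^ 2 * s ^ 2 * D) := by ring
  have k8 : (N1 ^ 2 + N2 ^ 2) / (1 - β) = N1 ^ 2 / (1 - β) + N2 ^ 2 / (1 - β) := add_div _ _ _
  rw [e0, k7, k8]
  have h6 := six (66 * σ * s ^ 2 * R) (2 * s * (1 - β) * z₁) (4 * s * (1 - β) * √D)
    (C0 * s ^ 2 * R / σ) (N1 / σ) (N2 / σ)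
  rw [k2, k3, k4, k5, k6] at h6
  have hC2 : 0 ≤ C0 ^ 2 := sq_nonneg _
  have k9 : (1 - β) ^ 2 * s ^ 2 * (D + z₁ ^ 2) =
      (1 - β) ^ 2 * s ^ 2 * D + (1 - β) ^ 2 * s ^ 2 * z₁ ^ 2 := by ring
  rw [k9]
  exact finish h6 k1 hx hx2 hx3 hx4 hx5 hC2

end LKL

theorem lkl (hG : S_GKL) (hGib : S_GIB) (hP : S_PATH5) : S_LKL := by
  obtain ⟨C0, hC0, hP⟩ := hP
  refine ⟨60 * (4356 + C0 ^ 2) + 1100, by positivity, ?_⟩
  intro d J n s A β c w f hd hs hs1 hA hL hβ hβ1 hn hc hw hw2 y z z₁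
  obtain ⟨p1, -, -, p4⟩ := hP d s A f hs (by linarith) hA hL n hn
  have hb : 0 < 1 - β := by linarith
  have hσ : 0 < √(1 - β) := Real.sqrt_pos.mpr hb
  have hσσ : √(1 - β) * √(1 - β) = 1 - β := Real.mul_self_sqrt hb.le
  have hA0 : 0 ≤ A := (Real.sqrt_nonneg _).trans hA
  -- the potential `g`
  set b := cen β c w f n y z z₁ with hbdef
  set ww := √β • turn f n y z + √(1 - β) • z₁ with hwdef
  set u := (1 / √(1 - β)) • (b - √β • ww) with hudef
  set a₀ : ℝ := 66 * √(1 - β) * s ^ 2 * (A + ‖y‖ + ‖z‖) + 2 * s * (1 - β) * (‖z₁‖ + 2 * √d) +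
      (C0 * s ^ 2 * (A + ‖y‖ + ‖z‖) + ‖fbar f n y - ∫ x in (-1 : ℝ)..1, Mh x (gradient f) y‖
        + ‖Tq c w f y‖) / √(1 - β) with ha₀
  have ha₀0 : 0 ≤ a₀ := by positivity
  have hgrad : ∀ ζ : E d, gradient (fun ζ => f (b + √(1 - β) • ζ) + ⟪u, ζ⟫) ζ =
      √(1 - β) • gradient f (b + √(1 - β) • ζ) + u := fun ζ =>
    (LKL.hasGradient hL b u _ ζ).gradient
  have hbound : ∀ ζ : E d, ‖gradient (fun ζ => f (b + √(1 - β) • ζ) + ⟪u, ζ⟫) ζ‖ ≤
      a₀ + 2 * s * (1 - β) * ‖ζ‖ := by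
    intro ζ
    rw [hgrad, hudef, hbdef, hwdef, LKL.ident (by linarith) hβ1]
    refine (norm_add_le _ _).trans ?_
    rw [norm_smul, norm_smul, Real.norm_eq_abs, Real.norm_eq_abs, abs_of_pos hσ,
      abs_of_nonneg (by positivity)]
    have q1 := LKL.norm_sub_Mh hL hs.le (-β) y (b + √(1 - β) • ζ)
    have q2 := LKL.cen_near (C0 := C0) (z := z) hL hs.le hA (by linarith : 0 ≤ β) hβ1 hc hw hw2 z₁
      (fun z => p4 y z) hC0
    have q3 : ‖b + √(1 - β) • ζ - (-β) • y‖ ≤ 33 * s * (A + ‖y‖ + ‖z‖) + √(1 - β) * ‖z₁‖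
        + √(1 - β) * ‖ζ‖ := by
      have : b + √(1 - β) • ζ - (-β) • y = (b - (-β) • y) + √(1 - β) • ζ := by abel
      rw [this]
      refine (norm_add_le _ _).trans ?_
      rw [norm_smul, Real.norm_eq_abs, abs_of_pos hσ]
      linarith
    have q4 : √(1 - (-β) ^ 2) ≤ 2 * √(1 - β) := by
      rw [show (2 : ℝ) * √(1 - β) = √(4 * (1 - β)) by
        rw [Real.sqrt_mul (by norm_num), show (4 : ℝ) = 2 ^ 2 by norm_num,
          Real.sqrt_sq (by norm_num)]]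
      exact Real.sqrt_le_sqrt (by nlinarith)
    have q5 : √(1 - (-β) ^ 2) * √d ≤ 2 * √(1 - β) * √d :=
      mul_le_mul_of_nonneg_right q4 (Real.sqrt_nonneg _)
    have q6 : √(1 - β) * ‖gradient f (b + √(1 - β) • ζ) - Mh (-β) (gradient f) y‖ ≤
        √(1 - β) * (2 * s * (33 * s * (A + ‖y‖ + ‖z‖) + √(1 - β) * ‖z₁‖
        + √(1 - β) * ‖ζ‖ + 2 * √(1 - β) * √d)) := by
      refine mul_le_mul_of_nonneg_left (q1.trans ?_) hσ.le
      refine mul_le_mul_of_nonneg_left ?_ (by positivity)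
      linarith
    have q7 : √(1 - β) * (2 * s * (33 * s * (A + ‖y‖ + ‖z‖) + √(1 - β) * ‖z₁‖
        + √(1 - β) * ‖ζ‖ + 2 * √(1 - β) * √d)) =
        66 * √(1 - β) * s ^ 2 * (A + ‖y‖ + ‖z‖) + 2 * s * (1 - β) * (‖z₁‖ + 2 * √d)
          + 2 * s * (1 - β) * ‖ζ‖ := by
      have : √(1 - β) * (2 * s * (33 * s * (A + ‖y‖ + ‖z‖) + √(1 - β) * ‖z₁‖
        + √(1 - β) * ‖ζ‖ + 2 * √(1 - β) * √d)) =
        66 * √(1 - β) * s ^ 2 * (A + ‖y‖ + ‖z‖) + 2 * s * (√(1 - β) * √(1 - β)) *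
          (‖z₁‖ + 2 * √d) + 2 * s * (√(1 - β) * √(1 - β)) * ‖ζ‖ := by ring
      rw [this, hσσ]
    have r1 : ‖-(turn f n y z - (-y - freeD f n y z)) +
        (fbar f n y - ∫ x in (-1 : ℝ)..1, Mh x (gradient f) y) + Tq c w f y‖ ≤
        C0 * s ^ 2 * (A + ‖y‖ + ‖z‖) + ‖fbar f n y - ∫ x in (-1 : ℝ)..1, Mh x (gradient f) y‖
        + ‖Tq c w f y‖ := by
      refine (norm_add_le _ _).trans (add_le_add_left ?_ _)
      refine (norm_add_le _ _).trans (add_le_add_left ?_ _)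
      rw [norm_neg]
      exact p1 y z
    have r2 : β / √(1 - β) * ‖-(turn f n y z - (-y - freeD f n y z)) +
        (fbar f n y - ∫ x in (-1 : ℝ)..1, Mh x (gradient f) y) + Tq c w f y‖ ≤
        (C0 * s ^ 2 * (A + ‖y‖ + ‖z‖) + ‖fbar f n y - ∫ x in (-1 : ℝ)..1, Mh x (gradient f) y‖
        + ‖Tq c w f y‖) / √(1 - β) := by
      rw [div_mul_eq_mul_div]
      refine div_le_div_of_nonneg_right ?_ hσ.le
      exact (mul_le_of_le_one_left (norm_nonneg _) hβ1.le).trans r1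
    rw [q7] at q6
    rw [ha₀]
    linarith
  have hcd : ContDiff ℝ 1 (fun ζ : E d => f (b + √(1 - β) • ζ) + ⟪u, ζ⟫) := by
    have h1 : ContDiff ℝ 1 f := hL.smooth.of_le (by norm_num)
    have h2 : ContDiff ℝ 1 (fun ζ : E d => b + √(1 - β) • ζ) := by fun_prop
    exact (h1.comp h2).add (contDiff_const.inner ℝ contDiff_id)
  have ha₁ : 2 * s * (1 - β) ≤ 1 / 20 := by nlinarith
  obtain ⟨-, g2, g3⟩ := hG d _ a₀ (2 * s * (1 - β)) hcd ha₀0 (by positivity) ha₁ hbound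
  -- the Gibbs refresh
  have hint0 : Integrable (fun y => Real.exp (-f y)) (gam d) :=
    (hG d f (s * A) (2 * s) (hL.smooth.of_le (by norm_num)) (by positivity) (by positivity)
      (by linarith) (fun x => hL.grad_le hs.le x)).1
  have hint1 : ∀ w', Integrable (fun ζ : E d => Real.exp (-f (√β • w' + √(1 - β) • ζ))) (gam d) := by
    intro w'
    have hg' : ∀ ζ : E d, HasGradientAt (fun ζ : E d => f (√β • w' + √(1 - β) • ζ))
        (√(1 - β) • gradient f (√β • w' + √(1 - β) • ζ)) ζ := fun ζ => by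
      have := LKL.hasGradient hL (√β • w') 0 (√(1 - β)) ζ
      simpa using this
    have hσ1 : √(1 - β) ≤ 1 := by rw [Real.sqrt_le_one]; linarith
    refine (hG d (fun ζ : E d => f (√β • w' + √(1 - β) • ζ)) (s * A + 2 * s * ‖√β • w'‖) (2 * s)
      ?_ (by positivity) (by positivity) (by linarith) ?_).1
    · have h1 : ContDiff ℝ 1 f := hL.smooth.of_le (by norm_num)
      have h2 : ContDiff ℝ 1 (fun ζ : E d => √β • w' + √(1 - β) • ζ) := by fun_prop
      exact h1.comp h2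
    · intro ζ
      rw [(hg' ζ).gradient, norm_smul, Real.norm_eq_abs, abs_of_pos hσ]
      refine (mul_le_of_le_one_left (norm_nonneg _) hσ1).trans ?_
      refine (hL.grad_le hs.le _).trans ?_
      have h3 : ‖√β • w' + √(1 - β) • ζ‖ ≤ ‖√β • w'‖ + ‖ζ‖ := by
        refine (norm_add_le _ _).trans ?_
        rw [norm_smul (√(1 - β)), Real.norm_eq_abs, abs_of_pos hσ]
        have := mul_le_of_le_one_left (norm_nonneg ζ) hσ1
        linarith
      have := mul_le_mul_of_nonneg_left h3 (by positivity : 0 ≤ 2 * s)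
      linarith
  have hgb := (hGib d f β hL.smooth.continuous (by linarith) hβ1 hint0 hint1).2 b ww
  rw [hgb]
  have key := klDiv_map_le (μ := loc fun ζ : E d => f (b + √(1 - β) • ζ) + ⟪u, ζ⟫) (ν := gam d)
    (g := fun ζ : E d => b + √(1 - β) • ζ) (by fun_prop)
  refine key.trans (g3.trans (ENNReal.ofReal_le_ofReal ?_))
  rw [ha₀]
  exact LKL.numeric hs hβ hβ1 (by positivity) (by positivity) hC0

end LCS.Fifth
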